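import Vale.Agent.Lib.P154.PChain.End
import Vale.Agent.Lib.P154.Neg.PoiTail
import Vale.Agent.Lib.P154.Neg.HandOff

/-!
The tail from a family with small moments that dominates the posteriors in the convex order.
-/

namespace Vale.Agent.Lib.P154.PChain

open Vale.Agent.Lib.P154 Vale.Agent.Lib.P154.Neg Vale.Agent.Lib.P154.Chain
open Filter Topology

/-- a symmetric expectation on the simplex is a functional of the tree recursion -/
theorem bexp_of_symExp {E : Ex3} (h : SymExp E Simp) : BExp E Simp where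
  sup := fun _ _ _ h => h
  add f g _ _ := h.add f g
  smul := h.smul
  nonneg := h.nonneg
  congr f g hfg := by
    have e0 : ∀ u v : Fn3, (∀ a b c, Simp a b c → u a b c = v a b c) → E u ≤ E v := by
      intro u v huv
      have a1 := h.nonneg (fun a b c => v a b c + (-1) * u a b c) (fun a b c hs => by
        simp [huv a b c hs])
      rw [h.add, h.smul] at a1
      linarith
    exact le_antisymm (e0 f g hfg) (e0 g f (fun a b c hs => (hfg a b c hs).symm))
  one := h.one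
  swap := h.swap
  cyc := h.cyc

theorem cvx_I2 : Cvx I2 := by
  refine ⟨bd_I2, ?_⟩
  intro a b c a' b' c' s _ _ h0 h1
  unfold I2
  have h2 : 0 ≤ s * (1 - s) := mul_nonneg h0 (by linarith)
  have e : s * ((a - 1 / 3) ^ 2 + (b - 1 / 3) ^ 2 + (c - 1 / 3) ^ 2)
      + (1 - s) * ((a' - 1 / 3) ^ 2 + (b' - 1 / 3) ^ 2 + (c' - 1 / 3) ^ 2)
      - ((s * a + (1 - s) * a' - 1 / 3) ^ 2 + (s * b + (1 - s) * b' - 1 / 3) ^ 2
        + (s * c + (1 - s) * c' - 1 / 3) ^ 2)
      = s * (1 - s) * ((a - a') ^ 2 + (b - b') ^ 2 + (c - c') ^ 2) := by ring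
  have h3 : 0 ≤ s * (1 - s) * ((a - a') ^ 2 + (b - b') ^ 2 + (c - c') ^ 2) := by positivity
  linarith

/-- the iterates of the recursion of the Poisson tree from a functional -/
noncomputable def iterEx (d t : ℝ) (E0 : Ex3) : ℕ → Ex3
  | 0 => E0
  | n + 1 => poiPath (chan (-t) (iterEx d t E0 n)) d

theorem iterEx_bexp {d t : ℝ} (hd : 0 ≤ d) (hl : Adm (-t)) {E0 : Ex3} (hE0 : BExp E0 Simp) (n : ℕ) :
    BExp (iterEx d t E0 n) Simp := by
  induction n with
  | zero => exact hE0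
  | succ n ih => exact poiPath_bexp (chan_bexp ih hl) hd

theorem iterEx_co {d t : ℝ} (hd : 0 ≤ d) (hl : Adm (-t)) {E0 : Ex3} (hE0 : BExp E0 Simp) {N : ℕ}
    (hco : CO (gwEx (poissonLaw d) (-t) N) E0) (n : ℕ) :
    CO (gwEx (poissonLaw d) (-t) (N + n)) (iterEx d t E0 n) := by
  have hE : ∀ n, BExp (gwEx (poissonLaw d) (-t) n) Simp :=
    gwEx_bexp (poisson_nonneg0 hd) (poisson_hasSum0 d) hl
  induction n with
  | zero => exact hco
  | succ n ih =>
    exact gwEx_next_co (poisson_nonneg0 hd) (poisson_hasSum0 d) hl (hE (N + n)) (iterEx_bexp hd hl hE0 n) ih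

/-- The Taylor tail, for a family that dominates the posteriors. -/
theorem tail_of_class {d t : ℝ} (hd : 0 < d) (ht0 : 0 < t) (ht : t ≤ 1 / 2)
    (hKS : d * t ^ 2 ≤ 1) {E0 : Ex3} (hE0 : BExp E0 Simp) (hcl : InClass poiKap poiBp poiBm E0 poiM0) {N : ℕ}
    (hco : CO (gwEx (poissonLaw d) (-t) N) E0) :
    Tendsto (fun n => gwEx (poissonLaw d) (-t) n I2) atTop (𝓝 0) := by
  have hl : Adm (-t) := ⟨by linarith only [ht], by linarith only [ht0]⟩
  have hE : ∀ n, BExp (gwEx (poissonLaw d) (-t) n) Simp :=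
    gwEx_bexp (poisson_nonneg0 hd.le) (poisson_hasSum0 d) hl
  have hIt := iterEx_bexp hd.le hl hE0
  have hM0v : poiM0 = 39 / 2500 := rfl
  have hc0v : poiC = 1 / 200 := rfl
  have hM0R : 0 < poiM0 := by rw [hM0v]; norm_num
  have hcR : 0 < poiC := by rw [hc0v]; norm_num
  have hcMR : poiC * poiM0 ≤ 1 := by rw [hc0v, hM0v]; norm_num
  have hbpR : 0 ≤ poiBp := by unfold poiBp; norm_num
  have hbmR : 0 ≤ poiBm := by unfold poiBm; norm_num
  have hkR : 0 ≤ poiKap := by unfold poiKap; norm_num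
  -- the radii
  let m : ℕ → ℝ := fun n => Nat.rec poiM0 (fun _ x => x - poiC / 2 * x ^ 2) n
  have hms : ∀ n, m (n + 1) = m n - poiC / 2 * m n ^ 2 := fun n => rfl
  have hbd : ∀ n, 0 < m n ∧ m n ≤ poiM0 := by
    intro n
    induction n with
    | zero => exact ⟨hM0R, le_refl _⟩
    | succ n ih =>
      obtain ⟨i1, i2⟩ := ih
      rw [hms]
      have h2 : poiC / 2 * m n ≤ 1 / 2 := by
        have := mul_le_mul_of_nonneg_left i2 hcR.le
        linarith only [this, hcMR]
      have h3 : m n - poiC / 2 * m n ^ 2 = m n * (1 - poiC / 2 * m n) := by ring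
      constructor
      · rw [h3]
        exact mul_pos i1 (by linarith only [h2])
      · have : 0 ≤ poiC / 2 * m n ^ 2 := by positivity
        linarith only [this, i2]
  have hclass : ∀ n, InClass poiKap poiBp poiBm (iterEx d t E0 n) (m n) := by
    intro n
    induction n with
    | zero => exact hcl
    | succ n ih =>
      obtain ⟨i1, i2⟩ := hbd n
      have h2 := poi_step hd ht0 ht hKS (hIt n) i1 i2 ih
      have h3 : m n - poiC * m n ^ 2 ≤ m (n + 1) := by
        rw [hms]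
        have : 0 ≤ poiC / 2 * m n ^ 2 := by positivity
        linarith only [this]
      have h4 : 0 ≤ m n - poiC * m n ^ 2 := by
        have h5 : poiC * m n ≤ 1 := by
          have := mul_le_mul_of_nonneg_left i2 hcR.le
          linarith only [this, hcMR]
        have h6 : m n - poiC * m n ^ 2 = m n * (1 - poiC * m n) := by ring
        rw [h6]
        exact mul_nonneg i1.le (by linarith only [h5])
      exact InClass.mono hbpR hbmR hkR h4 h3 h2
  -- the radii tend to zero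
  have hanti : Antitone m := by
    refine antitone_nat_of_succ_le (fun n => ?_)
    rw [hms]
    have : 0 ≤ poiC / 2 * m n ^ 2 := by positivity
    linarith only [this]
  have hbdd : BddBelow (Set.range m) := ⟨0, by rintro _ ⟨n, rfl⟩; exact (hbd n).1.le⟩
  have hlim := tendsto_atTop_ciInf hanti hbdd
  set L := ⨅ n, m n with hL
  have hl1 : Tendsto (fun n => m (n + 1)) atTop (𝓝 L) := hlim.comp (tendsto_add_atTop_nat 1)
  have hl2 : Tendsto (fun n => m n - poiC / 2 * m n ^ 2) atTop (𝓝 (L - poiC / 2 * L ^ 2)) :=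
    hlim.sub ((hlim.pow 2).const_mul _)
  have hLeq : L = L - poiC / 2 * L ^ 2 := by
    refine tendsto_nhds_unique hl1 ?_
    exact hl2.congr (fun n => (hms n).symm)
  have hL2 : L ^ 2 = 0 := by
    have h5 : poiC / 2 * L ^ 2 = 0 := by linarith only [hLeq]
    rcases mul_eq_zero.1 h5 with h7 | h7
    · exact absurd h7 (by positivity)
    · exact h7
  have hLz : L = 0 := by simpa using hL2
  rw [hLz] at hlim
  have hsq : Tendsto (fun n => gwEx (poissonLaw d) (-t) (N + n) I2) atTop (𝓝 0) := by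
    refine squeeze_zero (fun n => I2_mean_nonneg0 (hE (N + n))) (fun n => ?_) hlim
    exact (iterEx_co hd.le hl hE0 hco n I2 cvx_I2).trans (hclass n).m_le
  have hsq' : Tendsto (fun n => gwEx (poissonLaw d) (-t) (n + N) I2) atTop (𝓝 0) := by
    refine hsq.congr (fun n => ?_)
    rw [add_comm]
  exact (tendsto_add_atTop_iff_nat N).1 hsq'

/-- The domination of the posteriors of all parameters below a corner by the family of the chain. -/
theorem co_box {ds ts : ℝ} {N : ℕ} {A : FF} (hds : 0 < ds) (hts : 0 < ts) (hts2 : ts ≤ 1 / 2) (hA : A.Good)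
    (h : ∀ G, Sublin G → Symm G → PhiE (gwEx (poissonLaw ds) (-ts) N) G ≤ val A.F G)
    {d t : ℝ} (hd : 0 < d) (ht0 : 0 ≤ t) (ht : t ≤ ts) (hdt : d * t ≤ ds * ts) :
    CO (gwEx (poissonLaw d) (-t) N) (famEx A.F) := by
  have hl : Adm (-t) := ⟨by linarith, by linarith⟩
  have hl' : Adm (-ts) := ⟨by linarith, by linarith⟩
  have hE := gwEx_bexp (poisson_nonneg0 hd.le) (poisson_hasSum0 d) hl N
  have hE' := gwEx_bexp (poisson_nonneg0 hds.le) (poisson_hasSum0 ds) hl' N
  have h1 := co_fam hE' hA h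
  intro f hf
  refine le_trans ?_ (h1 f hf)
  rw [ex_eq_phiE_famH _ hE f, ex_eq_phiE_famH _ hE' f]
  exact gwEx_poisson_mono_all hd hds ht0 hts ht hts2 hdt N (famH_sublin hf)

/-- The chain: nonreconstruction for the parameters of a box, from the Taylor tail. -/
theorem tendsto_box {ds ts ta : ℝ} {N : ℕ} {A : FF} (hds : 0 < ds) (hts : 0 < ts) (hts2 : ts ≤ 1 / 2) (hA : A.Good)
    (h : ∀ G, Sublin G → Symm G → PhiE (gwEx (poissonLaw ds) (-ts) N) G ≤ val A.F G)
    (hcl : InClass poiKap poiBp poiBm (famEx A.F) poiM0) (hta : 0 < ta) (hcorner : 1 / ta ≤ ds * ts)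
    {d t : ℝ} (hd : 0 < d) (ht0 : ta ≤ t) (ht : t ≤ ts) (hKS : d * t ^ 2 ≤ 1) :
    Tendsto (fun n => gwEx (poissonLaw d) (-t) n I2) atTop (𝓝 0) := by
  have htpos : 0 < t := by linarith
  have hdt : d * t ≤ ds * ts := by
    refine le_trans ?_ hcorner
    have h1 : d * t ≤ 1 / t := by
      rw [le_div_iff₀ htpos]
      nlinarith
    refine h1.trans ?_
    exact one_div_le_one_div_of_le hta ht0
  have hE0 : BExp (famEx A.F) Simp := bexp_of_symExp (famEx_symExp hA.nonneg hA.total hA.inv)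
  exact tail_of_class hd htpos (ht.trans hts2) hKS hE0 hcl (co_box hds hts hts2 hA h hd htpos.le ht hdt)

/-- What a chain gives at its hand-off. -/
def BoxOK (ds ts M kap bp bm c3 : ℝ) : Prop :=
  ∃ (N : ℕ) (A : FF), A.Good ∧ (∀ G, Sublin G → Symm G → PhiE (gwEx (poissonLaw ds) (-ts) N) G ≤ val A.F G)
    ∧ InClass kap bp bm (famEx A.F) M ∧ famEx A.F I2cb ≤ c3

/-- The Taylor tail for the parameters of a box. -/
theorem BoxOK.tendsto {ds ts ta c3 : ℝ} (h : BoxOK ds ts poiM0 poiKap poiBp poiBm c3) (hds : 0 < ds) (hts : 0 < ts)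
    (hts2 : ts ≤ 1 / 2) (hta : 0 < ta) (hcorner : 1 / ta ≤ ds * ts)
    {d t : ℝ} (hd : 0 < d) (ht0 : ta ≤ t) (ht : t ≤ ts) (hKS : d * t ^ 2 ≤ 1) :
    Tendsto (fun n => gwEx (poissonLaw d) (-t) n I2) atTop (𝓝 0) := by
  obtain ⟨N, A, hA, hdom, hcl, -⟩ := h
  exact tendsto_box hds hts hts2 hA hdom hcl hta hcorner hd ht0 ht hKS

/-- the first inequality of the corner -/
theorem corner_le {ds ts ta d t : ℝ} (hta : 0 < ta) (hcorner : 1 / ta ≤ ds * ts) (hd : 0 < d) (ht0 : ta ≤ t)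
    (hKS : d * t ^ 2 ≤ 1) : d * t ≤ ds * ts := by
  have htpos : 0 < t := by linarith
  refine le_trans ?_ hcorner
  have h1 : d * t ≤ 1 / t := by
    rw [le_div_iff₀ htpos]
    nlinarith
  exact h1.trans (one_div_le_one_div_of_le hta ht0)

/-- The value of the functional of the hand-off of the posteriors, from a box. -/
theorem BoxOK.hf_le {ds ts ta M kap bp bm c3 : ℝ} (h : BoxOK ds ts M kap bp bm c3) (hds : 0 < ds) (hts : 0 < ts)
    (hts2 : ts ≤ 1 / 2) (hta : 0 < ta) (hcorner : 1 / ta ≤ ds * ts) (hbp : 0 ≤ bp) (hM : 0 ≤ M)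
    {d t b2 b3 : ℝ} (hd : 0 < d) (ht0 : ta ≤ t) (ht : t ≤ ts) (hKS : d * t ^ 2 ≤ 1) (hb2 : 0 ≤ b2) (hb3 : 0 ≤ b3) :
    ∃ N, gwEx (poissonLaw d) (-t) N (HF b2 b3 t)
      ≤ 3 / 2 * M + 3 * ts * (bp * M ^ 2) + b2 * (kap * M ^ 2) + b3 * c3 := by
  obtain ⟨N, A, hA, hdom, hcl, hc3⟩ := h
  refine ⟨N, ?_⟩
  have htpos : 0 < t := by linarith
  have hco := co_box hds hts hts2 hA hdom hd htpos.le ht (corner_le hta hcorner hd ht0 hKS)
  refine (hco _ (HF_cvx hb2 hb3 htpos.le (ht.trans hts2))).trans ?_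
  have hE0 : BExp (famEx A.F) Simp := bexp_of_symExp (famEx_symExp hA.nonneg hA.total hA.inv)
  have e : famEx A.F (HF b2 b3 t) = 3 / 2 * famEx A.F I2 + 3 * t * famEx A.F I3 + b2 * famEx A.F I2sq
      + b3 * famEx A.F I2cb := by
    have h1 := hE0.add (fun a b c => 3 / 2 * I2 a b c + 3 * t * I3 a b c + b2 * I2 a b c ^ 2)
      (fun a b c => b3 * I2 a b c ^ 3) (((Bd.smul _ bd_I2).add (Bd.smul _ bd_I3)).add (Bd.smul _ (bd_I2.pow 2)))
      (Bd.smul _ (bd_I2.pow 3))
    have h2 := hE0.add (fun a b c => 3 / 2 * I2 a b c + 3 * t * I3 a b c) (fun a b c => b2 * I2 a b c ^ 2)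
      ((Bd.smul _ bd_I2).add (Bd.smul _ bd_I3)) (Bd.smul _ (bd_I2.pow 2))
    have h3 := hE0.add (fun a b c => 3 / 2 * I2 a b c) (fun a b c => 3 * t * I3 a b c)
      (Bd.smul _ bd_I2) (Bd.smul _ bd_I3)
    have s1 := hE0.smul (3 / 2) I2
    have s2 := hE0.smul (3 * t) I3
    have s3 := hE0.smul b2 I2sq
    have s4 := hE0.smul b3 I2cb
    show famEx A.F (fun a b c => 3 / 2 * I2 a b c + 3 * t * I3 a b c + b2 * I2 a b c ^ 2 + b3 * I2 a b c ^ 3) = _
    rw [h1, h2, h3, s1, s2]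
    have s3' : famEx A.F (fun a b c => b2 * I2 a b c ^ 2) = b2 * famEx A.F I2sq := s3
    have s4' : famEx A.F (fun a b c => b3 * I2 a b c ^ 3) = b3 * famEx A.F I2cb := s4
    rw [s3', s4']
  rw [e]
  have h3 : 3 * t * famEx A.F I3 ≤ 3 * ts * (bp * M ^ 2) := by
    have hb : famEx A.F I3 ≤ bp * M ^ 2 := hcl.b_le
    have hb0 : 0 ≤ bp * M ^ 2 := by positivity
    calc 3 * t * famEx A.F I3 ≤ 3 * t * (bp * M ^ 2) := mul_le_mul_of_nonneg_left hb (by positivity)
      _ ≤ 3 * ts * (bp * M ^ 2) := by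
        apply mul_le_mul_of_nonneg_right _ hb0
        linarith
  have h1 : 3 / 2 * famEx A.F I2 ≤ 3 / 2 * M := by
    have := hcl.m_le
    linarith
  have h2 := mul_le_mul_of_nonneg_left hcl.q_le hb2
  have h4 := mul_le_mul_of_nonneg_left hc3 hb3
  linarith

end Vale.Agent.Lib.P154.PChain
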