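import Vale.Agent.Lib.P154.Neg.Main1
import Vale.Agent.Lib.P154.PChain.Tail
import Vale.Agent.Lib.P154.PChain.BA.Main
import Vale.Agent.Lib.P154.PChain.BB.Main
import Vale.Agent.Lib.P154.PChain.BC.Main
import Vale.Agent.Lib.P154.PChain.BD.Main
import Vale.Agent.Lib.P154.Neg.LP.B4955
import Vale.Agent.Lib.P154.PChain.BE.Main
import Vale.Agent.Lib.P154.Neg.LP.B4925
import Vale.Agent.Lib.P154.PChain.BF.Main
import Vale.Agent.Lib.P154.Neg.LP.B4895
import Vale.Agent.Lib.P154.PChain.BG.Main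
import Vale.Agent.Lib.P154.Neg.LP.B4865
import Vale.Agent.Lib.P154.PChain.BH.Main
import Vale.Agent.Lib.P154.Neg.LP.B4835
import Vale.Agent.Lib.P154.PChain.BI.Main
import Vale.Agent.Lib.P154.Neg.LP.B4800
import Vale.Agent.Lib.P154.PChain.BJ.Main
import Vale.Agent.Lib.P154.Neg.LP.B4765
import Vale.Agent.Lib.P154.PChain.BK.Main
import Vale.Agent.Lib.P154.Neg.LP.B4730
import Vale.Agent.Lib.P154.PChain.BM.Main
import Vale.Agent.Lib.P154.Neg.LP.B4690
import Vale.Agent.Lib.P154.PChain.BN.Main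
import Vale.Agent.Lib.P154.Neg.LP.B4650
import Vale.Agent.Lib.P154.PChain.BP.Main
import Vale.Agent.Lib.P154.Neg.LP.B4600
import Vale.Agent.Lib.P154.PChain.BQ.Main
import Vale.Agent.Lib.P154.Neg.LP.B4550
import Vale.Agent.Lib.P154.PChain.BR.Main
import Vale.Agent.Lib.P154.Neg.LP.B4500
import Vale.Agent.Lib.P154.PChain.BS.Main
import Vale.Agent.Lib.P154.Neg.LP.B4450
import Vale.Agent.Lib.P154.PChain.BT.Main
import Vale.Agent.Lib.P154.Neg.LP.B4400
import Vale.Agent.Lib.P154.PChain.BU.Main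
import Vale.Agent.Lib.P154.Neg.LP.B4340
import Vale.Agent.Lib.P154.PChain.BV.Main
import Vale.Agent.Lib.P154.Neg.LP.B4280
import Vale.Agent.Lib.P154.PChain.BW.Main
import Vale.Agent.Lib.P154.Neg.LP.B4200
import Vale.Agent.Lib.P154.PChain.BX.Main
import Vale.Agent.Lib.P154.Neg.LP.B4100
import Vale.Agent.Lib.P154.PChain.BY.Main
import Vale.Agent.Lib.P154.Neg.LP.B4000

/-!
All the boxes of the chain: the three-state Potts channel with negative eigenvalue on the Poisson tree.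
-/

namespace Vale.Agent.Lib.P154.PChain

open Filter Topology Vale.Agent.Lib.P154 Vale.Agent.Lib.P154.Neg

/-- the box `BA` of the chain -/
theorem tail_BA {d t : ℝ} (hd : 0 < d) (h1 : (997/2000 : ℝ) ≤ t) (h2 : t ≤ 1/2) (hKS : d * t ^ 2 ≤ 1) :
    Tendsto (fun n => gwEx (poissonLaw d) (-t) n I2) atTop (𝓝 0) :=
  BoxOK.tendsto (ds := 40121 / 10000) (ts := 1/2) (ta := 997/2000) BA.box (by norm_num) (by norm_num) (by norm_num) (by norm_num)
    (by norm_num) hd h1 h2 hKS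

/-- the box `BB` of the chain -/
theorem tail_BB {d t : ℝ} (hd : 0 < d) (h1 : (497/1000 : ℝ) ≤ t) (h2 : t ≤ 997/2000) (hKS : d * t ^ 2 ≤ 1) :
    Tendsto (fun n => gwEx (poissonLaw d) (-t) n I2) atTop (𝓝 0) :=
  BoxOK.tendsto (ds := 40363 / 10000) (ts := 997/2000) (ta := 497/1000) BB.box (by norm_num) (by norm_num) (by norm_num) (by norm_num)
    (by norm_num) hd h1 h2 hKS

/-- the box `BC` of the chain -/
theorem tail_BC {d t : ℝ} (hd : 0 < d) (h1 : (991/2000 : ℝ) ≤ t) (h2 : t ≤ 497/1000) (hKS : d * t ^ 2 ≤ 1) :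
    Tendsto (fun n => gwEx (poissonLaw d) (-t) n I2) atTop (𝓝 0) :=
  BoxOK.tendsto (ds := 40607 / 10000) (ts := 497/1000) (ta := 991/2000) BC.box (by norm_num) (by norm_num) (by norm_num) (by norm_num)
    (by norm_num) hd h1 h2 hKS

/-- the box `BD` of the chain -/
theorem tail_BD {d t : ℝ} (hd : 0 < d) (h1 : (197/400 : ℝ) ≤ t) (h2 : t ≤ 991/2000) (hKS : d * t ^ 2 ≤ 1) :
    Tendsto (fun n => gwEx (poissonLaw d) (-t) n I2) atTop (𝓝 0) :=
by
  obtain ⟨N, hN⟩ := BoxOK.hf_le (ta := 197/400) (b2 := 489 / 500) (b3 := 1437 / 200) BD.box (by norm_num) (by norm_num) (by norm_num) (by norm_num)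
    (by norm_num) (by norm_num) (by norm_num) hd h1 h2 hKS (by norm_num) (by norm_num)
  exact B4955.tail hd h1 h2 hKS (hN.trans (by norm_num))

/-- the box `BE` of the chain -/
theorem tail_BE {d t : ℝ} (hd : 0 < d) (h1 : (979/2000 : ℝ) ≤ t) (h2 : t ≤ 197/400) (hKS : d * t ^ 2 ≤ 1) :
    Tendsto (fun n => gwEx (poissonLaw d) (-t) n I2) atTop (𝓝 0) :=
by
  obtain ⟨N, hN⟩ := BoxOK.hf_le (ta := 979/2000) (b2 := 963 / 1000) (b3 := 6981 / 1000) BE.box (by norm_num) (by norm_num) (by norm_num) (by norm_num)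
    (by norm_num) (by norm_num) (by norm_num) hd h1 h2 hKS (by norm_num) (by norm_num)
  exact B4925.tail hd h1 h2 hKS (hN.trans (by norm_num))

/-- the box `BF` of the chain -/
theorem tail_BF {d t : ℝ} (hd : 0 < d) (h1 : (973/2000 : ℝ) ≤ t) (h2 : t ≤ 979/2000) (hKS : d * t ^ 2 ≤ 1) :
    Tendsto (fun n => gwEx (poissonLaw d) (-t) n I2) atTop (𝓝 0) :=
by
  obtain ⟨N, hN⟩ := BoxOK.hf_le (ta := 973/2000) (b2 := 949 / 1000) (b3 := 3391 / 500) BF.box (by norm_num) (by norm_num) (by norm_num) (by norm_num)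
    (by norm_num) (by norm_num) (by norm_num) hd h1 h2 hKS (by norm_num) (by norm_num)
  exact B4895.tail hd h1 h2 hKS (hN.trans (by norm_num))

/-- the box `BG` of the chain -/
theorem tail_BG {d t : ℝ} (hd : 0 < d) (h1 : (967/2000 : ℝ) ≤ t) (h2 : t ≤ 973/2000) (hKS : d * t ^ 2 ≤ 1) :
    Tendsto (fun n => gwEx (poissonLaw d) (-t) n I2) atTop (𝓝 0) :=
by
  obtain ⟨N, hN⟩ := BoxOK.hf_le (ta := 967/2000) (b2 := 467 / 500) (b3 := 1647 / 250) BG.box (by norm_num) (by norm_num) (by norm_num) (by norm_num)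
    (by norm_num) (by norm_num) (by norm_num) hd h1 h2 hKS (by norm_num) (by norm_num)
  exact B4865.tail hd h1 h2 hKS (hN.trans (by norm_num))

/-- the box `BH` of the chain -/
theorem tail_BH {d t : ℝ} (hd : 0 < d) (h1 : (12/25 : ℝ) ≤ t) (h2 : t ≤ 967/2000) (hKS : d * t ^ 2 ≤ 1) :
    Tendsto (fun n => gwEx (poissonLaw d) (-t) n I2) atTop (𝓝 0) :=
by
  obtain ⟨N, hN⟩ := BoxOK.hf_le (ta := 12/25) (b2 := 23 / 25) (b3 := 6397 / 1000) BH.box (by norm_num) (by norm_num) (by norm_num) (by norm_num)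
    (by norm_num) (by norm_num) (by norm_num) hd h1 h2 hKS (by norm_num) (by norm_num)
  exact B4835.tail hd h1 h2 hKS (hN.trans (by norm_num))

/-- the box `BI` of the chain -/
theorem tail_BI {d t : ℝ} (hd : 0 < d) (h1 : (953/2000 : ℝ) ≤ t) (h2 : t ≤ 12/25) (hKS : d * t ^ 2 ≤ 1) :
    Tendsto (fun n => gwEx (poissonLaw d) (-t) n I2) atTop (𝓝 0) :=
by
  obtain ⟨N, hN⟩ := BoxOK.hf_le (ta := 953/2000) (b2 := 113 / 125) (b3 := 6181 / 1000) BI.box (by norm_num) (by norm_num) (by norm_num) (by norm_num)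
    (by norm_num) (by norm_num) (by norm_num) hd h1 h2 hKS (by norm_num) (by norm_num)
  exact B4800.tail hd h1 h2 hKS (hN.trans (by norm_num))

/-- the box `BJ` of the chain -/
theorem tail_BJ {d t : ℝ} (hd : 0 < d) (h1 : (473/1000 : ℝ) ≤ t) (h2 : t ≤ 953/2000) (hKS : d * t ^ 2 ≤ 1) :
    Tendsto (fun n => gwEx (poissonLaw d) (-t) n I2) atTop (𝓝 0) :=
by
  obtain ⟨N, hN⟩ := BoxOK.hf_le (ta := 473/1000) (b2 := 887 / 1000) (b3 := 5971 / 1000) BJ.box (by norm_num) (by norm_num) (by norm_num) (by norm_num)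
    (by norm_num) (by norm_num) (by norm_num) hd h1 h2 hKS (by norm_num) (by norm_num)
  exact B4765.tail hd h1 h2 hKS (hN.trans (by norm_num))

/-- the box `BK` of the chain -/
theorem tail_BK {d t : ℝ} (hd : 0 < d) (h1 : (469/1000 : ℝ) ≤ t) (h2 : t ≤ 473/1000) (hKS : d * t ^ 2 ≤ 1) :
    Tendsto (fun n => gwEx (poissonLaw d) (-t) n I2) atTop (𝓝 0) :=
by
  obtain ⟨N, hN⟩ := BoxOK.hf_le (ta := 469/1000) (b2 := 871 / 1000) (b3 := 5767 / 1000) BK.box (by norm_num) (by norm_num) (by norm_num) (by norm_num)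
    (by norm_num) (by norm_num) (by norm_num) hd h1 h2 hKS (by norm_num) (by norm_num)
  exact B4730.tail hd h1 h2 hKS (hN.trans (by norm_num))

/-- the box `BM` of the chain -/
theorem tail_BM {d t : ℝ} (hd : 0 < d) (h1 : (93/200 : ℝ) ≤ t) (h2 : t ≤ 469/1000) (hKS : d * t ^ 2 ≤ 1) :
    Tendsto (fun n => gwEx (poissonLaw d) (-t) n I2) atTop (𝓝 0) :=
by
  obtain ⟨N, hN⟩ := BoxOK.hf_le (ta := 93/200) (b2 := 853 / 1000) (b3 := 5541 / 1000) BM.box (by norm_num) (by norm_num) (by norm_num) (by norm_num)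
    (by norm_num) (by norm_num) (by norm_num) hd h1 h2 hKS (by norm_num) (by norm_num)
  exact B4690.tail hd h1 h2 hKS (hN.trans (by norm_num))

/-- the box `BN` of the chain -/
theorem tail_BN {d t : ℝ} (hd : 0 < d) (h1 : (23/50 : ℝ) ≤ t) (h2 : t ≤ 93/200) (hKS : d * t ^ 2 ≤ 1) :
    Tendsto (fun n => gwEx (poissonLaw d) (-t) n I2) atTop (𝓝 0) :=
by
  obtain ⟨N, hN⟩ := BoxOK.hf_le (ta := 23/50) (b2 := 167 / 200) (b3 := 5321 / 1000) BN.box (by norm_num) (by norm_num) (by norm_num) (by norm_num)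
    (by norm_num) (by norm_num) (by norm_num) hd h1 h2 hKS (by norm_num) (by norm_num)
  exact B4650.tail hd h1 h2 hKS (hN.trans (by norm_num))

/-- the box `BP` of the chain -/
theorem tail_BP {d t : ℝ} (hd : 0 < d) (h1 : (91/200 : ℝ) ≤ t) (h2 : t ≤ 23/50) (hKS : d * t ^ 2 ≤ 1) :
    Tendsto (fun n => gwEx (poissonLaw d) (-t) n I2) atTop (𝓝 0) :=
by
  obtain ⟨N, hN⟩ := BoxOK.hf_le (ta := 91/200) (b2 := 813 / 1000) (b3 := 5057 / 1000) BP.box (by norm_num) (by norm_num) (by norm_num) (by norm_num)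
    (by norm_num) (by norm_num) (by norm_num) hd h1 h2 hKS (by norm_num) (by norm_num)
  exact B4600.tail hd h1 h2 hKS (hN.trans (by norm_num))

/-- the box `BQ` of the chain -/
theorem tail_BQ {d t : ℝ} (hd : 0 < d) (h1 : (9/20 : ℝ) ≤ t) (h2 : t ≤ 91/200) (hKS : d * t ^ 2 ≤ 1) :
    Tendsto (fun n => gwEx (poissonLaw d) (-t) n I2) atTop (𝓝 0) :=
by
  obtain ⟨N, hN⟩ := BoxOK.hf_le (ta := 9/20) (b2 := 99 / 125) (b3 := 1201 / 250) BQ.box (by norm_num) (by norm_num) (by norm_num) (by norm_num)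
    (by norm_num) (by norm_num) (by norm_num) hd h1 h2 hKS (by norm_num) (by norm_num)
  exact B4550.tail hd h1 h2 hKS (hN.trans (by norm_num))

/-- the box `BR` of the chain -/
theorem tail_BR {d t : ℝ} (hd : 0 < d) (h1 : (89/200 : ℝ) ≤ t) (h2 : t ≤ 9/20) (hKS : d * t ^ 2 ≤ 1) :
    Tendsto (fun n => gwEx (poissonLaw d) (-t) n I2) atTop (𝓝 0) :=
by
  obtain ⟨N, hN⟩ := BoxOK.hf_le (ta := 89/200) (b2 := 771 / 1000) (b3 := 4561 / 1000) BR.box (by norm_num) (by norm_num) (by norm_num) (by norm_num)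
    (by norm_num) (by norm_num) (by norm_num) hd h1 h2 hKS (by norm_num) (by norm_num)
  exact B4500.tail hd h1 h2 hKS (hN.trans (by norm_num))

/-- the box `BS` of the chain -/
theorem tail_BS {d t : ℝ} (hd : 0 < d) (h1 : (11/25 : ℝ) ≤ t) (h2 : t ≤ 89/200) (hKS : d * t ^ 2 ≤ 1) :
    Tendsto (fun n => gwEx (poissonLaw d) (-t) n I2) atTop (𝓝 0) :=
by
  obtain ⟨N, hN⟩ := BoxOK.hf_le (ta := 11/25) (b2 := 3 / 4) (b3 := 4329 / 1000) BS.box (by norm_num) (by norm_num) (by norm_num) (by norm_num)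
    (by norm_num) (by norm_num) (by norm_num) hd h1 h2 hKS (by norm_num) (by norm_num)
  exact B4450.tail hd h1 h2 hKS (hN.trans (by norm_num))

/-- the box `BT` of the chain -/
theorem tail_BT {d t : ℝ} (hd : 0 < d) (h1 : (217/500 : ℝ) ≤ t) (h2 : t ≤ 11/25) (hKS : d * t ^ 2 ≤ 1) :
    Tendsto (fun n => gwEx (poissonLaw d) (-t) n I2) atTop (𝓝 0) :=
by
  obtain ⟨N, hN⟩ := BoxOK.hf_le (ta := 217/500) (b2 := 729 / 1000) (b3 := 821 / 200) BT.box (by norm_num) (by norm_num) (by norm_num) (by norm_num)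
    (by norm_num) (by norm_num) (by norm_num) hd h1 h2 hKS (by norm_num) (by norm_num)
  exact B4400.tail hd h1 h2 hKS (hN.trans (by norm_num))

/-- the box `BU` of the chain -/
theorem tail_BU {d t : ℝ} (hd : 0 < d) (h1 : (107/250 : ℝ) ≤ t) (h2 : t ≤ 217/500) (hKS : d * t ^ 2 ≤ 1) :
    Tendsto (fun n => gwEx (poissonLaw d) (-t) n I2) atTop (𝓝 0) :=
by
  obtain ⟨N, hN⟩ := BoxOK.hf_le (ta := 107/250) (b2 := 141 / 200) (b3 := 77 / 20) BU.box (by norm_num) (by norm_num) (by norm_num) (by norm_num)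
    (by norm_num) (by norm_num) (by norm_num) hd h1 h2 hKS (by norm_num) (by norm_num)
  exact B4340.tail hd h1 h2 hKS (hN.trans (by norm_num))

/-- the box `BV` of the chain -/
theorem tail_BV {d t : ℝ} (hd : 0 < d) (h1 : (21/50 : ℝ) ≤ t) (h2 : t ≤ 107/250) (hKS : d * t ^ 2 ≤ 1) :
    Tendsto (fun n => gwEx (poissonLaw d) (-t) n I2) atTop (𝓝 0) :=
by
  obtain ⟨N, hN⟩ := BoxOK.hf_le (ta := 21/50) (b2 := 681 / 1000) (b3 := 451 / 125) BV.box (by norm_num) (by norm_num) (by norm_num) (by norm_num)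
    (by norm_num) (by norm_num) (by norm_num) hd h1 h2 hKS (by norm_num) (by norm_num)
  exact B4280.tail hd h1 h2 hKS (hN.trans (by norm_num))

/-- the box `BW` of the chain -/
theorem tail_BW {d t : ℝ} (hd : 0 < d) (h1 : (41/100 : ℝ) ≤ t) (h2 : t ≤ 21/50) (hKS : d * t ^ 2 ≤ 1) :
    Tendsto (fun n => gwEx (poissonLaw d) (-t) n I2) atTop (𝓝 0) :=
by
  obtain ⟨N, hN⟩ := BoxOK.hf_le (ta := 41/100) (b2 := 651 / 1000) (b3 := 413 / 125) BW.box (by norm_num) (by norm_num) (by norm_num) (by norm_num)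
    (by norm_num) (by norm_num) (by norm_num) hd h1 h2 hKS (by norm_num) (by norm_num)
  exact B4200.tail hd h1 h2 hKS (hN.trans (by norm_num))

/-- the box `BX` of the chain -/
theorem tail_BX {d t : ℝ} (hd : 0 < d) (h1 : (2/5 : ℝ) ≤ t) (h2 : t ≤ 41/100) (hKS : d * t ^ 2 ≤ 1) :
    Tendsto (fun n => gwEx (poissonLaw d) (-t) n I2) atTop (𝓝 0) :=
by
  obtain ⟨N, hN⟩ := BoxOK.hf_le (ta := 2/5) (b2 := 307 / 500) (b3 := 1477 / 500) BX.box (by norm_num) (by norm_num) (by norm_num) (by norm_num)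
    (by norm_num) (by norm_num) (by norm_num) hd h1 h2 hKS (by norm_num) (by norm_num)
  exact B4100.tail hd h1 h2 hKS (hN.trans (by norm_num))

/-- the box `BY` of the chain -/
theorem tail_BY {d t : ℝ} (hd : 0 < d) (h1 : (1/3 : ℝ) ≤ t) (h2 : t ≤ 2/5) (hKS : d * t ^ 2 ≤ 1) :
    Tendsto (fun n => gwEx (poissonLaw d) (-t) n I2) atTop (𝓝 0) :=
by
  obtain ⟨N, hN⟩ := BoxOK.hf_le (ta := 1/3) (b2 := 289 / 500) (b3 := 1317 / 500) BY.box (by norm_num) (by norm_num) (by norm_num) (by norm_num)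
    (by norm_num) (by norm_num) (by norm_num) hd h1 h2 hKS (by norm_num) (by norm_num)
  exact B4000.tail hd h1 h2 hKS (hN.trans (by norm_num))

/-- all the eigenvalues -/
theorem poisson_tail_all {d t : ℝ} (hd : 0 < d) (ht0 : 0 < t) (ht : t ≤ 1 / 2) (hKS : d * t ^ 2 ≤ 1) :
    Tendsto (fun n => gwEx (poissonLaw d) (-t) n I2) atTop (𝓝 0) := by
  rcases le_total t (1 / 3) with h0 | h0
  · exact neg_poisson1 hd ht0 h0 hKS
  rcases le_total t (2/5) with h1a | h1b
  · exact tail_BY hd h0 h1a hKS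
  rcases le_total t (41/100) with h2a | h2b
  · exact tail_BX hd h1b h2a hKS
  rcases le_total t (21/50) with h3a | h3b
  · exact tail_BW hd h2b h3a hKS
  rcases le_total t (107/250) with h4a | h4b
  · exact tail_BV hd h3b h4a hKS
  rcases le_total t (217/500) with h5a | h5b
  · exact tail_BU hd h4b h5a hKS
  rcases le_total t (11/25) with h6a | h6b
  · exact tail_BT hd h5b h6a hKS
  rcases le_total t (89/200) with h7a | h7b
  · exact tail_BS hd h6b h7a hKS
  rcases le_total t (9/20) with h8a | h8b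
  · exact tail_BR hd h7b h8a hKS
  rcases le_total t (91/200) with h9a | h9b
  · exact tail_BQ hd h8b h9a hKS
  rcases le_total t (23/50) with h10a | h10b
  · exact tail_BP hd h9b h10a hKS
  rcases le_total t (93/200) with h11a | h11b
  · exact tail_BN hd h10b h11a hKS
  rcases le_total t (469/1000) with h12a | h12b
  · exact tail_BM hd h11b h12a hKS
  rcases le_total t (473/1000) with h13a | h13b
  · exact tail_BK hd h12b h13a hKS
  rcases le_total t (953/2000) with h14a | h14b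
  · exact tail_BJ hd h13b h14a hKS
  rcases le_total t (12/25) with h15a | h15b
  · exact tail_BI hd h14b h15a hKS
  rcases le_total t (967/2000) with h16a | h16b
  · exact tail_BH hd h15b h16a hKS
  rcases le_total t (973/2000) with h17a | h17b
  · exact tail_BG hd h16b h17a hKS
  rcases le_total t (979/2000) with h18a | h18b
  · exact tail_BF hd h17b h18a hKS
  rcases le_total t (197/400) with h19a | h19b
  · exact tail_BE hd h18b h19a hKS
  rcases le_total t (991/2000) with h20a | h20b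
  · exact tail_BD hd h19b h20a hKS
  rcases le_total t (497/1000) with h21a | h21b
  · exact tail_BC hd h20b h21a hKS
  rcases le_total t (997/2000) with h22a | h22b
  · exact tail_BB hd h21b h22a hKS
  exact tail_BA hd h22b ht hKS

/-- The three-state Potts channel with negative eigenvalue on the Poisson tree. -/
theorem poisson_neg_all {d lam : ℝ} (hd : 0 < d) (h1 : -(1 / 2) ≤ lam) (h2 : lam < 0)
    (hKS : d * lam ^ 2 ≤ 1) :
    (∀ n, HasSum (gwProb 3 (poissonLaw d) lam n) 1) ∧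
      (∀ n, Summable (gwTerm 3 (poissonLaw d) lam n)) ∧
      Tendsto (gwError 3 (poissonLaw d) lam) atTop (𝓝 0) := by
  have ht : lam = -(-lam) := by ring
  have hl : Adm lam := ⟨by linarith, by linarith⟩
  refine gw_of_I2 (poisson_nonneg hd.le) (poisson_hasSum d) hl ?_
  rw [ht]
  exact poisson_tail_all hd (by linarith) (by linarith) (by
    have : (-lam) ^ 2 = lam ^ 2 := by ring
    rw [this]
    exact hKS)

end Vale.Agent.Lib.P154.PChain
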