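import Vale.Agent.Lib.P154.PChain.Hand

/-!
The end of a chain on the Poisson tree: the check of the weights, and the domination of the posteriors of
all parameters below the corner by the family at the hand-off.
-/

namespace Vale.Agent.Lib.P154.PChain

open Vale.Agent.Lib.P154 Vale.Agent.Lib.P154.Neg Vale.Agent.Lib.P154.Chain
open scoped BigOperators

/-- the check of the weights: `P_k k! b^k Un <= 2^bw a^k Ud` -/
def wtOK (bw a b Un Ud : ℕ) : List ℕ → ℕ → ℕ → ℕ → Bool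
  | [], _, _, _ => true
  | P :: tl, k, fb, ap =>
      Nat.ble (P * fb * Un) (2 ^ bw * ap * Ud) && wtOK bw a b Un Ud tl (k + 1) (fb * ((k + 1) * b)) (ap * a)

theorem wtOK_spec {bw a b Un Ud : ℕ} (L : List ℕ) (k : ℕ)
    (h : wtOK bw a b Un Ud L k (k.factorial * b ^ k) (a ^ k) = true) (j : ℕ) (hj : j < L.length) :
    (L.getD j 0) * ((k + j).factorial * b ^ (k + j)) * Un ≤ 2 ^ bw * a ^ (k + j) * Ud := by
  induction L generalizing k j with
  | nil => simp at hj
  | cons P tl ih =>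
    simp only [wtOK, Bool.and_eq_true] at h
    obtain ⟨h1, h2⟩ := h
    cases j with
    | zero =>
      simpa using Nat.le_of_ble_eq_true h1
    | succ j =>
      have e1 : k.factorial * b ^ k * ((k + 1) * b) = (k + 1).factorial * b ^ (k + 1) := by
        rw [Nat.factorial_succ, pow_succ]
        ring
      have e2 : a ^ k * a = a ^ (k + 1) := by
        rw [pow_succ]
      rw [e1, e2] at h2
      have := ih (k + 1) h2 j (by simpa using hj)
      rw [show k + 1 + j = k + (j + 1) by omega] at this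
      simpa using this

theorem exp_le_of_pow {a b Un Ud : ℕ} (hb : 0 < b) (hUd : 0 < Ud)
    (h : 27182818286 ^ a * Ud ^ b ≤ Un ^ b * 10 ^ (10 * a)) :
    Real.exp ((a : ℝ) / b) ≤ (Un : ℝ) / Ud := by
  have hb' : (0 : ℝ) < b := by exact_mod_cast hb
  have hUd' : (0 : ℝ) < Ud := by exact_mod_cast hUd
  have h1 : Real.exp ((a : ℝ) / b) ^ b = Real.exp 1 ^ a := by
    rw [← Real.exp_nat_mul, ← Real.exp_nat_mul]
    congr 1
    field_simp
  have h2 : Real.exp 1 ^ a ≤ (2.7182818286 : ℝ) ^ a :=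
    pow_le_pow_left₀ (Real.exp_pos 1).le Real.exp_one_lt_d9.le a
  have h3 : (2.7182818286 : ℝ) ^ a ≤ ((Un : ℝ) / Ud) ^ b := by
    have e : (2.7182818286 : ℝ) = 27182818286 / 10 ^ 10 := by norm_num
    rw [e, div_pow, div_pow, div_le_div_iff₀ (by positivity) (by positivity)]
    have := (Nat.cast_le (α := ℝ)).mpr h
    push_cast at this
    rw [pow_mul]  at this
    rw [← pow_mul, mul_comm 10 a, pow_mul] at *
    linarith
  refine le_of_pow_le_pow_left₀ hb.ne' (by positivity) ?_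
  rw [h1]
  exact h2.trans h3

/-- The weights of the chain are below the Poisson law. -/
theorem lawOK_poisson {g : GP} {wp : WP} {a b Un Ud : ℕ} (hb : 0 < b) (ha : 0 < a) (hUn : 0 < Un) (hUd : 0 < Ud)
    (hd : g.d = 2) (hK : wp.K = WL.len wp.T + 1) (hsum : wp.top + WL.sum wp.T + wp.p0 ≤ 2 ^ g.bw)
    (hexp : 27182818286 ^ a * Ud ^ b ≤ Un ^ b * 10 ^ (10 * a))
    (hw : wtOK g.bw a b Un Ud wp.L 0 1 1 = true) :
    LawOK (poissonLaw ((a : ℝ) / b)) g wp := by
  have hb' : (0 : ℝ) < b := by exact_mod_cast hb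
  have hUn' : (0 : ℝ) < Un := by exact_mod_cast hUn
  have hUd' : (0 : ℝ) < Ud := by exact_mod_cast hUd
  have hd0 : (0 : ℝ) ≤ (a : ℝ) / b := by positivity
  refine ⟨hd, poisson_nonneg0 hd0, poisson_hasSum0 _, hK, hsum, ?_⟩
  intro k
  by_cases hk : k < wp.L.length
  · have h1 : wtOK g.bw a b Un Ud wp.L 0 (Nat.factorial 0 * b ^ 0) (a ^ 0) = true := by
      simpa using hw
    have h2 := wtOK_spec wp.L 0 h1 k hk
    rw [Nat.zero_add] at h2
    have h3 : ((wp.L.getD k 0 : ℕ) : ℝ) * ((k.factorial : ℝ) * (b : ℝ) ^ k) * Un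
        ≤ (2 : ℝ) ^ g.bw * (a : ℝ) ^ k * Ud := by
      exact_mod_cast h2
    have hexp' := exp_le_of_pow hb hUd hexp
    have hexp2 : (Ud : ℝ) / Un ≤ Real.exp (-((a : ℝ) / b)) := by
      rw [Real.exp_neg, ← inv_div]
      exact inv_anti₀ (Real.exp_pos _) hexp'
    unfold poissonLaw
    have hf : (0 : ℝ) < k.factorial := by exact_mod_cast Nat.factorial_pos k
    have hp2 : (0 : ℝ) < (2 : ℝ) ^ g.bw := by positivity
    have hbk : (0 : ℝ) < (b : ℝ) ^ k := by positivity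
    have h4 : ((2 : ℝ) ^ g.bw)⁻¹ * (wp.L.getD k 0 : ℕ) ≤ (Ud : ℝ) / Un * ((a : ℝ) / b) ^ k / k.factorial := by
      have e1 : ((2 : ℝ) ^ g.bw)⁻¹ * (wp.L.getD k 0 : ℕ) = ((wp.L.getD k 0 : ℕ) : ℝ) / (2 : ℝ) ^ g.bw := by
        rw [inv_mul_eq_div]
      have e2 : (Ud : ℝ) / Un * ((a : ℝ) / b) ^ k / k.factorial = ((Ud : ℝ) * (a : ℝ) ^ k) / ((Un : ℝ) * (b : ℝ) ^ k * k.factorial) := by
        rw [div_pow]
        field_simp
      rw [e1, e2, div_le_div_iff₀ hp2 (by positivity)]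
      calc ((wp.L.getD k 0 : ℕ) : ℝ) * ((Un : ℝ) * (b : ℝ) ^ k * k.factorial)
          = ((wp.L.getD k 0 : ℕ) : ℝ) * ((k.factorial : ℝ) * (b : ℝ) ^ k) * Un := by ring
        _ ≤ (2 : ℝ) ^ g.bw * (a : ℝ) ^ k * Ud := h3
        _ = _ := by ring
    refine h4.trans ?_
    have hpw : (0 : ℝ) ≤ ((a : ℝ) / b) ^ k := by positivity
    exact div_le_div_of_nonneg_right (mul_le_mul_of_nonneg_right hexp2 hpw) hf.le
  · have : wp.L.getD k 0 = 0 := by
      rw [List.getD_eq_default _ _ (by omega)]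
    rw [this]
    simpa using poisson_nonneg0 hd0 k

end Vale.Agent.Lib.P154.PChain
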