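import Vale.Agent.Lib.P154.Neg.Tree
import Vale.Agent.Lib.P154.Chain.Lat

/-!
The link between the functionals of the tree recursion and sublinear test functions.
-/

namespace Vale.Agent.Lib.P154.PChain

open Vale.Agent.Lib.P154 Vale.Agent.Lib.P154.Neg Vale.Agent.Lib.P154.Chain
open scoped BigOperators

/-- the vector of a triple -/
def mk3 (a b c : ℝ) : Vec := ![a, b, c]

/-- a test function as a function of a triple -/
noncomputable def toF (G : Vec → ℝ) : Fn3 := fun a b c => G (mk3 a b c)

/-- the functional on test functions of a functional on bounded functions, normalized with total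
vector `1` -/
noncomputable def PhiE (E : Ex3) (G : Vec → ℝ) : ℝ := 3 * E (toF G)

/-- the powers of a functional on test functions -/
noncomputable def Psi (Φ : (Vec → ℝ) → ℝ) : ℕ → (Vec → ℝ) → ℝ
  | 0, G => G 1
  | k + 1, G => Psi Φ k (fun u => Φ (fun v => G (u * v)))

theorem mk3_nonneg {a b c : ℝ} (h : Simp a b c) : 0 ≤ mk3 a b c := by
  intro i
  fin_cases i
  · exact h.ha
  · exact h.hb
  · exact h.hc

theorem mk3_le_one {a b c : ℝ} (h : Simp a b c) : mk3 a b c ≤ 1 := by
  obtain ⟨h1, h2, h3⟩ := simp_le_one h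
  intro i
  fin_cases i
  · exact h1
  · exact h2
  · exact h3

theorem bd_toF_of_sublin {G : Vec → ℝ} (hG : Sublin G) : Bd (toF G) := by
  refine ⟨|G (Pi.single 0 1)| + |G (Pi.single 1 1)| + |G (Pi.single 2 1)| + |G 1|, fun a b c h => ?_⟩
  obtain ⟨h1, h2, h3⟩ := simp_le_one h
  have key : ∀ {x y z : ℝ}, 0 ≤ x → x ≤ 1 → 0 ≤ y → y ≤ 1 → 0 ≤ z → z ≤ 1 →
      x * G (Pi.single 0 1) + y * G (Pi.single 1 1) + z * G (Pi.single 2 1)
        ≤ |G (Pi.single 0 1)| + |G (Pi.single 1 1)| + |G (Pi.single 2 1)| := by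
    intro x y z hx hx1 hy hy1 hz hz1
    have e1 : x * G (Pi.single 0 1) ≤ |G (Pi.single 0 1)| :=
      (mul_le_mul_of_nonneg_left (le_abs_self _) hx).trans
        (mul_le_of_le_one_left (abs_nonneg _) hx1)
    have e2 : y * G (Pi.single 1 1) ≤ |G (Pi.single 1 1)| :=
      (mul_le_mul_of_nonneg_left (le_abs_self _) hy).trans
        (mul_le_of_le_one_left (abs_nonneg _) hy1)
    have e3 : z * G (Pi.single 2 1) ≤ |G (Pi.single 2 1)| :=
      (mul_le_mul_of_nonneg_left (le_abs_self _) hz).trans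
        (mul_le_of_le_one_left (abs_nonneg _) hz1)
    linarith
  have hv : 0 ≤ mk3 a b c := mk3_nonneg h
  have hv1 : (0 : Vec) ≤ 1 - mk3 a b c := sub_nonneg.mpr (mk3_le_one h)
  have up := hG.le_vertices hv
  have up' := hG.le_vertices hv1
  have e0 : (mk3 a b c) 0 = a := rfl
  have e1 : (mk3 a b c) 1 = b := rfl
  have e2 : (mk3 a b c) 2 = c := rfl
  have ea : (1 - mk3 a b c) 0 = 1 - a := rfl
  have eb : (1 - mk3 a b c) 1 = 1 - b := rfl
  have ec : (1 - mk3 a b c) 2 = 1 - c := rfl
  rw [e0, e1, e2] at up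
  rw [ea, eb, ec] at up'
  have u1 := key h.ha h1 h.hb h2 h.hc h3
  have u2 := key (x := 1 - a) (y := 1 - b) (z := 1 - c) (by linarith) (by linarith [h.ha])
    (by linarith) (by linarith [h.hb]) (by linarith) (by linarith [h.hc])
  have hlow := hG.add_le (mk3 a b c) (1 - mk3 a b c) hv hv1
  rw [add_sub_cancel] at hlow
  have a0 := abs_nonneg (G 1)
  have a1 := le_abs_self (G 1)
  have a2 := neg_abs_le (G 1)
  have a3 := abs_nonneg (G (Pi.single 0 1))
  have a4 := abs_nonneg (G (Pi.single 1 1))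
  have a5 := abs_nonneg (G (Pi.single 2 1))
  show |G (mk3 a b c)| ≤ _
  rw [abs_le]
  constructor <;> linarith

/-- `v ↦ G (u * v)` is sublinear -/
theorem sublin_hadamard {G : Vec → ℝ} (hG : Sublin G) {u : Vec} (hu : 0 ≤ u) :
    Sublin (fun v => G (u * v)) := by
  have hm : ∀ v : Vec, 0 ≤ v → 0 ≤ u * v := fun v hv i => by
    simpa using mul_nonneg (hu i) (hv i)
  refine { add_le := ?_, smul_eq := ?_ }
  · intro a b ha hb
    show G (u * (a + b)) ≤ G (u * a) + G (u * b)
    rw [mul_add]
    exact hG.add_le _ _ (hm a ha) (hm b hb)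
  · intro t a ht ha
    show G (u * (t • a)) = t * G (u * a)
    rw [mul_smul_comm]
    exact hG.smul_eq _ _ ht (hm a ha)

/-- `u ↦ Φ (v ↦ G (u * v))` is sublinear -/
theorem phiE_sublin {E : Ex3} (hE : BExp E Simp) {G : Vec → ℝ} (hG : Sublin G) :
    Sublin (fun u => PhiE E (fun v => G (u * v))) := by
  refine { add_le := ?_, smul_eq := ?_ }
  · intro u u' hu hu'
    show 3 * E (toF fun v => G ((u + u') * v)) ≤ 3 * E (toF fun v => G (u * v))
      + 3 * E (toF fun v => G (u' * v))
    have hb := bd_toF_of_sublin (sublin_hadamard hG hu)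
    have hb' := bd_toF_of_sublin (sublin_hadamard hG hu')
    have hb'' := bd_toF_of_sublin (sublin_hadamard hG (add_nonneg hu hu'))
    have := hE.mono hb'' (hb.add hb') (fun a b c h => by
      have hv := mk3_nonneg h
      show G ((u + u') * mk3 a b c) ≤ G (u * mk3 a b c) + G (u' * mk3 a b c)
      rw [add_mul]
      refine hG.add_le _ _ ?_ ?_
      · intro i
        simpa using mul_nonneg (hu i) (hv i)
      · intro i
        simpa using mul_nonneg (hu' i) (hv i))
    rw [hE.add _ _ hb hb'] at this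
    linarith
  · intro t u ht hu
    show 3 * E (toF fun v => G ((t • u) * v)) = t * (3 * E (toF fun v => G (u * v)))
    have e : E (toF fun v => G ((t • u) * v)) = E (fun a b c => t * toF (fun v => G (u * v)) a b c) :=
      hE.congr _ _ (fun a b c h => by
        have hv := mk3_nonneg h
        show G ((t • u) * mk3 a b c) = t * G (u * mk3 a b c)
        rw [smul_mul_assoc]
        refine hG.smul_eq _ _ ht ?_
        intro i
        simpa using mul_nonneg (hu i) (hv i))
    rw [e, hE.smul]
    ring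

/-- `u ↦ Φ (v ↦ G (u * v))` is in the class -/
theorem phiE_nsub {E : Ex3} (hE : BExp E Simp) {G : Vec → ℝ} (hG : NSub G) :
    NSub (fun u => PhiE E (fun v => G (u * v))) := by
  refine { toSublin := phiE_sublin hE hG.toSublin, vertex := ?_ }
  intro i
  show 3 * E (toF fun v => G ((Pi.single i 1 : Vec) * v)) = 0
  have e : E (toF fun v => G ((Pi.single i 1 : Vec) * v)) = E (fun _ _ _ => 0) :=
    hE.congr _ _ (fun a b c h => by
      have hv := mk3_nonneg h
      show G ((Pi.single i 1 : Vec) * mk3 a b c) = 0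
      have e' : (Pi.single i 1 : Vec) * mk3 a b c = (mk3 a b c i) • (Pi.single i 1 : Vec) := by
        funext j
        simp only [Pi.mul_apply, Pi.single_apply, Pi.smul_apply, smul_eq_mul]
        split_ifs with hj
        · subst hj
          ring
        · ring
      rw [e', hG.smul_eq _ _ (hv i) (by
        intro j
        simp only [Pi.single_apply, Pi.zero_apply]
        split_ifs <;> norm_num), hG.vertex, mul_zero])
  rw [e, hE.const, mul_zero]

theorem phiE_nonpos {E : Ex3} (hE : BExp E Simp) {G : Vec → ℝ} (hG : NSub G) : PhiE E G ≤ 0 := by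
  have := hE.mono (f := toF G) (g := fun _ _ _ => 0) (bd_toF_of_sublin hG.toSublin) (Bd.const 0)
    (fun a b c h => hG.nonpos (mk3_nonneg h))
  rw [hE.const] at this
  unfold PhiE
  linarith

theorem sublin_comp_perm {G : Vec → ℝ} (hG : Sublin G) (σ : Equiv.Perm (Fin 3)) :
    Sublin (fun v => G (v ∘ σ)) := by
  have hm : ∀ v : Vec, 0 ≤ v → 0 ≤ v ∘ σ := fun v hv i => hv (σ i)
  refine { add_le := ?_, smul_eq := ?_ }
  · intro u v hu hv
    exact hG.add_le _ _ (hm u hu) (hm v hv)
  · intro t v ht hv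
    exact hG.smul_eq _ _ ht (hm v hv)

/-- the value of a symmetric functional does not depend on the order of the coordinates -/
theorem E_perm {E : Ex3} (hE : BExp E Simp) (F : Vec → ℝ) (σ : Equiv.Perm (Fin 3)) :
    E (toF (fun v => F (v ∘ σ))) = E (toF F) := by
  have hmem : ∀ σ : Equiv.Perm (Fin 3),
      σ = 1 ∨ σ = Equiv.swap 0 1 ∨ σ = Equiv.swap 0 1 * Equiv.swap 1 2
        ∨ σ = Equiv.swap 1 2 * Equiv.swap 0 1 ∨ σ = Equiv.swap 1 2 ∨ σ = Equiv.swap 0 2 := by
    decide
  have p1 : ∀ f : Fn3, E (fun a b c => f b a c) = E f := hE.swap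
  have p2 : ∀ f : Fn3, E (fun a b c => f b c a) = E f := hE.cyc
  have p3 : ∀ f : Fn3, E (fun a b c => f c a b) = E f := fun f => by
    have := hE.cyc (fun a b c => f b c a)
    rw [hE.cyc f] at this
    exact this
  have p4 : ∀ f : Fn3, E (fun a b c => f c b a) = E f := fun f => by
    have := hE.cyc (fun a b c => f b a c)
    rw [hE.swap f] at this
    exact this
  have p5 : ∀ f : Fn3, E (fun a b c => f a c b) = E f := fun f => by
    have := hE.cyc (fun a b c => f c b a)
    rw [p4 f] at this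
    exact this
  rcases hmem σ with rfl | rfl | rfl | rfl | rfl | rfl
  · rfl
  · rw [← p1 (toF F)]
    congr 1
    funext a b c
    show F (mk3 a b c ∘ (Equiv.swap 0 1 : Equiv.Perm (Fin 3))) = F (mk3 b a c)
    congr 1
    funext i
    fin_cases i <;> rfl
  · rw [← p2 (toF F)]
    congr 1
    funext a b c
    show F (mk3 a b c ∘ (Equiv.swap 0 1 * Equiv.swap 1 2 : Equiv.Perm (Fin 3))) = F (mk3 b c a)
    congr 1
    funext i
    fin_cases i <;> rfl
  · rw [← p3 (toF F)]
    congr 1
    funext a b c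
    show F (mk3 a b c ∘ (Equiv.swap 1 2 * Equiv.swap 0 1 : Equiv.Perm (Fin 3))) = F (mk3 c a b)
    congr 1
    funext i
    fin_cases i <;> rfl
  · rw [← p5 (toF F)]
    congr 1
    funext a b c
    show F (mk3 a b c ∘ (Equiv.swap 1 2 : Equiv.Perm (Fin 3))) = F (mk3 a c b)
    congr 1
    funext i
    fin_cases i <;> rfl
  · rw [← p4 (toF F)]
    congr 1
    funext a b c
    show F (mk3 a b c ∘ (Equiv.swap 0 2 : Equiv.Perm (Fin 3))) = F (mk3 c b a)
    congr 1
    funext i
    fin_cases i <;> rfl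

theorem bexp_sum {E : Ex3} (hE : BExp E Simp) {ι : Type*} (s : Finset ι) (f : ι → Fn3)
    (hf : ∀ i ∈ s, Bd (f i)) :
    Bd (fun a b c => ∑ i ∈ s, f i a b c) ∧ E (fun a b c => ∑ i ∈ s, f i a b c) = ∑ i ∈ s, E (f i) := by
  classical
  induction s using Finset.induction_on with
  | empty =>
    simp only [Finset.sum_empty]
    exact ⟨Bd.const 0, hE.const 0⟩
  | insert a s ha ih =>
    obtain ⟨h1, h2⟩ := ih (fun i hi => hf i (Finset.mem_insert_of_mem hi))
    have h3 := hf a (Finset.mem_insert_self a s)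
    simp only [Finset.sum_insert ha]
    refine ⟨h3.add h1, ?_⟩
    rw [hE.add _ _ h3 h1, h2]

/-- symmetrization does not change the value -/
theorem phiE_symAvg {E : Ex3} (hE : BExp E Simp) {G : Vec → ℝ} (hG : Sublin G) :
    PhiE E (symAvg G) = PhiE E G := by
  unfold PhiE
  have e : toF (symAvg G) = fun a b c => (1 / 6 : ℝ) * ∑ σ : Equiv.Perm (Fin 3),
      toF (fun v => G (v ∘ σ)) a b c := rfl
  rw [e, hE.smul]
  obtain ⟨_, h2⟩ := bexp_sum hE (Finset.univ : Finset (Equiv.Perm (Fin 3)))
    (fun σ => toF (fun v => G (v ∘ σ))) (fun σ _ => bd_toF_of_sublin (sublin_comp_perm hG σ))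
  rw [h2]
  have h3 : ∑ σ : Equiv.Perm (Fin 3), E (toF fun v => G (v ∘ σ)) = 6 * E (toF G) := by
    rw [Finset.sum_congr rfl (fun σ _ => E_perm hE G σ), Finset.sum_const, Finset.card_univ,
      Fintype.card_perm]
    simp [Nat.factorial]
  rw [h3]
  ring

/-- the linear part of a test function -/
theorem phiE_sub_linear {E : Ex3} (hE : BExp E Simp) {G : Vec → ℝ} (hG : Sublin G) (g0 : ℝ) :
    PhiE E (fun v => G v - (v 0 * g0 + v 1 * g0 + v 2 * g0)) = PhiE E G - 3 * g0 := by
  unfold PhiE
  have e : E (toF fun v => G v - (v 0 * g0 + v 1 * g0 + v 2 * g0))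
      = E (fun a b c => toF G a b c - g0) := hE.congr _ _ (fun a b c h => by
    show G (mk3 a b c) - (a * g0 + b * g0 + c * g0) = G (mk3 a b c) - g0
    have := h.hs
    have e2 : a * g0 + b * g0 + c * g0 = (a + b + c) * g0 := by ring
    rw [e2, this, one_mul])
  rw [e, hE.sub (bd_toF_of_sublin hG) (Bd.const g0), hE.const]
  ring

theorem sublin_nonneg_mul {u v : Vec} (hu : 0 ≤ u) (hv : 0 ≤ v) : 0 ≤ u * v := fun i => by
  simpa using mul_nonneg (hu i) (hv i)

/-- the integrand of the product in terms of the test function -/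
theorem wt_toF {G : Vec → ℝ} (hG : Sublin G) {a b c p q r : ℝ} (h : Simp a b c) (h' : Simp p q r) :
    wt (toF G) a b c p q r = 3 * toF (fun v => G (mk3 a b c * v)) p q r := by
  rcases (dot_nonneg h h').eq_or_lt with hD | hD
  · rw [wt_of_dot_zero _ hD.symm]
    have h1 : a * p = 0 := by
      have := mul_nonneg h.ha h'.ha
      have := mul_nonneg h.hb h'.hb
      have := mul_nonneg h.hc h'.hc
      linarith
    have h2 : b * q = 0 := by
      have := mul_nonneg h.ha h'.ha
      have := mul_nonneg h.hb h'.hb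
      have := mul_nonneg h.hc h'.hc
      linarith
    have h3 : c * r = 0 := by
      have := mul_nonneg h.ha h'.ha
      have := mul_nonneg h.hb h'.hb
      have := mul_nonneg h.hc h'.hc
      linarith
    have e : mk3 a b c * mk3 p q r = 0 := by
      funext i
      fin_cases i
      · exact h1
      · exact h2
      · exact h3
    show (0 : ℝ) = 3 * G (mk3 a b c * mk3 p q r)
    rw [e, hG.map_zero, mul_zero]
  · have hne := hD.ne'
    have hv : 0 ≤ mk3 (a * p / (a * p + b * q + c * r)) (b * q / (a * p + b * q + c * r))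
        (c * r / (a * p + b * q + c * r)) := mk3_nonneg (prod_simp h h' hD)
    have e : mk3 a b c * mk3 p q r = (a * p + b * q + c * r) • mk3 (a * p / (a * p + b * q + c * r))
        (b * q / (a * p + b * q + c * r)) (c * r / (a * p + b * q + c * r)) := by
      funext i
      fin_cases i
      · show a * p = (a * p + b * q + c * r) * (a * p / (a * p + b * q + c * r))
        field_simp
      · show b * q = (a * p + b * q + c * r) * (b * q / (a * p + b * q + c * r))
        field_simp
      · show c * r = (a * p + b * q + c * r) * (c * r / (a * p + b * q + c * r))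
        field_simp
    show 3 * (a * p + b * q + c * r) * G _ = 3 * G (mk3 a b c * mk3 p q r)
    rw [e, hG.smul_eq _ _ hD.le hv]
    ring

/-- The functional of the `k`-fold Bayesian product is the power. -/
theorem Pk_eq_Psi {E : Ex3} (hE : BExp E Simp) (k : ℕ) {G : Vec → ℝ} (hG : Sublin G) :
    PhiE (Pk E k) G = Psi (PhiE E) k G := by
  induction k generalizing G with
  | zero =>
    show 3 * G (mk3 (1 / 3) (1 / 3) (1 / 3)) = G 1
    have e : (1 : Vec) = (3 : ℝ) • mk3 (1 / 3) (1 / 3) (1 / 3) := by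
      funext i
      fin_cases i <;> simp [mk3]
    rw [e, hG.smul_eq _ _ (by norm_num) (mk3_nonneg simp_centre)]
  | succ k ih =>
    have hS := phiE_sublin hE hG
    show 3 * bprod (Pk E k) E (toF G) = Psi (PhiE E) k (fun u => PhiE E (fun v => G (u * v)))
    rw [← ih hS]
    show 3 * (Pk E k) (fun a b c => E (fun p q r => wt (toF G) a b c p q r)) = _
    congr 1
    refine (Pk_bexp hE k).congr _ _ (fun a b c h => ?_)
    show _ = 3 * E (toF fun v => G (mk3 a b c * v))
    rw [← hE.smul]
    exact hE.congr _ _ (fun p q r h' => wt_toF hG h h')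

/-- The composition with the channel. -/
theorem phiE_chan {E : Ex3} (hE : BExp E Simp) (lam : ℝ) (G : Vec → ℝ) :
    PhiE (chan lam E) G = PhiE E (fun v => G (chanV lam v)) := by
  unfold PhiE
  congr 1
  refine hE.congr _ _ (fun a b c h => ?_)
  show G (mk3 (chanPt lam a) (chanPt lam b) (chanPt lam c)) = G (chanV lam (mk3 a b c))
  congr 1
  have hs := h.hs
  funext i
  fin_cases i
  · show lam * a + (1 - lam) / 3 = lam * a + (1 - lam) / 3 * (a + b + c)
    rw [hs, mul_one]
  · show lam * b + (1 - lam) / 3 = lam * b + (1 - lam) / 3 * (a + b + c)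
    rw [hs, mul_one]
  · show lam * c + (1 - lam) / 3 = lam * c + (1 - lam) / 3 * (a + b + c)
    rw [hs, mul_one]

/-- The mixture with the Horner functional: upper bound by finitely many terms with smaller weights. -/
theorem gwEx_succ_le {p : ℕ → ℝ} (hp0 : ∀ k, 0 ≤ p k) (hp1 : HasSum p 1) {lam : ℝ} (hl : Adm lam) (n K : ℕ)
    {ph : ℕ → ℝ} (hph0 : ∀ k, 0 ≤ ph k) (hph : ∀ k ≤ K, ph k ≤ p k) {G : Vec → ℝ} (hG : NSub G) :
    PhiE (gwEx p lam (n + 1)) G
      ≤ ∑ k ∈ Finset.range (K + 1), ph k * Psi (PhiE (chan lam (gwEx p lam n))) k G := by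
  have hC : BExp (chan lam (gwEx p lam n)) Simp := chan_bexp (gwEx_bexp hp0 hp1 hl n) hl
  have hb : Bd (toF G) := bd_toF_of_sublin hG.toSublin
  have hpsi : ∀ k, Psi (PhiE (chan lam (gwEx p lam n))) k G ≤ 0 := fun k => by
    rw [← Pk_eq_Psi hC k hG.toSublin]
    exact phiE_nonpos (Pk_bexp hC k) hG
  have hsum := mix_summable hp0 hp1.summable (F := fun k => Pk (chan lam (gwEx p lam n)) k)
    (fun k => Pk_bexp hC k) hb
  have hterm : ∀ k, p k * Pk (chan lam (gwEx p lam n)) k (toF G)
      = (1 / 3) * (p k * Psi (PhiE (chan lam (gwEx p lam n))) k G) := fun k => by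
    rw [← Pk_eq_Psi hC k hG.toSublin]
    unfold PhiE
    ring
  have hle : ∀ k, p k * Pk (chan lam (gwEx p lam n)) k (toF G) ≤ 0 := fun k => by
    rw [hterm k]
    have := mul_nonneg (hp0 k) (neg_nonneg.mpr (hpsi k))
    nlinarith
  have h1 : ∑' k, p k * Pk (chan lam (gwEx p lam n)) k (toF G)
      ≤ ∑ k ∈ Finset.range (K + 1), p k * Pk (chan lam (gwEx p lam n)) k (toF G) := by
    have := hsum.neg.sum_le_tsum (Finset.range (K + 1)) (fun k _ => neg_nonneg.mpr (hle k))
    rw [tsum_neg, Finset.sum_neg_distrib] at this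
    linarith
  have h2 : PhiE (gwEx p lam (n + 1)) G = 3 * ∑' k, p k * Pk (chan lam (gwEx p lam n)) k (toF G) := rfl
  rw [h2]
  have h3 : 3 * ∑ k ∈ Finset.range (K + 1), p k * Pk (chan lam (gwEx p lam n)) k (toF G)
      = ∑ k ∈ Finset.range (K + 1), p k * Psi (PhiE (chan lam (gwEx p lam n))) k G := by
    rw [Finset.mul_sum]
    refine Finset.sum_congr rfl (fun k _ => ?_)
    rw [hterm k]
    ring
  have h4 : ∑ k ∈ Finset.range (K + 1), p k * Psi (PhiE (chan lam (gwEx p lam n))) k G
      ≤ ∑ k ∈ Finset.range (K + 1), ph k * Psi (PhiE (chan lam (gwEx p lam n))) k G := by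
    refine Finset.sum_le_sum (fun k hk => ?_)
    have hk' : k ≤ K := Nat.lt_succ_iff.mp (Finset.mem_range.mp hk)
    exact mul_le_mul_of_nonpos_right (hph k hk') (hpsi k)
  linarith

/-- The expectation of a function through the homogeneous extension of the function. -/
theorem gwEx_eq_phiE_famH (E : Ex3) (hE : BExp E Simp) (f : Fn3) :
    E f = PhiE E (fun v => ((v 0 + v 1 + v 2) / 3) * f (v 0 / (v 0 + v 1 + v 2)) (v 1 / (v 0 + v 1 + v 2)) (v 2 / (v 0 + v 1 + v 2))) := by
  unfold PhiE
  have e : E (toF fun v => ((v 0 + v 1 + v 2) / 3) * f (v 0 / (v 0 + v 1 + v 2)) (v 1 / (v 0 + v 1 + v 2)) (v 2 / (v 0 + v 1 + v 2)))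
      = E (fun a b c => (1 / 3 : ℝ) * f a b c) := hE.congr _ _ (fun a b c h => by
    show ((a + b + c) / 3) * f (a / (a + b + c)) (b / (a + b + c)) (c / (a + b + c)) = _
    rw [h.hs]
    simp only [div_one])
  rw [e, hE.smul]
  ring

end Vale.Agent.Lib.P154.PChain
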