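import Vale.Agent.Lib.P154.PChain.Tail

/-!
Gluing a box of the chain with a certificate for the restricted range of `theta`.
-/

namespace Vale.Agent.Lib.P154.PChain

open Filter Topology Vale.Agent.Lib.P154.Neg

/-- A box of the chain and a certificate of the tail on the same range of `t`. -/
theorem BoxOK.tendsto_lp {C : Cst} {X : Cst.Ext} (hC : C.T2OK X)
    {ds ts ta M kap bp bm c3 b2 b3 : ℝ} (h : BoxOK ds ts M kap bp bm c3) (hds : 0 < ds) (hts : 0 < ts)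
    (hts2 : ts ≤ 1 / 2) (hta : 0 < ta) (hcorner : 1 / ta ≤ ds * ts) (hbp : 0 ≤ bp) (hM : 0 ≤ M)
    (h1 : rv C.t1 ≤ ta) (h2 : ts ≤ rv C.t2)
    (hb2 : ts ^ 2 * (3 / 2 + ts) ^ 2 ≤ b2) (hb3 : 15 * ts ^ 4 * (3 / 2 + ts) ^ 3 ≤ b3)
    (hval : 3 / 2 * M + 3 * ts * (bp * M ^ 2) + b2 * (kap * M ^ 2) + b3 * c3 ≤ rv C.thm)
    {d t : ℝ} (hd : 0 < d) (ht0 : ta ≤ t) (ht : t ≤ ts) (hKS : d * t ^ 2 ≤ 1) :
    Tendsto (fun n => gwEx (poissonLaw d) (-t) n I2) atTop (𝓝 0) := by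
  have htpos : 0 < t := by linarith
  have hb20 : 0 ≤ b2 := le_trans (by positivity) hb2
  have hb30 : 0 ≤ b3 := le_trans (by positivity) hb3
  have ht2 : t ^ 2 ≤ ts ^ 2 := pow_le_pow_left₀ htpos.le ht 2
  have ht4 : t ^ 4 ≤ ts ^ 4 := pow_le_pow_left₀ htpos.le ht 4
  have hs2 : (3 / 2 + t) ^ 2 ≤ (3 / 2 + ts) ^ 2 := pow_le_pow_left₀ (by linarith) (by linarith) 2
  have hs3 : (3 / 2 + t) ^ 3 ≤ (3 / 2 + ts) ^ 3 := pow_le_pow_left₀ (by linarith) (by linarith) 3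
  have hb2' : t ^ 2 * (3 / 2 + t) ^ 2 ≤ b2 :=
    le_trans (mul_le_mul ht2 hs2 (by positivity) (by positivity)) hb2
  have hb3' : 15 * t ^ 4 * (3 / 2 + t) ^ 3 ≤ b3 := by
    refine le_trans ?_ hb3
    have := mul_le_mul ht4 hs3 (by positivity) (by positivity)
    nlinarith
  obtain ⟨N, hN⟩ := h.hf_le hds hts hts2 hta hcorner hbp hM hd ht0 ht hKS hb20 hb30
  exact Cst.t2_tail hC hd htpos (h1.trans ht0) (ht.trans h2) hKS hb2' hb3' (hN.trans hval)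

end Vale.Agent.Lib.P154.PChain
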