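import Vale.Agent.Lib.P154.PChain.Func
import Vale.Agent.Lib.P154.Neg.PoiPath

/-!
Monotonicity: the Poisson tree with eigenvalue `-t` and mean `d` is a garbling of the Poisson tree with
eigenvalue `-t'` and mean `d'`, when `t <= t'` and `d * (t / t') <= d'`.
-/

namespace Vale.Agent.Lib.P154.PChain

open Vale.Agent.Lib.P154 Vale.Agent.Lib.P154.Neg Vale.Agent.Lib.P154.Chain
open scoped BigOperators

/-! ### Linear combinations of test functions -/

theorem mk3_nonneg' {a b c : ℝ} (h : Simp a b c) : 0 ≤ mk3 a b c := by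
  have h1 := h.ha
  have h2 := h.hb
  have h3 := h.hc
  intro i
  fin_cases i <;> simpa [mk3]

theorem phiE_le_comb {E : Ex3} (hE : BExp E Simp) {A B C : Vec → ℝ} (hA : Sublin A) (hB : Sublin B)
    (hC : Sublin C) (f g : ℝ) (h : ∀ v : Vec, 0 ≤ v → A v ≤ f * B v + g * C v) :
    PhiE E A ≤ f * PhiE E B + g * PhiE E C := by
  unfold PhiE
  have bA := bd_toF_of_sublin hA
  have bB := bd_toF_of_sublin hB
  have bC := bd_toF_of_sublin hC
  have h1 := hE.mono (f := toF A) (g := fun a b c => f * toF B a b c + g * toF C a b c) bA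
    ((Bd.smul f bB).add (Bd.smul g bC)) (fun a b c hs => h _ (mk3_nonneg' hs))
  rw [hE.add _ _ (Bd.smul f bB) (Bd.smul g bC), hE.smul, hE.smul] at h1
  linarith

/-- the mean of the coordinates -/
noncomputable def avgV (v : Vec) : ℝ := (v 0 + v 1 + v 2) / 3

theorem avgV_sublin : Sublin avgV := by
  refine { add_le := ?_, smul_eq := ?_ }
  · intro u v _ _
    simp only [avgV, Pi.add_apply]
    apply le_of_eq
    ring
  · intro t v _ _
    simp only [avgV, Pi.smul_apply, smul_eq_mul]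
    ring

theorem zero_sublin : Sublin (fun _ : Vec => (0 : ℝ)) := by
  refine { add_le := ?_, smul_eq := ?_ }
  · intro u v _ _
    simp
  · intro t v _ _
    simp

theorem phiE_avgV {E : Ex3} (hE : BExp E Simp) : PhiE E avgV = 1 := by
  unfold PhiE
  have : E (toF avgV) = E (fun _ _ _ => 1 / 3) := hE.congr _ _ (fun a b c hs => by
    have := hs.hs
    simp only [toF, avgV, mk3]
    simp
    linarith)
  rw [this, hE.const]
  norm_num

theorem chanV_split {t t' : ℝ} (ht' : 0 < t') (v : Vec) :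
    chanV (-t) v = (t / t') • chanV (-t') v + ((1 - t / t') * avgV v) • (1 : Vec) := by
  funext i
  simp only [chanV, avgV, Pi.add_apply, Pi.smul_apply, smul_eq_mul, Pi.one_apply]
  field_simp
  ring

theorem avgV_nonneg {v : Vec} (hv : 0 ≤ v) : 0 ≤ avgV v := by
  have h0 := hv 0
  have h1 := hv 1
  have h2 := hv 2
  simp only [Pi.zero_apply] at h0 h1 h2
  unfold avgV
  positivity

theorem H_chan_le {H : Vec → ℝ} (hH : Sublin H) {t t' : ℝ} (ht0 : 0 ≤ t) (ht'0 : 0 < t')
    (htt : t ≤ t') (ht' : t' ≤ 1 / 2) {v : Vec} (hv : 0 ≤ v) :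
    H (chanV (-t) v) ≤ (t / t') * H (chanV (-t') v) + ((1 - t / t') * H 1) * avgV v := by
  have hf0 : 0 ≤ t / t' := div_nonneg ht0 ht'0.le
  have hf1 : t / t' ≤ 1 := (div_le_one ht'0).2 htt
  have hg0 : 0 ≤ 1 - t / t' := by linarith
  have hc : 0 ≤ chanV (-t') v := chanV_nonneg (by linarith) (by linarith) hv
  have ha := avgV_nonneg hv
  have hm : 0 ≤ (1 - t / t') * avgV v := mul_nonneg hg0 ha
  have h1 : (0 : Vec) ≤ 1 := fun i => by simp
  rw [chanV_split ht'0 v]
  refine (hH.add_le _ _ (smul_nonneg hf0 hc) (smul_nonneg hm h1)).trans (le_of_eq ?_)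
  rw [hH.smul_eq _ _ hf0 hc, hH.smul_eq _ _ hm h1]
  ring

theorem comp_chan_sublin {H : Vec → ℝ} (hH : Sublin H) {lam : ℝ} (h0 : -(1 / 2) ≤ lam)
    (h1 : lam ≤ 1) : Sublin (fun v => H (chanV lam v)) :=
  hH.comp_linear (chanL lam) (fun _ hv => chanV_nonneg h0 h1 hv)

/-- the channel with a smaller eigenvalue is a mixture of the channel with a larger one and of the
constant map -/
theorem phiE_chan_le {E E' : Ex3} (hE : BExp E Simp) (hE' : BExp E' Simp)
    (IH : ∀ K : Vec → ℝ, Sublin K → PhiE E K ≤ PhiE E' K) {t t' : ℝ} (ht0 : 0 ≤ t) (ht'0 : 0 < t')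
    (htt : t ≤ t') (ht' : t' ≤ 1 / 2) {H : Vec → ℝ} (hH : Sublin H) :
    PhiE (chan (-t) E) H ≤ (t / t') * PhiE (chan (-t') E') H + (1 - t / t') * H 1 := by
  have hf0 : 0 ≤ t / t' := div_nonneg ht0 ht'0.le
  rw [phiE_chan hE, phiE_chan hE']
  have hA := comp_chan_sublin hH (lam := -t) (by linarith) (by linarith)
  have hB := comp_chan_sublin hH (lam := -t') (by linarith) (by linarith)
  have h1 := phiE_le_comb hE hA hB avgV_sublin (t / t') ((1 - t / t') * H 1)
    (fun v hv => H_chan_le hH ht0 ht'0 htt ht' hv)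
  rw [phiE_avgV hE, mul_one] at h1
  have h2 := mul_le_mul_of_nonneg_left (IH _ hB) hf0
  linarith

/-! ### Jensen by symmetry -/

theorem phiE_ge_one {E : Ex3} (hE : BExp E Simp) {L : Vec → ℝ} (hL : Sublin L) : L 1 ≤ PhiE E L := by
  unfold PhiE
  have bL := bd_toF_of_sublin hL
  rw [← hE.sym6 bL]
  have hb : Bd (fun p q r => (1 / 6) * (toF L p q r + toF L q r p + toF L r p q + toF L q p r
      + toF L p r q + toF L r q p)) := by
    refine Bd.smul _ ?_
    exact (((((bL.add bL.cyc).add bL.cyc.cyc).add bL.swap).add bL.swap.cyc.cyc).add bL.swap.cyc)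
  have h1 := hE.mono (f := fun _ _ _ => (1 / 3) * L 1) (Bd.const _) hb (fun a b c hs => by
    have hsum := hs.hs
    have v1 := mk3_nonneg' hs
    have v2 := mk3_nonneg' (simp_cyc hs)
    have v3 := mk3_nonneg' (simp_cyc (simp_cyc hs))
    have v4 := mk3_nonneg' (simp_swap hs)
    have v5 := mk3_nonneg' (simp_cyc (simp_swap hs))
    have v6 := mk3_nonneg' (simp_cyc (simp_cyc (simp_swap hs)))
    have e : mk3 a b c + mk3 b c a + mk3 c a b + mk3 b a c + mk3 a c b + mk3 c b a = (2 : ℝ) • (1 : Vec) := by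
      funext i
      fin_cases i <;>
        · simp [mk3]
          linarith
    have s1 := hL.add_le _ _ (add_nonneg (add_nonneg (add_nonneg (add_nonneg v1 v2) v3) v4) v5) v6
    have s2 := hL.add_le _ _ (add_nonneg (add_nonneg (add_nonneg v1 v2) v3) v4) v5
    have s3 := hL.add_le _ _ (add_nonneg (add_nonneg v1 v2) v3) v4
    have s4 := hL.add_le _ _ (add_nonneg v1 v2) v3
    have s5 := hL.add_le _ _ v1 v2
    rw [e, hL.smul_eq 2 1 (by norm_num) (fun i => by simp)] at s1
    simp only [toF]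
    linarith)
  rw [hE.const] at h1
  linarith

/-! ### Binomial sums -/

/-- the binomial mixture of a sequence -/
noncomputable def binS (f g : ℝ) (k : ℕ) (a : ℕ → ℝ) : ℝ :=
  ∑ p ∈ Finset.HasAntidiagonal.antidiagonal k, ((k.choose p.1 : ℝ) * (f ^ p.1 * g ^ p.2 * a p.1))

theorem binS_zero (f g : ℝ) (a : ℕ → ℝ) : binS f g 0 a = a 0 := by
  simp [binS]

theorem binS_succ (f g : ℝ) (k : ℕ) (a : ℕ → ℝ) :
    binS f g (k + 1) a = binS f g k (fun j => f * a (j + 1) + g * a j) := by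
  unfold binS
  rw [Finset.sum_antidiagonal_choose_succ_mul (fun i j => f ^ i * g ^ j * a i) k]
  rw [← Finset.sum_add_distrib]
  refine Finset.sum_congr rfl (fun p hp => ?_)
  have hp' : p.1 + p.2 = k := Finset.HasAntidiagonal.mem_antidiagonal.1 hp
  have hc : k.choose p.2 = k.choose p.1 := Nat.choose_symm_of_eq_add hp'.symm |>.symm
  rw [hc]
  ring

theorem binS_mono {f g : ℝ} (hf : 0 ≤ f) (hg : 0 ≤ g) (k : ℕ) {a b : ℕ → ℝ} (h : ∀ j, a j ≤ b j) :
    binS f g k a ≤ binS f g k b := by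
  unfold binS
  refine Finset.sum_le_sum (fun p _ => ?_)
  refine mul_le_mul_of_nonneg_left ?_ (Nat.cast_nonneg _)
  exact mul_le_mul_of_nonneg_left (h _) (by positivity)

theorem binS_abs_le {f : ℝ} (hf0 : 0 ≤ f) (hf1 : f ≤ 1) (k : ℕ) {B : ℝ} {a : ℕ → ℝ}
    (h : ∀ j, |a j| ≤ B) : |binS f (1 - f) k a| ≤ B := by
  induction k generalizing a with
  | zero => rw [binS_zero]; exact h 0
  | succ k ih =>
    rw [binS_succ]
    apply ih
    intro j
    have hg : 0 ≤ 1 - f := by linarith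
    calc |f * a (j + 1) + (1 - f) * a j| ≤ |f * a (j + 1)| + |(1 - f) * a j| := abs_add_le _ _
      _ = f * |a (j + 1)| + (1 - f) * |a j| := by
        rw [abs_mul, abs_mul, abs_of_nonneg hf0, abs_of_nonneg hg]
      _ ≤ f * B + (1 - f) * B :=
        add_le_add (mul_le_mul_of_nonneg_left (h _) hf0) (mul_le_mul_of_nonneg_left (h _) hg)
      _ = B := by ring

/-! ### Poisson thinning -/

theorem pois_thin (d f : ℝ) (i j : ℕ) :
    poissonLaw d (i + j) * ((i + j).choose i : ℝ) * (f ^ i * (1 - f) ^ j)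
      = poissonLaw (d * f) i * poissonLaw (d * (1 - f)) j := by
  have hc : (((i + j).choose i : ℕ) : ℝ) * (i.factorial : ℝ) * (j.factorial : ℝ) = ((i + j).factorial : ℝ) := by
    have h0 := Nat.add_choose_mul_factorial_mul_factorial i j
    rw [← Nat.choose_symm_add] at h0
    exact_mod_cast h0
  have hi : (i.factorial : ℝ) ≠ 0 := by positivity
  have hj : (j.factorial : ℝ) ≠ 0 := by positivity
  have hk : ((i + j).factorial : ℝ) ≠ 0 := by positivity
  have hcc : (((i + j).choose i : ℕ) : ℝ) = ((i + j).factorial : ℝ) / ((i.factorial : ℝ) * (j.factorial : ℝ)) := by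
    field_simp
    linarith
  unfold poissonLaw
  rw [hcc]
  have he : Real.exp (-d) = Real.exp (-(d * f)) * Real.exp (-(d * (1 - f))) := by
    rw [← Real.exp_add]
    congr 1
    ring
  rw [he, pow_add, mul_pow, mul_pow]
  field_simp

theorem summable_pois_mul {s : ℝ} (_hs : 0 ≤ s) {B : ℝ} {a : ℕ → ℝ} (h : ∀ j, |a j| ≤ B) :
    Summable (fun j => poissonLaw s j * a j) :=
  summable_mul_bdd (poisson_hasSum s).summable h

/-- thinning of the Poisson law -/
theorem thin_sum {d f : ℝ} (hd : 0 ≤ d) (hf0 : 0 ≤ f) (hf1 : f ≤ 1) {B : ℝ} {a : ℕ → ℝ}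
    (ha : ∀ j, |a j| ≤ B) :
    ∑' k, poissonLaw d k * binS f (1 - f) k a = ∑' j, poissonLaw (d * f) j * a j := by
  have hg0 : 0 ≤ 1 - f := by linarith
  have h1 : Summable (fun j => ‖poissonLaw (d * f) j * a j‖) :=
    (summable_pois_mul (mul_nonneg hd hf0) ha).norm
  have h2 : Summable (fun m => ‖poissonLaw (d * (1 - f)) m‖) :=
    (poisson_hasSum (d * (1 - f))).summable.norm
  have h3 := tsum_mul_tsum_eq_tsum_sum_antidiagonal_of_summable_norm h1 h2
  rw [(poisson_hasSum (d * (1 - f))).tsum_eq, mul_one] at h3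
  rw [h3]
  refine tsum_congr (fun k => ?_)
  unfold binS
  rw [Finset.mul_sum]
  refine Finset.sum_congr rfl (fun p hp => ?_)
  have hp' : p.1 + p.2 = k := Finset.HasAntidiagonal.mem_antidiagonal.1 hp
  have := pois_thin d f p.1 p.2
  rw [hp'] at this
  calc poissonLaw d k * ((k.choose p.1 : ℝ) * (f ^ p.1 * (1 - f) ^ p.2 * a p.1))
      = (poissonLaw d k * (k.choose p.1 : ℝ) * (f ^ p.1 * (1 - f) ^ p.2)) * a p.1 := by ring
    _ = (poissonLaw (d * f) p.1 * poissonLaw (d * (1 - f)) p.2) * a p.1 := by rw [this]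
    _ = _ := by ring

/-- the Poisson mean of a nondecreasing sequence is nondecreasing in the parameter -/
theorem pois_mono {B : ℝ} {a : ℕ → ℝ} (ha : ∀ j, |a j| ≤ B) (hm : ∀ j, a j ≤ a (j + 1)) {s s' : ℝ}
    (hs : 0 ≤ s) (hss : s ≤ s') : ∑' j, poissonLaw s j * a j ≤ ∑' j, poissonLaw s' j * a j := by
  have hd : ∀ x, HasDerivAt (fun s => ∑' k : ℕ, poissonLaw s k * a k)
      ((∑' k : ℕ, poissonLaw x k * a (k + 1)) - ∑' k : ℕ, poissonLaw x k * a k) x :=
    fun x => poisson_deriv a ha x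
  have hmono : MonotoneOn (fun s => ∑' k : ℕ, poissonLaw s k * a k) (Set.Ici 0) := by
    refine monotoneOn_of_deriv_nonneg (convex_Ici 0) ?_ ?_ ?_
    · exact fun x _ => (hd x).continuousAt.continuousWithinAt
    · exact fun x _ => (hd x).differentiableAt.differentiableWithinAt
    · intro x hx
      rw [interior_Ici] at hx
      have hx0 : 0 ≤ x := le_of_lt hx
      rw [(hd x).deriv, sub_nonneg]
      refine Summable.tsum_le_tsum (fun k => ?_) (summable_pois_mul hx0 ha)
        (summable_pois_mul hx0 (fun j => ha (j + 1)))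
      exact mul_le_mul_of_nonneg_left (hm k) (poisson_nonneg hx0 k)
  exact hmono (Set.mem_Ici.2 hs) (Set.mem_Ici.2 (hs.trans hss)) hss

/-! ### The powers -/

/-- the powers of the smaller functional, as a binomial mixture of the powers of the larger one -/
theorem psi_le_binS {Eo Ep : Ex3} (hEo : BExp Eo Simp) (hEp : BExp Ep Simp) {f : ℝ} (hf0 : 0 ≤ f)
    (hf1 : f ≤ 1)
    (hstep : ∀ H : Vec → ℝ, Sublin H → PhiE Eo H ≤ f * PhiE Ep H + (1 - f) * H 1) (k : ℕ)
    {H : Vec → ℝ} (hH : Sublin H) :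
    Psi (PhiE Eo) k H ≤ binS f (1 - f) k (fun j => Psi (PhiE Ep) j H) := by
  have hg0 : 0 ≤ 1 - f := by linarith
  induction k generalizing H with
  | zero =>
    rw [binS_zero]
    exact le_refl _
  | succ k ih =>
    have hH1 : Sublin (fun u => PhiE Eo (fun v => H (u * v))) := phiE_sublin hEo hH
    have hH2 : Sublin (fun u => PhiE Ep (fun v => H (u * v))) := phiE_sublin hEp hH
    have h1 := ih hH1
    refine h1.trans ?_
    rw [binS_succ]
    refine binS_mono hf0 hg0 k (fun j => ?_)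
    have e0 : Psi (PhiE Ep) (j + 1) H = Psi (PhiE Ep) j (fun u => PhiE Ep (fun v => H (u * v))) := rfl
    rw [e0, ← Pk_eq_Psi hEp j hH1, ← Pk_eq_Psi hEp j hH2, ← Pk_eq_Psi hEp j hH]
    refine phiE_le_comb (Pk_bexp hEp j) hH1 hH2 hH f (1 - f) (fun u hu => ?_)
    have h2 := hstep (fun v => H (u * v)) (sublin_hadamard hH hu)
    simpa using h2

/-- the sum form of the recursion -/
theorem phiE_gwEx_succ (p : ℕ → ℝ) (lam : ℝ) (n : ℕ) (G : Vec → ℝ) :
    PhiE (gwEx p lam (n + 1)) G = ∑' k, p k * PhiE (Pk (chan lam (gwEx p lam n)) k) G := by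
  unfold PhiE
  change 3 * mix p (fun k => Pk (chan lam (gwEx p lam n)) k) (toF G) = _
  unfold mix
  rw [← tsum_mul_left]
  refine tsum_congr (fun k => ?_)
  ring

theorem phiE_abs_le {E : Ex3} (hE : BExp E Simp) {G : Vec → ℝ} {C : ℝ}
    (hC : ∀ a b c, Simp a b c → |toF G a b c| ≤ C) : |PhiE E G| ≤ 3 * C := by
  unfold PhiE
  rw [abs_mul, abs_of_nonneg (by norm_num : (0 : ℝ) ≤ 3)]
  exact mul_le_mul_of_nonneg_left (hE.abs_le hC) (by norm_num)

/-- The comparison of the posteriors of two Poisson trees, on all sublinear test functions. -/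
theorem gwEx_poisson_mono_all {d d' t t' : ℝ} (hd : 0 < d) (hd' : 0 < d') (ht0 : 0 ≤ t) (ht'0 : 0 < t')
    (htt : t ≤ t') (ht' : t' ≤ 1 / 2) (hdd : d * t ≤ d' * t') (n : ℕ) {G : Vec → ℝ} (hG : Sublin G) :
    PhiE (gwEx (poissonLaw d) (-t) n) G ≤ PhiE (gwEx (poissonLaw d') (-t') n) G := by
  have hl : Adm (-t) := ⟨by linarith, by linarith⟩
  have hl' : Adm (-t') := ⟨by linarith, by linarith⟩
  have hf0 : 0 ≤ t / t' := div_nonneg ht0 ht'0.le
  have hf1 : t / t' ≤ 1 := (div_le_one ht'0).2 htt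
  have hdf : d * (t / t') ≤ d' := by
    rw [← mul_div_assoc, div_le_iff₀ ht'0]
    exact hdd
  induction n generalizing G with
  | zero => exact le_refl _
  | succ n ih =>
    have hE : BExp (gwEx (poissonLaw d) (-t) n) Simp :=
      gwEx_bexp (fun k => poisson_nonneg hd.le k) (poisson_hasSum d) hl n
    have hE' : BExp (gwEx (poissonLaw d') (-t') n) Simp :=
      gwEx_bexp (fun k => poisson_nonneg hd'.le k) (poisson_hasSum d') hl' n
    have hEo := chan_bexp hE hl
    have hEp := chan_bexp hE' hl'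
    obtain ⟨C, hC⟩ := bd_toF_of_sublin hG
    set a : ℕ → ℝ := fun j => PhiE (Pk (chan (-t') (gwEx (poissonLaw d') (-t') n)) j) G with ha
    have hab : ∀ j, |a j| ≤ 3 * C := fun j => phiE_abs_le (Pk_bexp hEp j) hC
    have hab0 : ∀ k, |PhiE (Pk (chan (-t) (gwEx (poissonLaw d) (-t) n)) k) G| ≤ 3 * C :=
      fun k => phiE_abs_le (Pk_bexp hEo k) hC
    have hstep : ∀ H : Vec → ℝ, Sublin H →
        PhiE (chan (-t) (gwEx (poissonLaw d) (-t) n)) H
          ≤ (t / t') * PhiE (chan (-t') (gwEx (poissonLaw d') (-t') n)) H + (1 - t / t') * H 1 :=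
      fun H hH => phiE_chan_le hE hE' (fun K hK => ih hK) ht0 ht'0 htt ht' hH
    have hterm : ∀ k, PhiE (Pk (chan (-t) (gwEx (poissonLaw d) (-t) n)) k) G
        ≤ binS (t / t') (1 - t / t') k a := by
      intro k
      rw [Pk_eq_Psi hEo k hG]
      refine (psi_le_binS hEo hEp hf0 hf1 hstep k hG).trans (le_of_eq ?_)
      congr 1
      funext j
      exact (Pk_eq_Psi hEp j hG).symm
    have hmono : ∀ j, a j ≤ a (j + 1) := by
      intro j
      simp only [ha]
      rw [Pk_eq_Psi hEp (j + 1) hG]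
      have e0 : Psi (PhiE (chan (-t') (gwEx (poissonLaw d') (-t') n))) (j + 1) G
          = Psi (PhiE (chan (-t') (gwEx (poissonLaw d') (-t') n))) j
            (fun u => PhiE (chan (-t') (gwEx (poissonLaw d') (-t') n)) (fun v => G (u * v))) := rfl
      rw [e0, ← Pk_eq_Psi hEp j (phiE_sublin hEp hG)]
      have h1 := phiE_le_comb (Pk_bexp hEp j) hG (phiE_sublin hEp hG) zero_sublin 1 0 (fun u hu => by
        have h2 := phiE_ge_one hEp (sublin_hadamard hG hu)
        simpa using h2)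
      linarith
    rw [phiE_gwEx_succ, phiE_gwEx_succ]
    calc ∑' k, poissonLaw d k * PhiE (Pk (chan (-t) (gwEx (poissonLaw d) (-t) n)) k) G
        ≤ ∑' k, poissonLaw d k * binS (t / t') (1 - t / t') k a := by
          refine Summable.tsum_le_tsum (fun k => ?_) (summable_pois_mul hd.le hab0)
            (summable_pois_mul hd.le (fun k => binS_abs_le hf0 hf1 k hab))
          exact mul_le_mul_of_nonneg_left (hterm k) (poisson_nonneg hd.le k)
      _ = ∑' j, poissonLaw (d * (t / t')) j * a j := thin_sum hd.le hf0 hf1 hab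
      _ ≤ ∑' j, poissonLaw d' j * a j := pois_mono hab hmono (mul_nonneg hd.le hf0) hdf

/-- The comparison of the posteriors of two Poisson trees on symmetric sublinear test functions. -/
theorem gwEx_poisson_mono {d d' t t' : ℝ} (hd : 0 < d) (hd' : 0 < d') (ht0 : 0 ≤ t) (ht'0 : 0 < t') (htt : t ≤ t') (ht' : t' ≤ 1 / 2)
    (hdd : d * t ≤ d' * t') (n : ℕ) {G : Vec → ℝ} (hG : Sublin G) (_hs : Symm G) :
    PhiE (gwEx (poissonLaw d) (-t) n) G ≤ PhiE (gwEx (poissonLaw d') (-t') n) G :=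
  gwEx_poisson_mono_all hd hd' ht0 ht'0 htt ht' hdd n hG

end Vale.Agent.Lib.P154.PChain
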