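import Vale.Agent.Lib.P154.PChain.Meas

/-!
The Horner scheme on pairs of measures: domination, supports, totals and mass bounds.
The functional `Φ` stands for the message, `H G := u ↦ Φ (v ↦ G (u * v))`.
-/

namespace Vale.Agent.Lib.P154.PChain

open Vale.Agent.Lib.P154.Chain
open scoped BigOperators

/-- an atom -/
noncomputable def sgl (n : Ex) (a : ℕ) : Meas := ⟨Finsupp.single n a⟩

/-- one step of the Horner scheme on functionals -/
noncomputable def stepF (bw : ℕ) (Φ A : (Vec → ℝ) → ℝ) (a : ℕ) : (Vec → ℝ) → ℝ :=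
  fun G => A (fun u => Φ (fun v => G (u * v))) + ((2 : ℝ) ^ bw)⁻¹ * a * G 1

/-- the sum of the weighted powers, low weights first -/
noncomputable def sumL (bw : ℕ) (Φ : (Vec → ℝ) → ℝ) : List ℕ → (Vec → ℝ) → ℝ
  | [], _ => 0
  | b :: l, G => sumL bw Φ l (fun u => Φ (fun v => G (u * v))) + ((2 : ℝ) ^ bw)⁻¹ * b * G 1

section small

variable {O : ℕ}

theorem inv3_add {w w' : Meas} (h : Inv3 w) (h' : Inv3 w') : Inv3 (w + w') := by
  intro σ n
  rw [AddMonoidAlgebra.coeff_add, Finsupp.add_apply, Finsupp.add_apply, h, h']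

theorem inv3_sgl (c a : ℕ) : Inv3 (sgl (cO c) a) := by
  classical
  intro σ n
  simp only [sgl, Finsupp.single_apply]
  have : cO c = n ∘ σ ↔ cO c = n := by
    constructor
    · intro h
      funext i
      have h2 := congrFun h (σ⁻¹ i)
      simpa [cO, Function.comp_apply] using h2
    · intro h
      rw [← h]
      rfl
  by_cases hn : cO c = n
  · rw [if_pos hn, if_pos (this.2 hn)]
  · rw [if_neg hn, if_neg (fun h => hn (this.1 h))]

theorem supp_sgl (k a : ℕ) : Supp O k (sgl (cO (k * O)) a) := by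
  classical
  intro n hn
  simp only [sgl, Finsupp.single_apply] at hn
  have hn' : cO (k * O) = n := by
    by_contra hcon
    rw [if_neg hcon] at hn
    exact hn rfl
  subst hn'
  refine ⟨by simp only [cO]; ring, fun i => by simp only [cO]; omega⟩

theorem tot_sgl (n : Ex) (a : ℕ) : tot (sgl n a) = a := by
  unfold tot sgl
  exact Finsupp.sum_single_index rfl

theorem atomsVal_sgl (n : Ex) (a : ℕ) (f : Ex → ℝ) : atomsVal (sgl n a) f = (a : ℝ) * f n := by
  unfold atomsVal sgl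
  exact Finsupp.sum_single_index (by simp)

theorem phi_sgl {B L : ℕ} (n : Ex) (a : ℕ) : phi B L (sgl n a) = a * 2 ^ (B * (n 0 + L * n 1)) :=
  phi_single n a

theorem ray_cO {r : ℝ} (k : ℕ) : ray r O k (cO (k * O)) = 1 := by
  funext i
  simp [ray, cO]

theorem massV_sgl {bw k : ℕ} {r : ℝ} (a : ℕ) (j : Fin 3) :
    massV bw r O k (sgl (cO (k * O)) a) j = ((2 : ℝ) ^ bw)⁻¹ * a := by
  unfold massV
  rw [atomsVal_sgl, ray_cO]
  simp

/-- the value of a pair plus an atom at the centre -/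
theorem VP_add_sgl {bw k : ℕ} {r : ℝ} (X Y : Meas) (a : ℕ) (G : Vec → ℝ) :
    VP bw r O k (X + sgl (cO (k * O)) a) Y G
      = VP bw r O k X Y G + ((2 : ℝ) ^ bw)⁻¹ * a * G 1 := by
  unfold VP
  rw [atomsVal_add, atomsVal_sgl, ray_cO]
  ring

end small

/-- the pair at a step of the Horner scheme -/
structure HOK (bw O : ℕ) (r : ℝ) (A : (Vec → ℝ) → ℝ) (hS hF : ℝ) (tt : ℕ) (w e : Meas) : Prop where
  inv : Inv3 w
  inve : InvE e
  sw : Supp O 1 w
  se : Supp O 1 e
  htot : tot w + tot e ≤ tt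
  dom : ∀ G, NSub G → A G ≤ VP bw r O 1 w e G
  mw : ∀ j, massV bw r O 1 w j ≤ hS
  me : ∀ j, massV bw r O 1 e j ≤ hF - hS

/-- the pair of the message -/
structure MsgOK (bw O : ℕ) (r : ℝ) (Φ : (Vec → ℝ) → ℝ) (S F : ℝ) (w1 e1 : Meas) : Prop where
  hr : 0 < r
  inv : Inv3 w1
  inve : InvE e1
  sw : Supp O 1 w1
  se : Supp O 1 e1
  htot : tot w1 + tot e1 ≤ 2 ^ bw
  dom : ∀ G, NSub G → Φ G ≤ VP bw r O 1 w1 e1 G
  nsub : ∀ G, NSub G → NSub (fun u => Φ (fun v => G (u * v)))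
  mw : ∀ j, massV bw r O 1 w1 j ≤ S
  me : ∀ j, massV bw r O 1 e1 j ≤ F
  hS0 : 0 ≤ S
  hF0 : 0 ≤ F

section step

variable {bw O : ℕ} {r : ℝ} {Φ A : (Vec → ℝ) → ℝ} {S F hS hF : ℝ} {tt : ℕ} {w1 e1 w e : Meas}

/-- the second component of the product -/
noncomputable def prodE (w e w1 e1 : Meas) : Meas := w * e1 + e * w1 + e * e1

theorem supp_prodW (h : HOK bw O r A hS hF tt w e) (m : MsgOK bw O r Φ S F w1 e1) :
    Supp O 2 (w * w1) := supp_mul h.sw m.sw

theorem supp_prodE (h : HOK bw O r A hS hF tt w e) (m : MsgOK bw O r Φ S F w1 e1) :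
    Supp O 2 (prodE w e w1 e1) :=
  supp_add (supp_add (supp_mul h.sw m.se) (supp_mul h.se m.sw)) (supp_mul h.se m.se)

theorem tot_prods (h : HOK bw O r A hS hF tt w e) (m : MsgOK bw O r Φ S F w1 e1) :
    tot (w * w1) + tot (prodE w e w1 e1) ≤ tt * 2 ^ bw := by
  unfold prodE
  rw [tot_add, tot_add, tot_mul, tot_mul, tot_mul, tot_mul]
  have h1 := h.htot
  have h2 := m.htot
  have h5 : (tot w + tot e) * (tot w1 + tot e1) ≤ tt * 2 ^ bw := Nat.mul_le_mul h1 h2
  nlinarith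

theorem dom_prod_VP (h : HOK bw O r A hS hF tt w e) (m : MsgOK bw O r Φ S F w1 e1) {G : Vec → ℝ}
    (hG : NSub G) :
    A (fun u => Φ (fun v => G (u * v)))
      ≤ VP bw r O 2 (tr bw (w * w1)) (tr bw (prodE w e w1 e1)) G := by
  have hN := m.nsub G hG
  refine (h.dom _ hN).trans ?_
  have hmono : VP bw r O 1 w e (fun u => Φ (fun v => G (u * v)))
      ≤ VP bw r O 1 w e (fun u => VP bw r O 1 w1 e1 (fun v => G (u * v))) := by
    refine VP_mono m.hr (fun u hu => m.dom _ ?_)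
    have := hG.hadamard hu
    simpa only [mul_comm] using this
  refine hmono.trans ?_
  exact VP_mul m.hr hG h.inv m.inv

theorem mass_prodW (h : HOK bw O r A hS hF tt w e) (m : MsgOK bw O r Φ S F w1 e1) (j : Fin 3) :
    massV bw r O 2 (tr bw (w * w1)) j ≤ hS * S := by
  have h1 := massV_tr_le (bw := bw) (O := O) (k := 2) m.hr (w * w1) j
  have e2 : massV bw r O 2 (w * w1) j = 2 ^ bw * (massV bw r O 1 w j * massV bw r O 1 w1 j) :=
    massV_mul (k := 1) (k' := 1) w w1 j m.hr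
  rw [e2] at h1
  have h2 : ((2 : ℝ) ^ bw)⁻¹ * (2 ^ bw * (massV bw r O 1 w j * massV bw r O 1 w1 j)) =
      massV bw r O 1 w j * massV bw r O 1 w1 j := by
    rw [← mul_assoc, inv_mul_cancel₀ (by positivity), one_mul]
  rw [h2] at h1
  refine h1.trans ?_
  exact mul_le_mul (h.mw j) (m.mw j) (massV_nonneg m.hr _ _)
    ((massV_nonneg m.hr _ _).trans (h.mw j))

theorem mass_prodE (h : HOK bw O r A hS hF tt w e) (m : MsgOK bw O r Φ S F w1 e1) (j : Fin 3) :
    massV bw r O 2 (tr bw (prodE w e w1 e1)) j ≤ hF * (S + F) - hS * S := by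
  have h1 := massV_tr_le (bw := bw) (O := O) (k := 2) m.hr (prodE w e w1 e1) j
  have e1' : massV bw r O 2 (prodE w e w1 e1) j =
      2 ^ bw * (massV bw r O 1 w j * massV bw r O 1 e1 j)
        + 2 ^ bw * (massV bw r O 1 e j * massV bw r O 1 w1 j)
        + 2 ^ bw * (massV bw r O 1 e j * massV bw r O 1 e1 j) := by
    unfold prodE
    rw [massV_add, massV_add,
      show massV bw r O 2 (w * e1) j = _ from massV_mul (k := 1) (k' := 1) w e1 j m.hr,
      show massV bw r O 2 (e * w1) j = _ from massV_mul (k := 1) (k' := 1) e w1 j m.hr,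
      show massV bw r O 2 (e * e1) j = _ from massV_mul (k := 1) (k' := 1) e e1 j m.hr]
  rw [e1'] at h1
  set a := massV bw r O 1 w j with ha
  set b := massV bw r O 1 e j with hb
  set a' := massV bw r O 1 w1 j with ha'
  set b' := massV bw r O 1 e1 j with hb'
  have h2 : ((2 : ℝ) ^ bw)⁻¹ * (2 ^ bw * (a * b') + 2 ^ bw * (b * a') + 2 ^ bw * (b * b')) =
      a * b' + b * a' + b * b' := by
    have : (2 : ℝ) ^ bw ≠ 0 := by positivity
    field_simp
  rw [h2] at h1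
  refine h1.trans ?_
  have a0 : 0 ≤ a := massV_nonneg m.hr _ _
  have b0 : 0 ≤ b := massV_nonneg m.hr _ _
  have a'0 : 0 ≤ a' := massV_nonneg m.hr _ _
  have b'0 : 0 ≤ b' := massV_nonneg m.hr _ _
  have ha1 := h.mw j
  have hb1 := h.me j
  have ha2 := m.mw j
  have hb2 := m.me j
  have t1 : a * b' ≤ hS * F := mul_le_mul ha1 hb2 b'0 (a0.trans ha1)
  have t2 : b * a' ≤ (hF - hS) * S := mul_le_mul hb1 ha2 a'0 (b0.trans hb1)
  have t3 : b * b' ≤ (hF - hS) * F := mul_le_mul hb1 hb2 b'0 (b0.trans hb1)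
  nlinarith

/-- A step of the Horner scheme, with the window. -/
theorem HOK.step (h : HOK bw O r A hS hF tt w e) (m : MsgOK bw O r Φ S F w1 e1) (a : ℕ) :
    HOK bw O r (stepF bw Φ A a) (hS * S + ((2 : ℝ) ^ bw)⁻¹ * a) (hF * (S + F) + ((2 : ℝ) ^ bw)⁻¹ * a)
      (tt + a)
      (rc O (tr bw (w * w1)) + sgl (cO O) a) (rc O (tr bw (prodE w e w1 e1))) := by
  have hc : cO O = cO (1 * O) := by rw [one_mul]
  refine ⟨?_, ?_, ?_, ?_, ?_, ?_, ?_, ?_⟩
  · exact inv3_add (inv3_rc (inv3_tr (inv3_mul h.inv m.inv))) (inv3_sgl _ _)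
  · unfold prodE
    exact invE_rc (invE_tr (invE_add (invE_add (invE_mul (invE_of_inv3 h.inv) m.inve)
      (invE_mul h.inve (invE_of_inv3 m.inv))) (invE_mul h.inve m.inve)))
  · refine supp_add (supp_rc (supp_tr (supp_prodW h m))) ?_
    rw [hc]
    exact supp_sgl 1 a
  · exact supp_rc (supp_tr (supp_prodE h m))
  · rw [tot_add, tot_sgl]
    have h1 := tot_rc_le O (tr bw (w * w1))
    have h2 := tot_rc_le O (tr bw (prodE w e w1 e1))
    have h3 := tot_tr_le (bw := bw) (w * w1)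
    have h4 := tot_tr_le (bw := bw) (prodE w e w1 e1)
    have h5 := tot_prods h m
    have h6 : 2 ^ bw * (tot (tr bw (w * w1)) + tot (tr bw (prodE w e w1 e1))) ≤ 2 ^ bw * tt := by
      rw [mul_add, mul_comm (2 ^ bw) tt]
      omega
    have h7 := Nat.le_of_mul_le_mul_left h6 (by positivity)
    omega
  · intro G hG
    unfold stepF
    have h1 := dom_prod_VP h m hG
    have h2 := VP_rc (bw := bw) (O := O) m.hr (X := tr bw (w * w1)) (Y := tr bw (prodE w e w1 e1)) hG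
    have h3 := VP_add_sgl (bw := bw) (O := O) (k := 1) (r := r) (rc O (tr bw (w * w1)))
      (rc O (tr bw (prodE w e w1 e1))) a G
    rw [one_mul] at h3
    rw [h3]
    linarith
  · intro j
    rw [massV_add]
    have h1 := massV_rc_le (bw := bw) (O := O) m.hr (tr bw (w * w1)) j
    have h2 := mass_prodW h m j
    have h3 := massV_sgl (O := O) (bw := bw) (k := 1) (r := r) a j
    rw [one_mul] at h3
    rw [h3]
    linarith
  · intro j
    have h1 := massV_rc_le (bw := bw) (O := O) m.hr (tr bw (prodE w e w1 e1)) j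
    have h2 := mass_prodE h m j
    linarith

end step

/-! ### The scheme on measures -/

/-- the Horner scheme on pairs of measures -/
noncomputable def hornM (bw O : ℕ) (w1 e1 : Meas) : WL → Meas → Meas → Meas × Meas
  | .nil, w, e => (w, e)
  | .cons a tl, w, e =>
      hornM bw O w1 e1 tl (rc O (tr bw (w * w1)) + sgl (cO O) a) (rc O (tr bw (prodE w e w1 e1)))

/-- the Horner scheme on functionals -/
noncomputable def hornA (bw : ℕ) (Φ : (Vec → ℝ) → ℝ) : WL → ((Vec → ℝ) → ℝ) → ((Vec → ℝ) → ℝ)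
  | .nil, A => A
  | .cons a tl, A => hornA bw Φ tl (stepF bw Φ A a)

/-- the Horner scheme on the mass bounds -/
noncomputable def hornR (bw : ℕ) (x : ℝ) : WL → ℝ → ℝ
  | .nil, h => h
  | .cons a tl, h => hornR bw x tl (h * x + ((2 : ℝ) ^ bw)⁻¹ * a)

theorem goHorn_step {β : Type} (bw HEX eo Pw f a : ℕ) (tl : WL) (w e : ℕ) (k : ℕ → ℕ → β) :
    goHorn bw HEX eo Pw f (.cons a tl) w e k
      = goHorn bw HEX eo Pw f tl (truncH bw HEX eo (w * Pw) + a <<< eo) (truncH bw HEX eo (mulE w e Pw f eo)) k := by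
  show seqN (Nat.add (truncH bw HEX eo (Nat.mul w Pw)) (Nat.shiftLeft a eo)) (fun w' =>
        seqN (truncH bw HEX eo (mulE w e Pw f eo)) (fun e' => goHorn bw HEX eo Pw f tl w' e' k)) = _
  simp only [seqN_eq]
  rfl

section run

variable {bw O B L : ℕ} {r : ℝ} {Φ : (Vec → ℝ) → ℝ} {S F : ℝ} {w1 e1 : Meas} {fv : ℕ}

/-- the second product on numbers -/
theorem mulE_phi (he1 : phi B L e1 = fv <<< (B * (O + L * O))) (w e : Meas) :
    mulE (phi B L w) (phi B L e) (phi B L w1) fv (B * (O + L * O)) = phi B L (prodE w e w1 e1) := by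
  unfold prodE mulE
  rw [phi_add, phi_add, phi_mul, phi_mul, phi_mul, he1]
  show (phi B L w * fv) <<< (B * (O + L * O)) + phi B L e * phi B L w1
      + (phi B L e * fv) <<< (B * (O + L * O)) = _
  simp only [Nat.shiftLeft_eq]
  ring

/-- the induction along the scheme -/
theorem horn_aux (hL : L = 4 * O + 1) (hB : 2 * bw + 2 ≤ B) (m : MsgOK bw O r Φ S F w1 e1)
    (he1 : phi B L e1 = fv <<< (B * (O + L * O))) (T : WL) (A : (Vec → ℝ) → ℝ) (hS hF : ℝ) (tt : ℕ)
    (w e : Meas) (h : HOK bw O r A hS hF tt w e) (htt : tt + WL.sum T ≤ 2 ^ bw) {β : Type} (k : ℕ → ℕ → β) :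
    goHorn bw (hexOf B bw L O) (B * (O + L * O)) (phi B L w1) fv T (phi B L w) (phi B L e) k
        = k (phi B L (hornM bw O w1 e1 T w e).1) (phi B L (hornM bw O w1 e1 T w e).2)
      ∧ HOK bw O r (hornA bw Φ T A) (hornR bw S T hS) (hornR bw (S + F) T hF) (tt + WL.sum T)
          (hornM bw O w1 e1 T w e).1 (hornM bw O w1 e1 T w e).2 := by
  induction T generalizing A hS hF tt w e with
  | nil => exact ⟨rfl, h⟩
  | cons a tl ih =>
    have hb : bw ≤ B := by omega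
    have htt' : tt + a + WL.sum tl ≤ 2 ^ bw := by
      simp only [WL.sum] at htt
      omega
    have htt0 : tt ≤ 2 ^ bw := by omega
    have hlt : tt * 2 ^ bw < 2 ^ B := by
      calc tt * 2 ^ bw ≤ 2 ^ bw * 2 ^ bw := Nat.mul_le_mul_right _ htt0
        _ = 2 ^ (2 * bw) := by rw [two_mul, pow_add]
        _ < 2 ^ B := Nat.pow_lt_pow_right (by norm_num) (by omega)
    have hp := tot_prods h m
    have t1 : truncH bw (hexOf B bw L O) (B * (O + L * O)) (phi B L (w * w1)) = phi B L (rc O (tr bw (w * w1))) :=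
      truncH_phi hL (supp_prodW h m) (by omega) hb
    have t2 : truncH bw (hexOf B bw L O) (B * (O + L * O)) (phi B L (prodE w e w1 e1))
        = phi B L (rc O (tr bw (prodE w e w1 e1))) :=
      truncH_phi hL (supp_prodE h m) (by omega) hb
    have hnew := h.step m a
    have hR := ih (A := stepF bw Φ A a) (hS := hS * S + ((2 : ℝ) ^ bw)⁻¹ * a)
      (hF := hF * (S + F) + ((2 : ℝ) ^ bw)⁻¹ * a) (tt := tt + a) _ _ hnew htt'
    refine ⟨?_, ?_⟩
    · rw [goHorn_step]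
      have e1' : truncH bw (hexOf B bw L O) (B * (O + L * O)) (phi B L w * phi B L w1) + a <<< (B * (O + L * O))
          = phi B L (rc O (tr bw (w * w1)) + sgl (cO O) a) := by
        rw [← phi_mul, t1, phi_add, phi_sgl, Nat.shiftLeft_eq]
        rfl
      have e2' : truncH bw (hexOf B bw L O) (B * (O + L * O))
          (mulE (phi B L w) (phi B L e) (phi B L w1) fv (B * (O + L * O)))
          = phi B L (rc O (tr bw (prodE w e w1 e1))) := by
        rw [mulE_phi he1, t2]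
      rw [e1', e2']
      exact hR.1
    · have e3 : tt + WL.sum (.cons a tl) = tt + a + WL.sum tl := by
        simp only [WL.sum]
        omega
      rw [e3]
      exact hR.2

end run

/-! ### The last step -/

/-- the conclusion of the Horner scheme: a pair at level two -/
structure FinOK (bw O : ℕ) (r : ℝ) (A : (Vec → ℝ) → ℝ) (HS HF : ℝ) (tt : ℕ) (R1 R2 : Meas) : Prop where
  inv : Inv3 R1
  inve : InvE R2
  s1 : Supp O 2 R1
  s2 : Supp O 2 R2
  htot : tot R1 + tot R2 ≤ tt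
  dom : ∀ G, NSub G → A G ≤ VP bw r O 2 R1 R2 G
  m1 : ∀ j, massV bw r O 2 R1 j ≤ HS
  m2 : ∀ j, massV bw r O 2 R2 j ≤ HF - HS

theorem HOK.last {bw O : ℕ} {r : ℝ} {Φ A : (Vec → ℝ) → ℝ} {S F hS hF : ℝ} {tt : ℕ} {w1 e1 w e : Meas}
    (h : HOK bw O r A hS hF tt w e) (m : MsgOK bw O r Φ S F w1 e1) (a : ℕ) :
    FinOK bw O r (stepF bw Φ A a) (hS * S + ((2 : ℝ) ^ bw)⁻¹ * a) (hF * (S + F) + ((2 : ℝ) ^ bw)⁻¹ * a)
      (tt + a) (tr bw (w * w1) + sgl (cO (2 * O)) a) (tr bw (prodE w e w1 e1)) := by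
  refine ⟨?_, ?_, ?_, ?_, ?_, ?_, ?_, ?_⟩
  · exact inv3_add (inv3_tr (inv3_mul h.inv m.inv)) (inv3_sgl _ _)
  · unfold prodE
    exact invE_tr (invE_add (invE_add (invE_mul (invE_of_inv3 h.inv) m.inve)
      (invE_mul h.inve (invE_of_inv3 m.inv))) (invE_mul h.inve m.inve))
  · exact supp_add (supp_tr (supp_prodW h m)) (supp_sgl 2 a)
  · exact supp_tr (supp_prodE h m)
  · rw [tot_add, tot_sgl]
    have h3 := tot_tr_le (bw := bw) (w * w1)
    have h4 := tot_tr_le (bw := bw) (prodE w e w1 e1)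
    have h5 := tot_prods h m
    have h6 : 2 ^ bw * (tot (tr bw (w * w1)) + tot (tr bw (prodE w e w1 e1))) ≤ 2 ^ bw * tt := by
      rw [mul_add, mul_comm (2 ^ bw) tt]
      omega
    have h7 := Nat.le_of_mul_le_mul_left h6 (by positivity)
    omega
  · intro G hG
    unfold stepF
    have h1 := dom_prod_VP h m hG
    have h3 := VP_add_sgl (bw := bw) (O := O) (k := 2) (r := r) (tr bw (w * w1))
      (tr bw (prodE w e w1 e1)) a G
    rw [h3]
    linarith
  · intro j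
    rw [massV_add, massV_sgl]
    have h2 := mass_prodW h m j
    linarith
  · intro j
    have h2 := mass_prodE h m j
    linarith

/-! ### The functional of the scheme -/

theorem stepF_sumL (bw : ℕ) (Φ : (Vec → ℝ) → ℝ) (l : List ℕ) (a : ℕ) :
    stepF bw Φ (sumL bw Φ l) a = sumL bw Φ (a :: l) := rfl

theorem hornA_sumL (bw : ℕ) (Φ : (Vec → ℝ) → ℝ) (T : WL) (l : List ℕ) :
    ∃ l', hornA bw Φ T (sumL bw Φ l) = sumL bw Φ l' ∧ l' = WL.rev T ++ l := by
  induction T generalizing l with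
  | nil => exact ⟨l, rfl, rfl⟩
  | cons a tl ih =>
    obtain ⟨l', h1, h2⟩ := ih (a :: l)
    refine ⟨l', ?_, ?_⟩
    · show hornA bw Φ tl (stepF bw Φ (sumL bw Φ l) a) = _
      rw [stepF_sumL, h1]
    · rw [h2]
      simp [WL.rev]

/-- the list of the weights, low weights first -/
def WP.L (wp : WP) : List ℕ := wp.p0 :: (WL.rev wp.T ++ [wp.top])

/-! ### The mass polynomial -/

theorem keptZ_eq (bw Y X : ℕ) (T : WL) (Z j : ℕ) :
    (keptZ Y X T Z j : ℝ) = hornR bw ((X : ℝ) / 2 ^ Y) T ((Z : ℝ) / 2 ^ (bw + j * Y))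
      * 2 ^ (bw + (j + WL.len T) * Y) := by
  induction T generalizing Z j with
  | nil =>
    simp only [hornR, WL.len, add_zero]
    show (Z : ℝ) = _
    have : (2 : ℝ) ^ (bw + j * Y) ≠ 0 := by positivity
    field_simp
  | cons a tl ih =>
    have e0 : keptZ Y X (.cons a tl) Z j
        = keptZ Y X tl (Nat.add (Nat.mul Z X) (Nat.shiftLeft a (Nat.mul (Nat.succ j) Y))) (Nat.succ j) := by
      show seqN (Nat.add (Nat.mul Z X) (Nat.shiftLeft a (Nat.mul (Nat.succ j) Y)))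
        (fun Z' => keptZ Y X tl Z' (Nat.succ j)) = _
      rw [seqN_eq]
    rw [e0, ih]
    simp only [hornR, WL.len]
    have e1 : j.succ + WL.len tl = j + (WL.len tl + 1) := by omega
    rw [e1]
    congr 2
    have e2 : ((Nat.add (Nat.mul Z X) (Nat.shiftLeft a (Nat.mul (Nat.succ j) Y)) : ℕ) : ℝ)
        = (Z : ℝ) * X + a * 2 ^ ((j + 1) * Y) := by
      show (((Z * X + a <<< ((j + 1) * Y) : ℕ)) : ℝ) = _
      rw [Nat.shiftLeft_eq]
      push_cast
      ring
    rw [e2]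
    have e3 : (2 : ℝ) ^ (bw + j.succ * Y) = 2 ^ (bw + j * Y) * 2 ^ Y := by
      rw [← pow_add]
      congr 1
      simp only [Nat.succ_eq_add_one]
      ring
    have e4 : (2 : ℝ) ^ (bw + j.succ * Y) = 2 ^ bw * 2 ^ ((j + 1) * Y) := by
      rw [← pow_add]
    rw [add_div, e3]
    have h1 : (2 : ℝ) ^ (bw + j * Y) ≠ 0 := by positivity
    have h2 : (2 : ℝ) ^ Y ≠ 0 := by positivity
    have h3 : (2 : ℝ) ^ bw ≠ 0 := by positivity
    have h4 : (2 : ℝ) ^ ((j + 1) * Y) ≠ 0 := by positivity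
    have e5 : (a : ℝ) * 2 ^ ((j + 1) * Y) / (2 ^ (bw + j * Y) * 2 ^ Y) = ((2 : ℝ) ^ bw)⁻¹ * a := by
      rw [← e3, e4]
      field_simp
    rw [e5]
    field_simp

/-- the value of the mass polynomial -/
theorem keptH_eq (bw Y X top p0 K : ℕ) (T : WL) (hK : K = WL.len T + 1) :
    (keptH Y X top p0 K T : ℝ) / 2 ^ (bw + K * Y)
      = hornR bw ((X : ℝ) / 2 ^ Y) T (((2 : ℝ) ^ bw)⁻¹ * top) * ((X : ℝ) / 2 ^ Y)
        + ((2 : ℝ) ^ bw)⁻¹ * p0 := by
  have e1 := keptZ_eq bw Y X T top 0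
  have e2 : ((top : ℝ) / 2 ^ (bw + 0 * Y)) = ((2 : ℝ) ^ bw)⁻¹ * top := by
    simp
    ring
  rw [e2] at e1
  simp only [zero_add] at e1
  show ((Nat.add (Nat.mul (keptZ Y X T top 0) X) (Nat.shiftLeft p0 (Nat.mul K Y)) : ℕ) : ℝ) / _ = _
  have e3 : ((Nat.add (Nat.mul (keptZ Y X T top 0) X) (Nat.shiftLeft p0 (Nat.mul K Y)) : ℕ) : ℝ)
      = (keptZ Y X T top 0 : ℝ) * X + p0 * 2 ^ (K * Y) := by
    show (((keptZ Y X T top 0 * X + p0 <<< (K * Y) : ℕ)) : ℝ) = _
    rw [Nat.shiftLeft_eq]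
    push_cast
    ring
  rw [e3, e1, hK]
  have h1 : (2 : ℝ) ^ bw ≠ 0 := by positivity
  have h2 : (2 : ℝ) ^ Y ≠ 0 := by positivity
  have h3 : (2 : ℝ) ^ ((WL.len T + 1) * Y) ≠ 0 := by positivity
  have e4 : (2 : ℝ) ^ (bw + (WL.len T + 1) * Y) = 2 ^ bw * 2 ^ ((WL.len T + 1) * Y) := pow_add _ _ _
  have e5 : (2 : ℝ) ^ ((WL.len T + 1) * Y) = 2 ^ (WL.len T * Y) * 2 ^ Y := by
    rw [← pow_add]
    congr 1
    ring
  have e6 : (2 : ℝ) ^ (bw + WL.len T * Y) = 2 ^ bw * 2 ^ (WL.len T * Y) := pow_add _ _ _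
  rw [e4, e6, e5]
  have h4 : (2 : ℝ) ^ (WL.len T * Y) ≠ 0 := by positivity
  field_simp

/-! ### The whole scheme -/

/-- the pair at the end of the scheme -/
noncomputable def finM (bw O : ℕ) (w1 e1 : Meas) (wp : WP) : Meas × Meas :=
  let R := hornM bw O w1 e1 wp.T (sgl (cO O) wp.top) 0
  (tr bw (R.1 * w1) + sgl (cO (2 * O)) wp.p0, tr bw (prodE R.1 R.2 w1 e1))

/-- The start of the scheme. -/
theorem hok_start {bw O : ℕ} {r : ℝ} {Φ : (Vec → ℝ) → ℝ} (top : ℕ) :
    HOK bw O r (sumL bw Φ [top]) (((2 : ℝ) ^ bw)⁻¹ * top) (((2 : ℝ) ^ bw)⁻¹ * top) top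
      (sgl (cO O) top) 0 := by
  have hc : cO O = cO (1 * O) := by rw [one_mul]
  refine ⟨inv3_sgl _ _, ?_, ?_, ?_, ?_, ?_, ?_, ?_⟩
  · intro n
    rfl
  · rw [hc]
    exact supp_sgl 1 top
  · intro n hn
    exact absurd rfl hn
  · rw [tot_sgl]
    have : tot (0 : Meas) = 0 := by
      unfold tot
      simp
    omega
  · intro G _
    unfold VP
    have e0 : ∀ f : Ex → ℝ, atomsVal (0 : Meas) f = 0 := by
      intro f
      unfold atomsVal
      simp
    simp only [e0, Finset.sum_const_zero, add_zero]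
    rw [atomsVal_sgl, hc, ray_cO]
    simp only [sumL, zero_add]
    apply le_of_eq
    ring
  · intro j
    have := massV_sgl (O := O) (bw := bw) (k := 1) (r := r) top j
    rw [one_mul] at this
    exact le_of_eq this
  · intro j
    have e0 : massV bw r O 1 (0 : Meas) j = 0 := by
      unfold massV atomsVal
      simp
    rw [e0, sub_self]

/-- Everything the scheme gives. -/
theorem fin_main {bw O B L N : ℕ} {r : ℝ} {Φ : (Vec → ℝ) → ℝ} {S F : ℝ} {w1 e1 : Meas} {fv : ℕ}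
    (hL : L = 4 * O + 1) (hN : N = 4 * O + L * (4 * O) + 1) (hB : 2 * bw + 2 ≤ B)
    (m : MsgOK bw O r Φ S F w1 e1) (he1 : phi B L e1 = fv <<< (B * (O + L * O))) (wp : WP)
    (hw : wp.top + WL.sum wp.T + wp.p0 ≤ 2 ^ bw) {β : Type} (k : ℕ → ℕ → β) :
    let R := hornM bw O w1 e1 wp.T (sgl (cO O) wp.top) 0
    goHorn bw (hexOf B bw L O) (B * (O + L * O)) (phi B L w1) fv wp.T (wp.top <<< (B * (O + L * O))) 0 k
        = k (phi B L R.1) (phi B L R.2)
      ∧ trunc bw (maskOf B bw N) (phi B L R.1 * phi B L w1) + wp.p0 <<< (2 * (B * (O + L * O)))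
          = phi B L (finM bw O w1 e1 wp).1
      ∧ trunc bw (maskOf B bw N) (mulE (phi B L R.1) (phi B L R.2) (phi B L w1) fv (B * (O + L * O)))
          = phi B L (finM bw O w1 e1 wp).2
      ∧ FinOK bw O r (sumL bw Φ wp.L)
          (hornR bw S wp.T (((2 : ℝ) ^ bw)⁻¹ * wp.top) * S + ((2 : ℝ) ^ bw)⁻¹ * wp.p0)
          (hornR bw (S + F) wp.T (((2 : ℝ) ^ bw)⁻¹ * wp.top) * (S + F) + ((2 : ℝ) ^ bw)⁻¹ * wp.p0)
          (2 ^ bw) (finM bw O w1 e1 wp).1 (finM bw O w1 e1 wp).2 := by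
  intro R
  have hb : bw ≤ B := by omega
  have hstart := hok_start (bw := bw) (O := O) (r := r) (Φ := Φ) wp.top
  have e0 : phi B L (sgl (cO O) wp.top) = wp.top <<< (B * (O + L * O)) := by
    rw [phi_sgl, Nat.shiftLeft_eq]
    rfl
  have e00 : phi B L (0 : Meas) = 0 := phi_zero
  have hA := horn_aux hL hB m he1 wp.T _ _ _ _ _ _ hstart (by omega) k
  rw [e0, e00] at hA
  obtain ⟨h1, h2⟩ := hA
  have hp := tot_prods h2 m
  have htt : wp.top + WL.sum wp.T ≤ 2 ^ bw := by omega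
  have hlt : (wp.top + WL.sum wp.T) * 2 ^ bw < 2 ^ B := by
    calc (wp.top + WL.sum wp.T) * 2 ^ bw ≤ 2 ^ bw * 2 ^ bw := Nat.mul_le_mul_right _ htt
      _ = 2 ^ (2 * bw) := by rw [two_mul, pow_add]
      _ < 2 ^ B := Nat.pow_lt_pow_right (by norm_num) (by omega)
  have hL2 : L = 2 * 2 * O + 1 := by omega
  have hN2 : N = 2 * 2 * O + L * (2 * 2 * O) + 1 := by
    rw [hN]
  have t1 : trunc bw (maskOf B bw N) (phi B L R.1 * phi B L w1) = phi B L (tr bw (R.1 * w1)) := by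
    rw [← phi_mul]
    exact trunc_phi (supp_prodW h2 m) le_rfl hL2 hN2
      (lt_of_le_of_lt (le_trans (Nat.le_add_right _ _) hp) hlt) hb
  have t2 : trunc bw (maskOf B bw N) (mulE (phi B L R.1) (phi B L R.2) (phi B L w1) fv (B * (O + L * O)))
      = phi B L (tr bw (prodE R.1 R.2 w1 e1)) := by
    rw [mulE_phi he1]
    exact trunc_phi (supp_prodE h2 m) le_rfl hL2 hN2
      (lt_of_le_of_lt (le_trans (Nat.le_add_left _ _) hp) hlt) hb
  refine ⟨h1, ?_, t2, ?_⟩
  · rw [t1]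
    show _ = phi B L (tr bw (R.1 * w1) + sgl (cO (2 * O)) wp.p0)
    rw [phi_add, phi_sgl, Nat.shiftLeft_eq]
    congr 2
    simp only [cO]
    ring
  · have hlast := h2.last m wp.p0
    obtain ⟨l', hl1, hl2⟩ := hornA_sumL bw Φ wp.T [wp.top]
    rw [hl1] at hlast
    rw [stepF_sumL, hl2] at hlast
    refine ⟨hlast.inv, hlast.inve, hlast.s1, hlast.s2, ?_, hlast.dom, hlast.m1, hlast.m2⟩
    refine hlast.htot.trans ?_
    omega

end Vale.Agent.Lib.P154.PChain
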