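import Vale.Agent.Lib.P154.Chain.Step
import Vale.Agent.Lib.P154.PChain.Horn
import Vale.Agent.Lib.P154.PChain.Func

/-!
The soundness of one generation of the chain on the Galton-Watson tree.
-/

namespace Vale.Agent.Lib.P154.PChain

open Vale.Agent.Lib.P154 Vale.Agent.Lib.P154.Neg Vale.Agent.Lib.P154.Chain
open scoped BigOperators

/-- The invariant of the chain: the messages at depth `n` are dominated by the state `st`. -/
def PInv (p : ℕ → ℝ) (g : GP) (l : LP) (n st : ℕ) : Prop :=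
  ∀ G, NSub G → Symm G → PhiE (chan (lamOf g) (gwEx p (lamOf g) n)) G ≤ PVal g l st G

/-- the sum of the weighted powers -/
theorem sumL_eq (bw : ℕ) (Φ : (Vec → ℝ) → ℝ) (l : List ℕ) (G : Vec → ℝ) :
    sumL bw Φ l G = ∑ k ∈ Finset.range l.length, (((2 : ℝ) ^ bw)⁻¹ * (l.getD k 0 : ℕ)) * Psi Φ k G := by
  induction l generalizing G with
  | nil => simp [sumL]
  | cons b l ih =>
    rw [List.length_cons, Finset.sum_range_succ']
    simp only [sumL, List.getD_cons_zero, List.getD_cons_succ, Psi]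
    rw [ih]

/-- the conditions on the offspring law and the weights -/
structure LawOK (p : ℕ → ℝ) (g : GP) (wp : WP) : Prop where
  hd : g.d = 2
  hp0 : ∀ k, 0 ≤ p k
  hp1 : HasSum p 1
  K : wp.K = WL.len wp.T + 1
  sum : wp.top + WL.sum wp.T + wp.p0 ≤ 2 ^ g.bw
  ph : ∀ k, ((2 : ℝ) ^ g.bw)⁻¹ * (wp.L.getD k 0 : ℕ) ≤ p k

theorem adm_lamOf {g : GP} (hg : gpOK g = true) : Adm (lamOf g) := by
  obtain ⟨-, -, h0, h1, -⟩ := gpOK_props hg
  exact ⟨by linarith, by linarith⟩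

/-- the functional of the next posteriors is bounded by the sum of the weighted powers -/
theorem gwEx_le_sumL {p : ℕ → ℝ} {g : GP} {wp : WP} (hg : gpOK g = true) (hL : LawOK p g wp) (n : ℕ)
    {G : Vec → ℝ} (hG : NSub G) :
    PhiE (gwEx p (lamOf g) (n + 1)) G
      ≤ sumL g.bw (PhiE (chan (lamOf g) (gwEx p (lamOf g) n))) wp.L G := by
  rw [sumL_eq]
  have hlen : 0 < wp.L.length := by simp [WP.L]
  obtain ⟨K, hK⟩ : ∃ K, wp.L.length = K + 1 := ⟨wp.L.length - 1, by omega⟩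
  rw [hK]
  refine gwEx_succ_le hL.hp0 hL.hp1 (adm_lamOf hg) n K (fun k => by positivity) (fun k _ => hL.ph k) hG

/-- the state bounds the pair of the level one, on symmetric test functions -/
theorem pval_le_VP {g : GP} {l : LP} {Tp : PT} {Tz : ZL} {st : ℕ} (hg : gpOK g = true)
    (hl : latOK g l = true) (h : ptOK g l Tp Tz = true) {G : Vec → ℝ} (hG : NSub G) (hs : Symm G) :
    PVal g l st G ≤ VP g.bw (rr l) l.O 1 (w1Meas g Tp st) (e1Meas l (fT g st)) G := by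
  classical
  obtain ⟨hd, hld, hlam0, hlam1, hln, hB, hwd, hu, hbwH⟩ := gpOK_props hg
  obtain ⟨hra, hrb, hr, hdO, h2dO, hreps⟩ := latOK_props hl
  obtain ⟨hI, hSp, hphi, hval, htot, hmass, hz, hpw⟩ := ptOK_props' hg hl h st
  have hIe := (e1_props g l (fT g st)).1
  rw [VP_symm hs]
  unfold PVal
  refine mul_le_mul_of_nonneg_left ?_ (by positivity)
  have hwd0 : 0 < g.wd := by omega
  -- the special atoms
  have hE : atomsVal (e1Meas l (fT g st)) (fun n => G (ray (rr l) l.O 1 n * mask 0)) =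
      (fT g st : ℝ) * G (mask 0) := by
    unfold e1Meas
    rw [atomsVal_single', ray_const_one, one_mul]
  rw [hE]
  -- the plain atoms
  have hf : ∀ (σ : Equiv.Perm (Fin 3)) (n : Ex),
      G (ray (rr l) l.O 1 (n ∘ σ)) = G (ray (rr l) l.O 1 n) := by
    intro σ n
    rw [ray_perm, hs]
  rw [hval (fun n => G (ray (rr l) l.O 1 n)) hf]
  set hh : ℕ → ℝ := fun t => ((cT g l st t * orbT l t : ℕ) : ℝ) * G (rhoT l t) with hhh
  have hh0 : ∀ t, hh t ≤ 0 := fun t =>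
    mul_nonpos_of_nonneg_of_nonpos (Nat.cast_nonneg _) (hG.nonpos (ray_nonneg hr _))
  have hterm : ∀ z ∈ ZL.toList Tz,
      (((fieldC (2 ^ g.wd) g.u st z.1 z.2.1 * z.2.1 : ℕ) : ℝ) * G (ray (rr l) l.O 1 (repEx l (z.1 / g.wd)))) =
        hh (z.1 / g.wd) := by
    intro z hzm
    obtain ⟨t, _, _, h3, h4⟩ := hz z hzm
    have e1 : z.1 / g.wd = t := by
      rw [h3]
      exact Nat.mul_div_cancel_left t hwd0
    rw [e1, hhh]
    simp only [cT, rhoT]
    rw [h3, h4]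
  have hsum : ((ZL.toList Tz).map (fun z => ((fieldC (2 ^ g.wd) g.u st z.1 z.2.1 * z.2.1 : ℕ) : ℝ) *
      G (ray (rr l) l.O 1 (repEx l (z.1 / g.wd))))).sum =
      (((ZL.toList Tz).map (fun z => z.1 / g.wd)).map hh).sum := by
    rw [List.map_map]
    congr 1
    exact List.map_congr_left hterm
  rw [hsum]
  have hnd : ((ZL.toList Tz).map (fun z => z.1 / g.wd)).Nodup := by
    rw [List.Nodup, List.pairwise_map]
    refine hpw.imp_of_mem ?_
    intro a b ha hb hab heq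
    obtain ⟨t, _, _, h3, _⟩ := hz a ha
    obtain ⟨t', _, _, h3', _⟩ := hz b hb
    rw [h3, h3', Nat.mul_div_cancel_left _ hwd0, Nat.mul_div_cancel_left _ hwd0] at heq
    rw [h3, h3', heq] at hab
    exact lt_irrefl _ hab
  have hrange : ∀ t ∈ (ZL.toList Tz).map (fun z => z.1 / g.wd), 1 ≤ t ∧ t ≤ l.T := by
    intro t ht
    rw [List.mem_map] at ht
    obtain ⟨z, hzm, rfl⟩ := ht
    obtain ⟨t', h1, h2, h3, _⟩ := hz z hzm
    rw [h3, Nat.mul_div_cancel_left _ hwd0]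
    exact ⟨h1, h2⟩
  have hmain := sum_Icc_le_list hh hh0 1 l.T _ hnd hrange
  have : (fT g st : ℝ) * (3 * G (mask 0)) = 3 * ((fT g st : ℝ) * G (mask 0)) := by ring
  rw [this]
  linarith


/-- The level one: domination of the messages by the pair of a state. -/
theorem dom_level_oneP {p : ℕ → ℝ} {g : GP} {l : LP} {n st : ℕ} {Tp : PT} {Tz : ZL} (hg : gpOK g = true)
    (hl : latOK g l = true) (hpz : ∀ k, 0 ≤ p k) (hp1 : HasSum p 1) (h : ptOK g l Tp Tz = true)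
    (hinv : PInv p g l n st) {G : Vec → ℝ} (hG : NSub G) :
    PhiE (chan (lamOf g) (gwEx p (lamOf g) n)) G
      ≤ VP g.bw (rr l) l.O 1 (w1Meas g Tp st) (e1Meas l (fT g st)) G := by
  obtain ⟨hI, -⟩ := ptOK_props' hg hl h st
  have hIe := (e1_props g l (fT g st)).1
  have hE : BExp (chan (lamOf g) (gwEx p (lamOf g) n)) Simp :=
    chan_bexp (gwEx_bexp hpz hp1 (adm_lamOf hg) n) (adm_lamOf hg)
  have h1 := hinv (symAvg G) hG.symAvg (symm_symAvg G)
  rw [phiE_symAvg hE hG.toSublin] at h1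
  refine h1.trans ((pval_le_VP hg hl h hG.symAvg (symm_symAvg G)).trans (le_of_eq ?_))
  exact VP_symAvg hI hIe G

/-- The conclusion at the list level, from the pair at the level of the leaves. -/
theorem list_level {g : GP} {l : LP} {Tx Te : XT} {W We : ℕ} {X : (Vec → ℝ) → ℝ} {R : Meas × Meas}
    {HS HF : ℝ}
    (hg : gpOK g = true) (hl : latOK g l = true)
    (hsx : (XT.leaves Tx 0 0).Pairwise (fun a c => a.pos < c.pos))
    (hse : (XT.leaves Te 0 0).Pairwise (fun a c => a.pos < c.pos))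
    (hxl : ∀ a ∈ XT.leaves Tx 0 0, a.pos = g.B * (a.n0 + LP.L g l * a.n1)
      ∧ a.n0 + a.n1 + a.n2 = 3 * (g.d * l.O) ∧ a.n1 ≤ a.n0 ∧ a.n2 ≤ a.n1 ∧ a.n0 ≤ 2 * (g.d * l.O))
    (hel : ∀ a ∈ XT.leaves Te 0 0, a.pos = g.B * (a.n0 + LP.L g l * a.n1)
      ∧ a.n0 + a.n1 + a.n2 = 3 * (g.d * l.O) ∧ a.n2 ≤ a.n1 ∧ a.n1 ≤ 2 * (g.d * l.O)
      ∧ a.n0 ≤ 2 * (g.d * l.O))
    (hW : W = phi g.B (LP.L g l) R.1) (hWe : We = phi g.B (LP.L g l) R.2)
    (hR1I : Inv3 R.1) (hR2E : InvE R.2) (hR1S : Supp l.O g.d R.1) (hR2S : Supp l.O g.d R.2)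
    (hRtot : tot R.1 + tot R.2 ≤ 2 ^ g.bw)
    (hRdom : ∀ G, NSub G → X G ≤ VP g.bw (rr l) l.O g.d R.1 R.2 G)
    (hRm1 : ∀ j, massV g.bw (rr l) l.O g.d R.1 j ≤ HS)
    (hRm2 : ∀ j, massV g.bw (rr l) l.O g.d R.2 j ≤ HF - HS) :
    let xs := XT.pairs g.B Tx 0 0 W
    let es := XT.pairs g.B Te 0 0 We
    (∀ G, NSub G → Symm G → X G ≤ ListVal g l xs es G)
      ∧ ListMass g l xs es ≤ 2 * HF - HS := by
  classical
  intro xs es
  obtain ⟨hd, hld, hlam0, hlam1, hln, hB, hwd, hu, hbwH⟩ := gpOK_props hg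
  obtain ⟨hra, hrb, hr, hdO, h2dO, hreps⟩ := latOK_props hl
  -- the lists
  have hxsf : xs.map Prod.fst = XT.leaves Tx 0 0 := XT.pairs_fst g.B Tx 0 0 W
  have hesf : es.map Prod.fst = XT.leaves Te 0 0 := XT.pairs_fst g.B Te 0 0 We
  have hxmem : ∀ x ∈ xs, x.1 ∈ XT.leaves Tx 0 0 := fun x hx => by
    rw [← hxsf]
    exact List.mem_map_of_mem hx
  have hemem : ∀ x ∈ es, x.1 ∈ XT.leaves Te 0 0 := fun x hx => by
    rw [← hesf]
    exact List.mem_map_of_mem hx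
  have hBpos : 0 < g.B := by omega
  have hxnd : (xs.map (fun x => xEx x.1)).Nodup := by
    refine nodup_xEx (B := g.B) (L := LP.L g l) xs hBpos ?_ ?_ ?_
    · intro x hx
      obtain ⟨h1, h2, h3, h4, h5⟩ := hxl x.1 (hxmem x hx)
      exact ⟨h1, lt_LP_L h5⟩
    · intro x hx y hy
      rw [(hxl x.1 (hxmem x hx)).2.1, (hxl y.1 (hxmem y hy)).2.1]
    · rw [hxsf]
      exact hsx
  have henf : (es.map (fun x => xEx x.1)).Nodup := by
    refine nodup_xEx (B := g.B) (L := LP.L g l) es hBpos ?_ ?_ ?_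
    · intro x hx
      obtain ⟨h1, h2, h3, h4, h5⟩ := hel x.1 (hemem x hx)
      exact ⟨h1, lt_LP_L h5⟩
    · intro x hx y hy
      rw [(hel x.1 (hemem x hx)).2.1, (hel y.1 (hemem y hy)).2.1]
    · rw [hesf]
      exact hse
  have hBlt : ∀ a : ℕ, a ≤ 2 ^ g.bw → a < 2 ^ g.B := by
    intro a ha
    refine lt_of_le_of_lt ha (Nat.pow_lt_pow_right (by norm_num) (by omega))
  have hDx : ∀ x ∈ xs, x.2 ≤ R.1.coeff (xEx x.1) := by
    intro x hx
    obtain ⟨h1, h2, h3, h4, h5⟩ := hxl x.1 (hxmem x hx)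
    have hd1 := pairs_digit_le g.B Tx W x hx
    have hd2 := phi_digit (B := g.B) (L := LP.L g l) (O := l.O) (k := g.d) (d := g.d) (w := R.1) hR1S le_rfl rfl
      (hBlt _ (le_trans (Nat.le_add_right _ _) hRtot)) (xEx x.1) h2
      (lt_LP_L h5)
    rw [hW, h1] at hd1
    change (phi g.B (LP.L g l) R.1 >>> (g.B * (x.1.n0 + LP.L g l * x.1.n1))) % 2 ^ g.B = _ at hd2
    rw [hd2] at hd1
    exact hd1
  have hDe : ∀ x ∈ es, x.2 ≤ R.2.coeff (xEx x.1) := by
    intro x hx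
    obtain ⟨h1, h2, h3, h4, h5⟩ := hel x.1 (hemem x hx)
    have hd1 := pairs_digit_le g.B Te We x hx
    have hd2 := phi_digit (B := g.B) (L := LP.L g l) (O := l.O) (k := g.d) (d := g.d) (w := R.2) hR2S le_rfl rfl
      (hBlt _ (le_trans (Nat.le_add_left _ _) hRtot)) (xEx x.1) h2
      (lt_LP_L h5)
    rw [hWe, h1] at hd1
    change (phi g.B (LP.L g l) R.2 >>> (g.B * (x.1.n0 + LP.L g l * x.1.n1))) % 2 ^ g.B = _ at hd2
    rw [hd2] at hd1
    exact hd1
  have hexx : ∀ x ∈ xs, x.1.n1 ≤ x.1.n0 ∧ x.1.n2 ≤ x.1.n1 := fun x hx => by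
    obtain ⟨_, _, h3, h4, _⟩ := hxl x.1 (hxmem x hx)
    exact ⟨h3, h4⟩
  have hexe : ∀ x ∈ es, x.1.n2 ≤ x.1.n1 := fun x hx => (hel x.1 (hemem x hx)).2.2.1
  have hmask : mask 0 ∘ (Equiv.swap (1 : Fin 3) 2) = mask 0 := by
    rw [mask_perm]
    congr 1
  refine ⟨?_, ?_⟩
  · -- the bound by the list
    intro G hG hs
    refine (hRdom G hG).trans ?_
    rw [VP_symm hs]
    unfold ListVal
    refine mul_le_mul_of_nonneg_left ?_ (by positivity)
    refine add_le_add ?_ ?_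
    · refine chamber_nonpos hR1I (fun n => G (ray (rr l) l.O g.d n)) ?_ ?_ xs hxnd hexx hDx
      · intro σ n
        rw [ray_perm, hs]
      · intro n
        exact hG.nonpos (ray_nonneg hr n)
    · refine chamberE_nonpos hR2E (fun n => G (ray (rr l) l.O g.d n * mask 0)) ?_ ?_ es henf hexe hDe
      · intro n
        have : ray (rr l) l.O g.d (n ∘ Equiv.swap 1 2) * mask 0 =
            (ray (rr l) l.O g.d n * mask 0) ∘ Equiv.swap 1 2 := by
          rw [ray_perm]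
          conv_lhs => rw [← hmask]
          rfl
        rw [this, hs]
      · intro n
        exact hG.nonpos (ray_mask_nonneg hr n 0)
  · -- the mass
    set c : ℝ := ((2 : ℝ) ^ g.bw)⁻¹ with hc
    have hc0 : 0 ≤ c := by positivity
    have hX : (xs.map (fun x => ((orbN x.1.n0 x.1.n1 x.1.n2 * x.2 : ℕ) : ℝ)
        * ((xRay g l x.1 0 + xRay g l x.1 1 + xRay g l x.1 2) / 3))).sum ≤
        atomsVal R.1 (fun n => (ray (rr l) l.O g.d n 0 + ray (rr l) l.O g.d n 1 + ray (rr l) l.O g.d n 2) / 3) := by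
      refine chamber_nonneg hR1I (fun n => (ray (rr l) l.O g.d n 0 + ray (rr l) l.O g.d n 1 + ray (rr l) l.O g.d n 2) / 3)
        ?_ ?_ xs hxnd hexx hDx
      · intro σ n
        simp only [ray, Function.comp_apply]
        have hall : ∀ (h : Fin 3 → ℝ), h (σ 0) + h (σ 1) + h (σ 2) = h 0 + h 1 + h 2 := by
          intro h
          have := Equiv.sum_comp σ h
          simpa [Fin.sum_univ_three] using this
        rw [hall (fun i => rr l ^ ((n i : ℤ) - ((g.d * l.O : ℕ) : ℤ)))]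
      · intro n
        have := ray_nonneg (O := l.O) (k := g.d) hr n
        have h0 := this 0
        have h1 := this 1
        have h2 := this 2
        simp only [Pi.zero_apply] at h0 h1 h2
        positivity
    have hY : (es.map (fun x => ((orbE x.1.n1 x.1.n2 * x.2 : ℕ) : ℝ)
        * ((xRay g l x.1 1 + xRay g l x.1 2) / 3))).sum ≤
        3 * atomsVal R.2 (fun n => (ray (rr l) l.O g.d n 1 + ray (rr l) l.O g.d n 2) / 3) := by
      refine chamberE_nonneg hR2E (fun n => (ray (rr l) l.O g.d n 1 + ray (rr l) l.O g.d n 2) / 3)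
        ?_ ?_ es henf hexe hDe
      · intro n
        simp only [ray, Function.comp_apply]
        have e1 : (Equiv.swap (1 : Fin 3) 2) 1 = 2 := by decide
        have e2 : (Equiv.swap (1 : Fin 3) 2) 2 = 1 := by decide
        rw [e1, e2, add_comm]
      · intro n
        have := ray_nonneg (O := l.O) (k := g.d) hr n
        have h1 := this 1
        have h2 := this 2
        simp only [Pi.zero_apply] at h1 h2
        positivity
    have hA : atomsVal R.1 (fun n => (ray (rr l) l.O g.d n 0 + ray (rr l) l.O g.d n 1 + ray (rr l) l.O g.d n 2) / 3) =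
        (atomsVal R.1 (fun n => ray (rr l) l.O g.d n 0) + atomsVal R.1 (fun n => ray (rr l) l.O g.d n 1)
          + atomsVal R.1 (fun n => ray (rr l) l.O g.d n 2)) / 3 := by
      have : (fun n => (ray (rr l) l.O g.d n 0 + ray (rr l) l.O g.d n 1 + ray (rr l) l.O g.d n 2) / 3) =
          fun n => (1 / 3 : ℝ) * (ray (rr l) l.O g.d n 0 + ray (rr l) l.O g.d n 1 + ray (rr l) l.O g.d n 2) := by
        funext n
        ring
      rw [this, atomsVal_const_mul, atomsVal_add_fun, atomsVal_add_fun]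
      ring
    have hB' : 3 * atomsVal R.2 (fun n => (ray (rr l) l.O g.d n 1 + ray (rr l) l.O g.d n 2) / 3) =
        atomsVal R.2 (fun n => ray (rr l) l.O g.d n 1) + atomsVal R.2 (fun n => ray (rr l) l.O g.d n 2) := by
      have : (fun n => (ray (rr l) l.O g.d n 1 + ray (rr l) l.O g.d n 2) / 3) =
          fun n => (1 / 3 : ℝ) * (ray (rr l) l.O g.d n 1 + ray (rr l) l.O g.d n 2) := by
        funext n
        ring
      rw [this, atomsVal_const_mul, atomsVal_add_fun]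
      ring
    have hL : ListMass g l xs es ≤ 2 * HF - HS := by
      unfold ListMass
      rw [← hc]
      have h1 := mul_le_mul_of_nonneg_left hX hc0
      have h2 := mul_le_mul_of_nonneg_left hY hc0
      rw [hA] at h1
      rw [hB'] at h2
      have a0 : c * atomsVal R.1 (fun n => ray (rr l) l.O g.d n 0) ≤ HS := hRm1 0
      have a1 : c * atomsVal R.1 (fun n => ray (rr l) l.O g.d n 1) ≤ HS := hRm1 1
      have a2 : c * atomsVal R.1 (fun n => ray (rr l) l.O g.d n 2) ≤ HS := hRm1 2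
      have b1 : c * atomsVal R.2 (fun n => ray (rr l) l.O g.d n 1) ≤ HF - HS := hRm2 1
      have b2 : c * atomsVal R.2 (fun n => ray (rr l) l.O g.d n 2) ≤ HF - HS := hRm2 2
      rw [mul_add]
      nlinarith
    exact hL


/-- From normalized to all symmetric sublinear test functions. -/
theorem xlevel_sublinP {g : GP} {l : LP} {E : Ex3} {xs es : List (XL × ℕ)} (hE : BExp E Simp)
    (h : ∀ G, NSub G → Symm G → PhiE E G ≤ ListVal g l xs es G)
    (G : Vec → ℝ) (hG : Sublin G) (hs : Symm G) :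
    PhiE E G ≤ ListVal g l xs es G + 3 * (1 - ListMass g l xs es) * G (Pi.single 0 1) := by
  classical
  -- the vertices have the same value
  have hv : ∀ i : Fin 3, G (Pi.single i 1) = G (Pi.single 0 1) := by
    intro i
    have e : (Pi.single (0 : Fin 3) 1 : Vec) ∘ (Equiv.swap 0 i) = Pi.single i 1 := by
      funext j
      simp only [Function.comp_apply, Pi.single_apply]
      by_cases hj : j = i
      · subst hj
        simp
      · rw [if_neg hj, if_neg]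
        intro h0
        apply hj
        have := congrArg (Equiv.swap 0 i) h0
        simpa using this
    rw [← e, hs]
  set g0 := G (Pi.single 0 1) with hg0
  have hN := hG.normalize
  simp only [hv 1, hv 2, ← hg0] at hN
  have hS : Symm (fun v : Vec => G v - (v 0 * g0 + v 1 * g0 + v 2 * g0)) := by
    intro σ v
    simp only [Function.comp_apply]
    rw [hs]
    have hall : v (σ 0) + v (σ 1) + v (σ 2) = v 0 + v 1 + v 2 := by
      have := Equiv.sum_comp σ v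
      simpa [Fin.sum_univ_three] using this
    have e1 : v (σ 0) * g0 + v (σ 1) * g0 + v (σ 2) * g0 = (v (σ 0) + v (σ 1) + v (σ 2)) * g0 := by ring
    have e2 : v 0 * g0 + v 1 * g0 + v 2 * g0 = (v 0 + v 1 + v 2) * g0 := by ring
    rw [e1, e2, hall]
  have hmain := h _ hN hS
  -- the value on the linear part
  have hval : PhiE E (fun v : Vec => G v - (v 0 * g0 + v 1 * g0 + v 2 * g0)) = PhiE E G - 3 * g0 :=
    phiE_sub_linear hE hG g0
  -- the list on the linear part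
  have hlist : ListVal g l xs es (fun v : Vec => G v - (v 0 * g0 + v 1 * g0 + v 2 * g0)) =
      ListVal g l xs es G - 3 * ListMass g l xs es * g0 := by
    unfold ListVal ListMass
    have aux : ∀ (L : List (XL × ℕ)) (a u v : XL × ℕ → ℝ),
        (L.map (fun x => a x * (u x - 3 * g0 * v x))).sum =
          (L.map (fun x => a x * u x)).sum - 3 * g0 * (L.map (fun x => a x * v x)).sum := by
      intro L a u v
      induction L with
      | nil => simp
      | cons y tl ih =>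
        simp only [List.map_cons, List.sum_cons, ih]
        ring
    have e1 : ∀ x : XL × ℕ, ((orbN x.1.n0 x.1.n1 x.1.n2 * x.2 : ℕ) : ℝ) *
        (G (xRay g l x.1) - (xRay g l x.1 0 * g0 + xRay g l x.1 1 * g0 + xRay g l x.1 2 * g0)) =
        ((orbN x.1.n0 x.1.n1 x.1.n2 * x.2 : ℕ) : ℝ) *
        (G (xRay g l x.1) - 3 * g0 * ((xRay g l x.1 0 + xRay g l x.1 1 + xRay g l x.1 2) / 3)) := by
      intro x
      congr 2
      ring
    have e2 : ∀ x : XL × ℕ, ((orbE x.1.n1 x.1.n2 * x.2 : ℕ) : ℝ) *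
        (G (eRay g l x.1) - (eRay g l x.1 0 * g0 + eRay g l x.1 1 * g0 + eRay g l x.1 2 * g0)) =
        ((orbE x.1.n1 x.1.n2 * x.2 : ℕ) : ℝ) *
        (G (eRay g l x.1) - 3 * g0 * ((xRay g l x.1 1 + xRay g l x.1 2) / 3)) := by
      intro x
      congr 2
      have a0 : eRay g l x.1 0 = 0 := by simp [eRay, mask]
      have a1 : eRay g l x.1 1 = xRay g l x.1 1 := by simp [eRay, mask]
      have a2 : eRay g l x.1 2 = xRay g l x.1 2 := by simp [eRay, mask]
      rw [a0, a1, a2]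
      ring
    simp only [e1, e2]
    rw [aux, aux]
    ring
  rw [hval, hlist] at hmain
  linarith


/-- the main inequality of a generation, with the digits given -/
theorem step_valueP {g : GP} {li lo : LP} {D1 D2 : ℕ} {vl : XL} {E : Ex3} {xs es : List (XL × ℕ)} {V : ℕ}
    (hE : BExp E Simp)
    (hg : gpOK g = true) (hli : latOK g li = true) (hlo : latOK g lo = true)
    (hp : pairOK li lo D1 D2 = true) (hv : vLeafOK g li lo D1 D2 vl = true)
    (hx : ∀ x ∈ xs, xLeafOK g li lo D1 D2 x.1 = true) (he : ∀ x ∈ es, eLeafOK g li lo D1 D2 x.1 = true)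
    (h1 : ∀ G, NSub G → Symm G → PhiE E G ≤ ListVal g li xs es G)
    (hV : (V : ℝ) * ((2 : ℝ) ^ g.bw)⁻¹ ≤ 1 - ListMass g li xs es)
    {G : Vec → ℝ} (hG : NSub G) (hs : Symm G) :
    PhiE (chan (lamOf g) E) G
      ≤ ((2 : ℝ) ^ g.bw)⁻¹ * (((2 : ℝ) ^ g.u)⁻¹ *
        (∑ t ∈ Finset.Icc 1 lo.T, (((V * coefAt g.wd vl t + coefL g.wd xs t + coefL g.wd es t : ℕ) : ℝ))
            * G (rhoT lo t)
          + ((V * coefAt g.wd vl 0 + coefL g.wd xs 0 + coefL g.wd es 0 : ℕ) : ℝ) * (3 * G (mask 0)))) := by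
  obtain ⟨-, -, hlam0, hlam1, -⟩ := gpOK_props hg
  have hlam1' : lamOf g ≤ 1 := by linarith
  have hs' := chan_symm (lam := lamOf g) hs
  have hG' := chan_sublin hlam0 hlam1' hG.toSublin
  have hz := xlevel_sublinP hE h1 _ hG' hs'
  rw [phiE_chan hE]
  refine hz.trans ?_
  -- the vertex
  have hb : (0 : ℝ) ≤ ((2 : ℝ) ^ g.bw)⁻¹ := by positivity
  have hvs := vLeaf_sound hg hli hlo hp hv hG hs
  have hneg : G (chanV (lamOf g) (Pi.single 0 1)) ≤ 0 :=
    hG.nonpos (chanV_nonneg hlam0 hlam1' (by intro i; by_cases h : i = 0 <;> simp [h]))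
  have hvert : 3 * (1 - ListMass g li xs es) * G (chanV (lamOf g) (Pi.single 0 1))
      ≤ ((2 : ℝ) ^ g.bw)⁻¹ * ((V : ℝ) * leafRHS g lo vl G) := by
    have hV0 : (0 : ℝ) ≤ (V : ℝ) := Nat.cast_nonneg _
    calc 3 * (1 - ListMass g li xs es) * G (chanV (lamOf g) (Pi.single 0 1))
        ≤ 3 * ((V : ℝ) * ((2 : ℝ) ^ g.bw)⁻¹) * G (chanV (lamOf g) (Pi.single 0 1)) := by
          have := mul_le_mul_of_nonpos_right hV hneg
          linarith
      _ = ((2 : ℝ) ^ g.bw)⁻¹ * ((V : ℝ) * (3 * G (chanV (lamOf g) (Pi.single 0 1)))) := by ring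
      _ ≤ _ := mul_le_mul_of_nonneg_left (mul_le_mul_of_nonneg_left hvs hV0) hb
  -- the leaves
  have hl1 : (xs.map (fun x => ((orbN x.1.n0 x.1.n1 x.1.n2 * x.2 : ℕ) : ℝ)
      * G (chanV (lamOf g) (xRay g li x.1)))).sum
      ≤ (xs.map (fun x => (x.2 : ℝ) * leafRHS g lo x.1 G)).sum := by
    refine List.sum_le_sum (fun x hxm => ?_)
    have := xLeaf_sound hg hli hlo hp (hx x hxm) hG hs
    have hD : (0 : ℝ) ≤ (x.2 : ℝ) := Nat.cast_nonneg _
    have := mul_le_mul_of_nonneg_left this hD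
    push_cast
    linarith
  have hl2 : (es.map (fun x => ((orbE x.1.n1 x.1.n2 * x.2 : ℕ) : ℝ)
      * G (chanV (lamOf g) (eRay g li x.1)))).sum
      ≤ (es.map (fun x => (x.2 : ℝ) * leafRHS g lo x.1 G)).sum := by
    refine List.sum_le_sum (fun x hxm => ?_)
    have := eLeaf_sound hg hli hlo hp (he x hxm) hG hs
    have hD : (0 : ℝ) ≤ (x.2 : ℝ) := Nat.cast_nonneg _
    have := mul_le_mul_of_nonneg_left this hD
    push_cast
    linarith
  have hlist : ListVal g li xs es (fun v => G (chanV (lamOf g) v))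
      ≤ ((2 : ℝ) ^ g.bw)⁻¹ * ((xs.map (fun x => (x.2 : ℝ) * leafRHS g lo x.1 G)).sum
        + (es.map (fun x => (x.2 : ℝ) * leafRHS g lo x.1 G)).sum) :=
    mul_le_mul_of_nonneg_left (add_le_add hl1 hl2) hb
  rw [sum_leafRHS, sum_leafRHS] at hlist
  have hrhs : ((2 : ℝ) ^ g.bw)⁻¹ * ((V : ℝ) * leafRHS g lo vl G) = ((2 : ℝ) ^ g.bw)⁻¹ *
      (((2 : ℝ) ^ g.u)⁻¹ * (∑ t ∈ Finset.Icc 1 lo.T, ((V : ℝ) * (coefAt g.wd vl t : ℝ)) * G (rhoT lo t)
        + ((V : ℝ) * (coefAt g.wd vl 0 : ℝ)) * (3 * G (mask 0)))) := by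
    have hs : ∑ t ∈ Finset.Icc 1 lo.T, ((V : ℝ) * (coefAt g.wd vl t : ℝ)) * G (rhoT lo t)
        = (V : ℝ) * ∑ t ∈ Finset.Icc 1 lo.T, (coefAt g.wd vl t : ℝ) * G (rhoT lo t) := by
      rw [Finset.mul_sum]
      exact Finset.sum_congr rfl (fun t _ => by ring)
    rw [hs]
    unfold leafRHS
    ring
  rw [hrhs] at hvert
  have hs : ∀ t, (((V * coefAt g.wd vl t + coefL g.wd xs t + coefL g.wd es t : ℕ) : ℝ))
      = (V : ℝ) * (coefAt g.wd vl t : ℝ) + (coefL g.wd xs t : ℝ) + (coefL g.wd es t : ℝ) := by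
    intro t
    push_cast
    ring
  have hsum : ∑ t ∈ Finset.Icc 1 lo.T, (((V * coefAt g.wd vl t + coefL g.wd xs t + coefL g.wd es t : ℕ) : ℝ))
        * G (rhoT lo t)
      = ∑ t ∈ Finset.Icc 1 lo.T, ((V : ℝ) * (coefAt g.wd vl t : ℝ)) * G (rhoT lo t)
        + ∑ t ∈ Finset.Icc 1 lo.T, (coefL g.wd xs t : ℝ) * G (rhoT lo t)
        + ∑ t ∈ Finset.Icc 1 lo.T, (coefL g.wd es t : ℝ) * G (rhoT lo t) := by
    rw [← Finset.sum_add_distrib, ← Finset.sum_add_distrib]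
    refine Finset.sum_congr rfl (fun t _ => ?_)
    rw [hs]
    ring
  rw [hsum, hs]
  have key := add_le_add hlist hvert
  refine key.trans (le_of_eq ?_)
  ring


/-! ### The numbers of a generation -/

/-- the numbers of the digits of a generation -/
noncomputable def numsP (g : GP) (l : LP) (wp : WP) (Tp : PT) (st : ℕ) : ℕ × ℕ :=
  goHorn g.bw (hexOf g.B g.bw (LP.L g l) l.O) (LP.eo g l) (asm (2 ^ g.wd) g.u st Tp) (fT g st) wp.T
    (wp.top <<< LP.eo g l) 0 (fun w e =>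
      (trunc g.bw (maskOf g.B g.bw (LP.N g l)) (w * asm (2 ^ g.wd) g.u st Tp) + wp.p0 <<< (2 * LP.eo g l),
        trunc g.bw (maskOf g.B g.bw (LP.N g l)) (mulE w e (asm (2 ^ g.wd) g.u st Tp) (fT g st) (LP.eo g l))))

/-- the total exponent of the mass bound -/
def WP.E (wp : WP) (g : GP) : ℕ := g.bw + wp.K * (g.bw + g.H)

/-- the mass bound of a generation -/
noncomputable def keptS (g : GP) (wp : WP) (Tz : ZL) (st : ℕ) : ℕ :=
  keptP (g.bw + g.H) (sumZ (2 ^ g.wd) g.u st Tz 0) (fT g st <<< g.H) wp.top wp.p0 wp.K wp.T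

/-- the pair of the message is good -/
theorem msgOK_of_inv {p : ℕ → ℝ} {g : GP} {l : LP} {n st : ℕ} {Tp : PT} {Tz : ZL} (hg : gpOK g = true)
    (hl : latOK g l = true) (hpz : ∀ k, 0 ≤ p k) (hp1 : HasSum p 1) (hp : ptOK g l Tp Tz = true)
    (hinv : PInv p g l n st)
    (hchk1 : sumZ (2 ^ g.wd) g.u st Tz 0 + fT g st <<< g.H ≤ 2 ^ (g.bw + g.H)) :
    MsgOK g.bw l.O (rr l) (PhiE (chan (lamOf g) (gwEx p (lamOf g) n)))
      ((sumZ (2 ^ g.wd) g.u st Tz 0 : ℝ) / 2 ^ (g.bw + g.H)) (((fT g st <<< g.H : ℕ) : ℝ) / 2 ^ (g.bw + g.H))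
      (w1Meas g Tp st) (e1Meas l (fT g st)) := by
  classical
  obtain ⟨hd, hld, hlam0, hlam1, hln, hB, hwd, hu, hbwH⟩ := gpOK_props hg
  obtain ⟨hra, hrb, hr, hdO, h2dO, hreps⟩ := latOK_props hl
  obtain ⟨hI, hSp, hphi, hval, htot, hmass, hz, hpw⟩ := ptOK_props' hg hl hp st
  obtain ⟨heI, heS, het, hephi, hemass⟩ := e1_props g l (fT g st)
  set w1 : Meas := w1Meas g Tp st with hw1
  set e1 : Meas := e1Meas l (fT g st) with he1
  set Sh : ℕ := sumZ (2 ^ g.wd) g.u st Tz 0 with hSh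
  set F' : ℕ := fT g st <<< g.H with hF'
  have hShe : Sh = ((ZL.toList Tz).map (fun a => a.2.2 * fieldC (2 ^ g.wd) g.u st a.1 a.2.1)).sum := by
    rw [hSh, sumZ_eq]
    simp
  have hF'e : F' = fT g st * 2 ^ g.H := by
    rw [hF', Nat.shiftLeft_eq]
  have hpow : ((2 : ℝ) ^ (g.bw + g.H)) = 2 ^ g.bw * 2 ^ g.H := pow_add _ _ _
  have h2bw : (0 : ℝ) < 2 ^ g.bw := by positivity
  have h2H : (0 : ℝ) < 2 ^ g.H := by positivity
  have htot1 : tot w1 + tot e1 ≤ 2 ^ g.bw := by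
    have h1 : 2 ^ g.H * tot w1 ≤ Sh := by rw [hShe]; exact htot
    have h2 : Sh + fT g st * 2 ^ g.H ≤ 2 ^ g.bw * 2 ^ g.H := by
      rw [← hF'e, ← pow_add]
      exact hchk1
    rw [het]
    have h3 : (tot w1 + fT g st) * 2 ^ g.H ≤ 2 ^ g.bw * 2 ^ g.H := by nlinarith
    exact Nat.le_of_mul_le_mul_right h3 (by positivity)
  have hE : BExp (chan (lamOf g) (gwEx p (lamOf g) n)) Simp :=
    chan_bexp (gwEx_bexp hpz hp1 (adm_lamOf hg) n) (adm_lamOf hg)
  refine ⟨hr, hI, heI, hSp, heS, htot1, fun G hG => dom_level_oneP hg hl hpz hp1 hp hinv hG,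
    fun G hG => phiE_nsub hE hG, ?_, ?_, by positivity, by positivity⟩
  · intro j
    unfold massV
    have h1 := hmass j
    rw [← hShe] at h1
    rw [hpow, inv_mul_eq_div, div_le_div_iff₀ h2bw (by positivity)]
    nlinarith
  · intro j
    rw [hemass j, hF'e, hpow]
    apply le_of_eq
    push_cast
    field_simp

/-- What the scheme gives on a state. -/
theorem fin_state {p : ℕ → ℝ} {g : GP} {l : LP} {wp : WP} {n st : ℕ} {Tp : PT} {Tz : ZL} (hg : gpOK g = true)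
    (hl : latOK g l = true) (hL : LawOK p g wp) (hp : ptOK g l Tp Tz = true)
    (hinv : PInv p g l n st)
    (hchk1 : sumZ (2 ^ g.wd) g.u st Tz 0 + fT g st <<< g.H ≤ 2 ^ (g.bw + g.H)) :
    let R := finM g.bw l.O (w1Meas g Tp st) (e1Meas l (fT g st)) wp
    numsP g l wp Tp st = (phi g.B (LP.L g l) R.1, phi g.B (LP.L g l) R.2)
      ∧ Inv3 R.1 ∧ InvE R.2 ∧ Supp l.O g.d R.1 ∧ Supp l.O g.d R.2 ∧ tot R.1 + tot R.2 ≤ 2 ^ g.bw
      ∧ (∀ G, NSub G → PhiE (gwEx p (lamOf g) (n + 1)) G ≤ VP g.bw (rr l) l.O g.d R.1 R.2 G)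
      ∧ (∀ j, massV g.bw (rr l) l.O g.d R.1 j ≤
          (keptH (g.bw + g.H) (sumZ (2 ^ g.wd) g.u st Tz 0) wp.top wp.p0 wp.K wp.T : ℝ) / 2 ^ wp.E g)
      ∧ (∀ j, massV g.bw (rr l) l.O g.d R.2 j ≤
          (keptH (g.bw + g.H) (sumZ (2 ^ g.wd) g.u st Tz 0 + fT g st <<< g.H) wp.top wp.p0 wp.K wp.T : ℝ) / 2 ^ wp.E g
          - (keptH (g.bw + g.H) (sumZ (2 ^ g.wd) g.u st Tz 0) wp.top wp.p0 wp.K wp.T : ℝ) / 2 ^ wp.E g) := by
  intro R
  obtain ⟨hd, hld, hlam0, hlam1, hln, hB, hwd, hu, hbwH⟩ := gpOK_props hg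
  obtain ⟨hI, hSp, hphi, hval, htot, hmass, hz, hpw⟩ := ptOK_props' hg hl hp st
  obtain ⟨heI, heS, het, hephi, hemass⟩ := e1_props g l (fT g st)
  have hm := msgOK_of_inv hg hl hL.hp0 hL.hp1 hp hinv hchk1
  have hd2 := hL.hd
  have hLL : LP.L g l = 4 * l.O + 1 := by
    unfold LP.L
    rw [hd2]
  have hNN : LP.N g l = 4 * l.O + LP.L g l * (4 * l.O) + 1 := by
    unfold LP.N
    rw [hd2]
  obtain ⟨h1, h2, h3, h4⟩ := fin_main (B := g.B) (L := LP.L g l) (N := LP.N g l) hLL hNN hB hm hephi wp hL.sum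
    (fun w e => (trunc g.bw (maskOf g.B g.bw (LP.N g l)) (w * asm (2 ^ g.wd) g.u st Tp) + wp.p0 <<< (2 * LP.eo g l),
        trunc g.bw (maskOf g.B g.bw (LP.N g l)) (mulE w e (asm (2 ^ g.wd) g.u st Tp) (fT g st) (LP.eo g l))))
  have hY : ∀ X : ℕ, (keptH (g.bw + g.H) X wp.top wp.p0 wp.K wp.T : ℝ) / 2 ^ wp.E g
      = hornR g.bw ((X : ℝ) / 2 ^ (g.bw + g.H)) wp.T (((2 : ℝ) ^ g.bw)⁻¹ * wp.top) * ((X : ℝ) / 2 ^ (g.bw + g.H))
        + ((2 : ℝ) ^ g.bw)⁻¹ * wp.p0 := fun X => keptH_eq g.bw (g.bw + g.H) X wp.top wp.p0 wp.K wp.T hL.K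
  have hadd : (((sumZ (2 ^ g.wd) g.u st Tz 0 + fT g st <<< g.H : ℕ) : ℝ)) / 2 ^ (g.bw + g.H)
      = (sumZ (2 ^ g.wd) g.u st Tz 0 : ℝ) / 2 ^ (g.bw + g.H) + ((fT g st <<< g.H : ℕ) : ℝ) / 2 ^ (g.bw + g.H) := by
    push_cast
    rw [add_div]
  rw [hd2]
  refine ⟨?_, h4.inv, h4.inve, h4.s1, h4.s2, h4.htot, ?_, ?_, ?_⟩
  · unfold numsP
    rw [hphi] at h1 h2 h3
    refine h1.trans ?_
    exact Prod.ext h2 h3
  · intro G hG
    exact (gwEx_le_sumL hg hL n hG).trans (h4.dom G hG)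
  · intro j
    rw [hY]
    exact h4.m1 j
  · intro j
    rw [hY, hY, hadd]
    exact h4.m2 j

/-! ### One generation as a function of the numbers -/

theorem goHorn_map {β γ : Type} (F : β → γ) (bw HEX eo Pw f : ℕ) (T : WL) (w e : ℕ) (k : ℕ → ℕ → β) :
    goHorn bw HEX eo Pw f T w e (fun a b => F (k a b)) = F (goHorn bw HEX eo Pw f T w e k) := by
  induction T generalizing w e with
  | nil => rfl
  | cons P tl ih =>
    rw [goHorn_step, goHorn_step]
    exact ih _ _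

/-- the generation as a function of the numbers -/
theorem stepP_eq (g : GP) (l : LP) (V : ℕ) (wp : WP) (Tp : PT) (Tx Te : XT) (Tz : ZL) (st : ℕ) :
    stepP g l V wp Tp Tx Te Tz st =
      if sumZ (2 ^ g.wd) g.u st Tz 0 + fT g st <<< g.H ≤ 2 ^ (g.bw + g.H)
        ∧ keptS g wp Tz st ≤ 2 ^ wp.E g then
        ((2 ^ wp.E g - keptS g wp Tz st) >>> (wp.K * (g.bw + g.H))) * V
          + goX (2 ^ g.B) Tx (numsP g l wp Tp st).1
          + goX (2 ^ g.B) Te (numsP g l wp Tp st).2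
      else 0 := by
  unfold stepP stepPGen
  simp only [seqN_eq, boolRec_ble]
  have e1 : Nat.shiftLeft 1 (g.bw.add g.H) = 2 ^ (g.bw + g.H) := by
    show 1 <<< (g.bw + g.H) = _
    rw [Nat.shiftLeft_eq, one_mul]
  have e2 : Nat.shiftLeft 1 (g.bw.add (wp.K.mul (g.bw.add g.H))) = 2 ^ wp.E g := by
    show 1 <<< (g.bw + wp.K * (g.bw + g.H)) = _
    rw [Nat.shiftLeft_eq, one_mul]
    rfl
  rw [e1, e2, ite_and]
  have key : ∀ c : ℕ, goHorn g.bw (hexOf g.B g.bw (LP.L g l) l.O) (LP.eo g l) (asm (2 ^ g.wd) g.u st Tp) (fT g st) wp.T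
      (wp.top <<< LP.eo g l) 0 (fun w e =>
        c + goX (2 ^ g.B) Tx (trunc g.bw (maskOf g.B g.bw (LP.N g l)) (w * asm (2 ^ g.wd) g.u st Tp) + wp.p0 <<< (2 * LP.eo g l))
          + goX (2 ^ g.B) Te (trunc g.bw (maskOf g.B g.bw (LP.N g l)) (mulE w e (asm (2 ^ g.wd) g.u st Tp) (fT g st) (LP.eo g l))))
      = c + goX (2 ^ g.B) Tx (numsP g l wp Tp st).1 + goX (2 ^ g.B) Te (numsP g l wp Tp st).2 := by
    intro c
    exact goHorn_map (fun p : ℕ × ℕ => c + goX (2 ^ g.B) Tx p.1 + goX (2 ^ g.B) Te p.2) g.bw (hexOf g.B g.bw (LP.L g l) l.O)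
      (LP.eo g l) (asm (2 ^ g.wd) g.u st Tp) (fT g st) wp.T (wp.top <<< LP.eo g l) 0 (fun w e =>
        (trunc g.bw (maskOf g.B g.bw (LP.N g l)) (w * asm (2 ^ g.wd) g.u st Tp) + wp.p0 <<< (2 * LP.eo g l),
          trunc g.bw (maskOf g.B g.bw (LP.N g l)) (mulE w e (asm (2 ^ g.wd) g.u st Tp) (fT g st) (LP.eo g l))))
  rw [← key]
  rfl

/-- the zero state is always sound -/
theorem pinv_of_zero {p : ℕ → ℝ} (hp0 : ∀ k, 0 ≤ p k) (hp1 : HasSum p 1) (g : GP) (l : LP) (n : ℕ)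
    (hl : Adm (lamOf g)) : PInv p g l n 0 := by
  intro G hG _
  have h2 : PhiE (chan (lamOf g) (gwEx p (lamOf g) n)) G ≤ 0 :=
    phiE_nonpos (chan_bexp (gwEx_bexp hp0 hp1 hl n) hl) hG
  have e : ∀ t, cT g l 0 t = 0 := by
    intro t
    show ((0 >>> (g.wd * t)) % 2 ^ g.wd) >>> g.u / orbT l t = 0
    simp
  have f : fT g 0 = 0 := by
    show ((0 >>> 0) % 2 ^ g.wd) >>> g.u = 0
    simp
  have h3 : PVal g l 0 G = 0 := by
    simp [PVal, e, f]
  linarith

/-- The aggregated level: from the invariant and the passing checks of a generation we get the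
domination of the next posteriors by the digits listed in the trees, and the bound for their mass. -/
theorem xlevelP {p : ℕ → ℝ} {g : GP} {l : LP} {wp : WP} {n st : ℕ} {Tp : PT} {Tx Te : XT} {Tz : ZL}
    (hg : gpOK g = true) (hl : latOK g l = true) (hL : LawOK p g wp) (hp : ptOK g l Tp Tz = true)
    (hinv : PInv p g l n st)
    (hchk1 : sumZ (2 ^ g.wd) g.u st Tz 0 + fT g st <<< g.H ≤ 2 ^ (g.bw + g.H))
    (hsx : (XT.leaves Tx 0 0).Pairwise (fun a c => a.pos < c.pos))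
    (hse : (XT.leaves Te 0 0).Pairwise (fun a c => a.pos < c.pos))
    (hxl : ∀ a ∈ XT.leaves Tx 0 0, a.pos = g.B * (a.n0 + LP.L g l * a.n1)
      ∧ a.n0 + a.n1 + a.n2 = 3 * (g.d * l.O) ∧ a.n1 ≤ a.n0 ∧ a.n2 ≤ a.n1 ∧ a.n0 ≤ 2 * (g.d * l.O))
    (hel : ∀ a ∈ XT.leaves Te 0 0, a.pos = g.B * (a.n0 + LP.L g l * a.n1)
      ∧ a.n0 + a.n1 + a.n2 = 3 * (g.d * l.O) ∧ a.n2 ≤ a.n1 ∧ a.n1 ≤ 2 * (g.d * l.O)
      ∧ a.n0 ≤ 2 * (g.d * l.O)) :
    let xs := XT.pairs g.B Tx 0 0 (numsP g l wp Tp st).1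
    let es := XT.pairs g.B Te 0 0 (numsP g l wp Tp st).2
    (∀ G, NSub G → Symm G → PhiE (gwEx p (lamOf g) (n + 1)) G ≤ ListVal g l xs es G)
      ∧ ListMass g l xs es * (2 : ℝ) ^ wp.E g ≤ (keptS g wp Tz st : ℝ) := by
  intro xs es
  obtain ⟨hnums, hI, hIe, hS1, hS2, htot, hdom, hm1, hm2⟩ := fin_state hg hl hL hp hinv hchk1
  have hW : (numsP g l wp Tp st).1 = phi g.B (LP.L g l)
      (finM g.bw l.O (w1Meas g Tp st) (e1Meas l (fT g st)) wp).1 := by rw [hnums]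
  have hWe : (numsP g l wp Tp st).2 = phi g.B (LP.L g l)
      (finM g.bw l.O (w1Meas g Tp st) (e1Meas l (fT g st)) wp).2 := by rw [hnums]
  obtain ⟨h1, h2⟩ := list_level (X := PhiE (gwEx p (lamOf g) (n + 1))) hg hl hsx hse hxl hel hW hWe hI hIe hS1 hS2 htot
    hdom hm1 hm2
  refine ⟨h1, ?_⟩
  have hpos : (0 : ℝ) < (2 : ℝ) ^ wp.E g := by positivity
  have h3 := mul_le_mul_of_nonneg_right h2 hpos.le
  refine h3.trans ?_
  have e1 : (2 * ((keptH (g.bw + g.H) (sumZ (2 ^ g.wd) g.u st Tz 0 + fT g st <<< g.H) wp.top wp.p0 wp.K wp.T : ℝ) / 2 ^ wp.E g)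
        - (keptH (g.bw + g.H) (sumZ (2 ^ g.wd) g.u st Tz 0) wp.top wp.p0 wp.K wp.T : ℝ) / 2 ^ wp.E g) * (2 : ℝ) ^ wp.E g
      = 2 * (keptH (g.bw + g.H) (sumZ (2 ^ g.wd) g.u st Tz 0 + fT g st <<< g.H) wp.top wp.p0 wp.K wp.T : ℝ)
        - (keptH (g.bw + g.H) (sumZ (2 ^ g.wd) g.u st Tz 0) wp.top wp.p0 wp.K wp.T : ℝ) := by
    field_simp
  rw [e1]
  have e2 : keptS g wp Tz st = 2 * keptH (g.bw + g.H) (sumZ (2 ^ g.wd) g.u st Tz 0 + fT g st <<< g.H) wp.top wp.p0 wp.K wp.T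
      - keptH (g.bw + g.H) (sumZ (2 ^ g.wd) g.u st Tz 0) wp.top wp.p0 wp.K wp.T := rfl
  rw [e2]
  have e3 : ∀ A B : ℕ, (2 * (A : ℝ) - B) ≤ ((2 * A - B : ℕ) : ℝ) := by
    intro A B
    have h4 : 2 * A ≤ (2 * A - B) + B := by omega
    have h5 := (Nat.cast_le (α := ℝ)).mpr h4
    rw [Nat.cast_add, Nat.cast_mul] at h5
    have h6 : ((2 : ℕ) : ℝ) = 2 := by norm_num
    rw [h6] at h5
    linarith
  exact e3 _ _

/-- The invariant after one generation. -/
theorem inv_stepP {p : ℕ → ℝ} {g : GP} {li lo : LP} {D1 D2 : ℕ} {vl : XL} {wp : WP} {Tp : PT} {Tx Te : XT} {Tz : ZL}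
    {n st : ℕ} (hchk : checkSeg g li lo D1 D2 vl Tp Tx Te Tz = true) (hL : LawOK p g wp)
    (hinv : PInv p g li n st) :
    PInv p g lo (n + 1) (stepP g li (vPacked vl) wp Tp Tx Te Tz st) := by
  obtain ⟨hg, hli, hlo, hp, hpt, hcx, hce, hv⟩ := checkSeg_props hchk
  obtain ⟨hd, hld, hlam0, hlam1, hln, hB, hwd, hu, hE⟩ := gpOK_props hg
  have hlam1' : lamOf g ≤ 1 := by linarith
  have hadm := adm_lamOf hg
  intro G hG hs
  rw [stepP_eq]
  split_ifs with hok
  swap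
  · exact pinv_of_zero hL.hp0 hL.hp1 g lo (n + 1) hadm G hG hs
  obtain ⟨hok1, hok2⟩ := hok
  set Z := wp.K * (g.bw + g.H) with hZdef
  have hEe : wp.E g = g.bw + Z := rfl
  set E := wp.E g with hEdef
  set K := keptS g wp Tz st with hK
  set R := numsP g li wp Tp st with hR
  set V := (2 ^ E - K) >>> Z with hVdef
  obtain ⟨hxL, hxS⟩ := chkX_sound Tx 0 0 _ hcx
  obtain ⟨heL, heS⟩ := chkE_sound Te 0 0 _ hce
  have hxl := fun a ha => xLeaf_ex (hxL a ha).1
  have hel := fun a ha => eLeaf_ex (heL a ha).1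
  have hlevel := xlevelP hg hli hL hpt hinv hok1 hxS heS hxl hel
  simp only at hlevel
  obtain ⟨h1, hm⟩ := hlevel
  set xs := XT.pairs g.B Tx 0 0 R.1 with hxs
  set es := XT.pairs g.B Te 0 0 R.2 with hes
  have hxmem : ∀ x ∈ xs, x.1 ∈ XT.leaves Tx 0 0 := by
    intro x hx
    rw [← XT.pairs_fst g.B Tx 0 0 R.1]
    exact List.mem_map_of_mem hx
  have hemem : ∀ x ∈ es, x.1 ∈ XT.leaves Te 0 0 := by
    intro x hx
    rw [← XT.pairs_fst g.B Te 0 0 R.2]
    exact List.mem_map_of_mem hx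
  have hxok : ∀ x ∈ xs, xLeafOK g li lo D1 D2 x.1 = true := fun x hx => (hxL _ (hxmem x hx)).1
  have heok : ∀ x ∈ es, eLeafOK g li lo D1 D2 x.1 = true := fun x hx => (heL _ (hemem x hx)).1
  -- the bound for `V`
  have hEpos : (0 : ℝ) < (2 : ℝ) ^ E := by positivity
  have hbpos : (0 : ℝ) < (2 : ℝ) ^ g.bw := by positivity
  have hpow : (2 : ℝ) ^ E = (2 : ℝ) ^ g.bw * (2 : ℝ) ^ Z := by
    rw [← pow_add, hEe]
  have hV1 : V * 2 ^ Z ≤ 2 ^ E - K := by
    rw [hVdef, Nat.shiftRight_eq_div_pow]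
    exact Nat.div_mul_le_self _ _
  have hV2 : (V : ℝ) * (2 : ℝ) ^ Z ≤ (2 : ℝ) ^ E - (K : ℝ) := by
    have := (Nat.cast_le (α := ℝ)).mpr hV1
    rw [Nat.cast_sub hok2] at this
    push_cast at this
    exact this
  have hVm : (V : ℝ) * ((2 : ℝ) ^ g.bw)⁻¹ ≤ 1 - ListMass g li xs es := by
    have h3 : (V : ℝ) * ((2 : ℝ) ^ g.bw)⁻¹ * (2 : ℝ) ^ E = (V : ℝ) * (2 : ℝ) ^ Z := by
      rw [hpow]
      field_simp
    have h4 : ((V : ℝ) * ((2 : ℝ) ^ g.bw)⁻¹ + ListMass g li xs es) * (2 : ℝ) ^ E ≤ 1 * (2 : ℝ) ^ E := by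
      rw [add_mul, h3, one_mul]
      linarith
    have := le_of_mul_le_mul_right h4 hEpos
    linarith
  have hm1 : ListMass g li xs es ≤ 1 := by
    have h4 : ListMass g li xs es * (2 : ℝ) ^ E ≤ 1 * (2 : ℝ) ^ E := by
      rw [one_mul]
      refine hm.trans ?_
      exact_mod_cast hok2
    exact le_of_mul_le_mul_right h4 hEpos
  -- no overflow
  have hw : 0 < g.wd := by omega
  have hVle : V ≤ 2 ^ g.bw := by
    have h5 : V * 2 ^ Z ≤ 2 ^ g.bw * 2 ^ Z := by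
      rw [← pow_add, ← hEe]
      exact hV1.trans (Nat.sub_le _ _)
    exact Nat.le_of_mul_le_mul_right h5 (by positivity)
  have hbig : ∀ t, V * coefAt g.wd vl t + coefL g.wd xs t + coefL g.wd es t < 2 ^ g.wd := by
    intro t
    have hc : coefAt g.wd vl t ≤ 2 ^ g.u := (coefAt_le_sum hw vl t).trans (vLeaf_mass hg hli hv)
    have h6 : V * coefAt g.wd vl t ≤ 2 ^ g.bw * 2 ^ g.u := Nat.mul_le_mul hVle hc
    have h7 := mass_leaves hg hli hxok heok
    have h8 : (((xs.map (fun x => x.2 * (x.1.M1 + x.1.M2 + x.1.M3))).sum : ℕ) : ℝ)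
        + (((es.map (fun x => x.2 * (x.1.M1 + x.1.M2 + x.1.M3))).sum : ℕ) : ℝ)
        ≤ (2 : ℝ) ^ g.bw * (2 : ℝ) ^ g.u := by
      refine h7.trans ?_
      have : (2 : ℝ) ^ g.bw * ListMass g li xs es ≤ (2 : ℝ) ^ g.bw * 1 :=
        mul_le_mul_of_nonneg_left hm1 hbpos.le
      have hu0 : (0 : ℝ) < (2 : ℝ) ^ g.u := by positivity
      nlinarith
    have h9 : (xs.map (fun x => x.2 * (x.1.M1 + x.1.M2 + x.1.M3))).sum
        + (es.map (fun x => x.2 * (x.1.M1 + x.1.M2 + x.1.M3))).sum ≤ 2 ^ g.bw * 2 ^ g.u := by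
      exact_mod_cast h8
    have h10 := coefL_le hw xs t
    have h11 := coefL_le hw es t
    have h12 : 2 ^ g.wd = 2 ^ (g.wd - (g.bw + g.u)) * (2 ^ g.bw * 2 ^ g.u) := by
      rw [← pow_add, ← pow_add]
      congr 1
      omega
    have h13 : 2 ≤ 2 ^ (g.wd - (g.bw + g.u)) := by
      calc 2 = 2 ^ 1 := by norm_num
        _ ≤ _ := Nat.pow_le_pow_right (by norm_num) (by omega)
    have h14 : 0 < 2 ^ g.bw * 2 ^ g.u := by positivity
    have h15 : 2 * (2 ^ g.bw * 2 ^ g.u) < 2 ^ g.wd := by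
      have h16 : 4 ≤ 2 ^ (g.wd - (g.bw + g.u)) := by
        calc 4 = 2 ^ 2 := by norm_num
          _ ≤ _ := Nat.pow_le_pow_right (by norm_num) (by omega)
      rw [h12]
      nlinarith
    omega
  -- the fields
  have hst : ((2 ^ E - K) >>> Z) * vPacked vl + goX (2 ^ g.B) Tx R.1 + goX (2 ^ g.B) Te R.2
      = V * vl.term + (xs.map (fun x => x.2 * x.1.term)).sum + (es.map (fun x => x.2 * x.1.term)).sum := by
    have e1 := goX_eq g.B Tx 0 0 R.1
    have e2 := goX_eq g.B Te 0 0 R.2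
    simp only [pow_zero, mul_one] at e1 e2
    rw [e1, e2, vPacked_eq_term]
  have hfields := step_fields (lo := lo) (vl := vl) (xs := xs) (es := es) (V := V) hg (vLeaf_targets hv)
    (fun x hx => xLeaf_targets (hxok x hx)) (fun x hx => eLeaf_targets (heok x hx)) hst hbig
  have hE1 : BExp (gwEx p (lamOf g) (n + 1)) Simp := gwEx_bexp hL.hp0 hL.hp1 hadm (n + 1)
  exact (step_valueP hE1 hg hli hlo hp hv hxok heok h1 hVm hG hs).trans (pval_of_fields hG hlo hfields)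

theorem runP_succ (g : GP) (l : LP) (V : ℕ) (wp : WP) (Tp : PT) (Tx Te : XT) (Tz : ZL) (k st : ℕ) :
    runP g l V wp Tp Tx Te Tz (k + 1) st
      = runP g l V wp Tp Tx Te Tz k (stepP g l V wp Tp Tx Te Tz st) := by
  show seqN (stepP g l V wp Tp Tx Te Tz st) (fun a => runP g l V wp Tp Tx Te Tz k a) = _
  rw [seqN_eq]

/-- The invariant after several generations in one lattice. -/
theorem inv_runP {p : ℕ → ℝ} {g : GP} {l : LP} {D1 D2 : ℕ} {vl : XL} {wp : WP} {Tp : PT} {Tx Te : XT} {Tz : ZL}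
    {n k st : ℕ} (hchk : checkSeg g l l D1 D2 vl Tp Tx Te Tz = true) (hL : LawOK p g wp)
    (hinv : PInv p g l n st) :
    PInv p g l (n + k) (runP g l (vPacked vl) wp Tp Tx Te Tz k st) := by
  induction k generalizing n st with
  | zero => exact hinv
  | succ k ih =>
    rw [runP_succ, show n + (k + 1) = (n + 1) + k by omega]
    exact ih (inv_stepP hchk hL hinv)

/-- A transition generation. -/
theorem inv_run1P {p : ℕ → ℝ} {g : GP} {li lo : LP} {D1 D2 : ℕ} {vl : XL} {wp : WP} {Tp : PT} {Tx Te : XT} {Tz : ZL}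
    {n st : ℕ} (hchk : checkSeg g li lo D1 D2 vl Tp Tx Te Tz = true) (hL : LawOK p g wp)
    (hinv : PInv p g li n st) :
    PInv p g lo (n + 1) (runP g li (vPacked vl) wp Tp Tx Te Tz 1 st) := by
  rw [runP_succ]
  exact inv_stepP hchk hL hinv

/-- The start of the chain: the vertices at depth zero. -/
theorem pinv_zero {p : ℕ → ℝ} {g : GP} {li lo : LP} {D1 D2 : ℕ} {vl : XL} (hg : gpOK g = true) (hli : latOK g li = true)
    (hlo : latOK g lo = true) (hpz : pairOK li lo D1 D2 = true) (hv : vLeafOK g li lo D1 D2 vl = true) :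
    PInv p g lo 0 (2 ^ g.bw * vPacked vl) := by
  obtain ⟨hd, hld, hlam0, hlam1, hln, hB, hwd, hu, hE⟩ := gpOK_props hg
  have hw : 0 < g.wd := by omega
  intro G hG hs
  have hbig : ∀ t, 2 ^ g.bw * coefAt g.wd vl t + coefL g.wd [] t + coefL g.wd [] t < 2 ^ g.wd := by
    intro t
    have hc : coefAt g.wd vl t ≤ 2 ^ g.u := (coefAt_le_sum hw vl t).trans (vLeaf_mass hg hli hv)
    have h6 : 2 ^ g.bw * coefAt g.wd vl t ≤ 2 ^ g.bw * 2 ^ g.u := Nat.mul_le_mul_left _ hc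
    have h7 : 2 ^ g.bw * 2 ^ g.u < 2 ^ g.wd := by
      rw [← pow_add]
      exact Nat.pow_lt_pow_right (by norm_num) (by omega)
    simp only [coefL_nil, add_zero]
    omega
  have hfields := step_fields (lo := lo) (vl := vl) (xs := []) (es := []) (V := 2 ^ g.bw)
    (st' := 2 ^ g.bw * vPacked vl) hg (vLeaf_targets hv)
    (by simp) (by simp) (by simp [vPacked_eq_term]) hbig
  refine le_trans ?_ (pval_of_fields hG hlo hfields)
  have hvs := vLeaf_sound hg hli hlo hpz hv hG hs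
  have e1 : PhiE (chan (lamOf g) (gwEx p (lamOf g) 0)) G = 3 * G (chanV (lamOf g) (Pi.single 0 1)) := by
    show PhiE (chan (lamOf g) vertexEx) G = _
    rw [phiE_chan vertexEx_bexp]
    show 3 * (1 / 3 * (G (chanV (lamOf g) (mk3 1 0 0)) + G (chanV (lamOf g) (mk3 0 1 0)) + G (chanV (lamOf g) (mk3 0 0 1)))) = _
    have e2 : ∀ j : Fin 3, G (chanV (lamOf g) (Pi.single j 1)) = G (chanV (lamOf g) (Pi.single 0 1)) := by
      intro j
      have : (Pi.single j (1 : ℝ) : Vec) = (Pi.single 0 (1 : ℝ) : Vec) ∘ Equiv.swap 0 j := by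
        funext i
        by_cases h : i = j
        · subst h; simp
        · by_cases h0 : i = 0
          · subst h0; simp [Pi.single_apply, h, Ne.symm h]
          · simp [Pi.single_apply, h, Equiv.swap_apply_of_ne_of_ne h0 h, h0]
      rw [this, chanV_perm, hs]
    have a0 : mk3 1 0 0 = Pi.single 0 1 := by
      funext i
      fin_cases i <;> simp [mk3]
    have a1 : mk3 0 1 0 = Pi.single 1 1 := by
      funext i
      fin_cases i <;> simp [mk3]
    have a2 : mk3 0 0 1 = Pi.single 2 1 := by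
      funext i
      fin_cases i <;> simp [mk3]
    rw [a0, a1, a2, e2 1, e2 2]
    ring
  rw [e1]
  refine hvs.trans (le_of_eq ?_)
  unfold leafRHS
  have hbne : (2 : ℝ) ^ g.bw ≠ 0 := by positivity
  have hs2 : ∑ t ∈ Finset.Icc 1 lo.T, (((2 ^ g.bw * coefAt g.wd vl t + coefL g.wd [] t + coefL g.wd [] t : ℕ) : ℝ))
        * G (rhoT lo t)
      = (2 : ℝ) ^ g.bw * ∑ t ∈ Finset.Icc 1 lo.T, (coefAt g.wd vl t : ℝ) * G (rhoT lo t) := by
    rw [Finset.mul_sum]
    refine Finset.sum_congr rfl (fun t _ => ?_)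
    simp only [coefL_nil, add_zero]
    push_cast
    ring
  rw [hs2]
  simp only [coefL_nil, add_zero]
  push_cast
  field_simp

/-- The start of a chain from the check of its first segment. -/
theorem pinv_start {p : ℕ → ℝ} {g : GP} {l : LP} {D1 D2 : ℕ} {vl : XL} {Tp : PT} {Tx Te : XT} {Tz : ZL}
    (h : checkSeg g l l D1 D2 vl Tp Tx Te Tz = true) : PInv p g l 0 (2 ^ g.bw * vPacked vl) := by
  obtain ⟨hg, hl, -, hp, -, -, -, hv⟩ := checkSeg_props h
  exact pinv_zero hg hl hl hp hv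

end Vale.Agent.Lib.P154.PChain
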