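import Vale.Agent.Lib.P154.Chain.Hand
import Vale.Agent.Lib.P154.PChain.Step
import Vale.Agent.Lib.P154.PChain.Mono
import Vale.Agent.Lib.P154.Neg.Convex

/-!
The hand-off of the chain on the Galton-Watson tree: a family that dominates the posteriors in the convex
order, with small moments.
-/

namespace Vale.Agent.Lib.P154.PChain

open Vale.Agent.Lib.P154 Vale.Agent.Lib.P154.Neg Vale.Agent.Lib.P154.Chain
open scoped BigOperators

/-- the fold of the third power over a list of leaves with their digits -/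
noncomputable def cubeList (g : GP) (l : LP) (Hm : ℕ) (xs : List (XL × ℕ)) (A : ℕ) : ℕ :=
  xs.foldl (fun A x =>
    cubeStep Hm (dlt l) (Nat.mul (orbN x.1.n0 x.1.n1 x.1.n2) x.2)
      (pw l.ra l.rb l.K x.1.n0 (Nat.mul g.d l.O)) (pw l.ra l.rb l.K x.1.n1 (Nat.mul g.d l.O))
      (pw l.ra l.rb l.K x.1.n2 (Nat.mul g.d l.O)) A) A

/-- the fold in the tree is the fold in the list -/
theorem cubeT_eq (g : GP) (l : LP) (Hm : ℕ) (T : XT) (pos b w : ℕ) (A : ℕ) (k : ℕ → Bool) :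
    cubeT g l Hm T w A k = k (cubeList g l Hm (XT.pairs g.B T pos b w) A) := by
  induction T generalizing pos b w A k with
  | nil => rfl
  | lf p1 M1 p2 M2 p3 M3 t1 q1 t2 q2 t3 q3 n0 n1 n2 =>
    show seqN _ k = _
    rw [seqN_eq]
    rfl
  | nd kk q1 q2 l' r il ir =>
    show cubeT g l Hm l' (w % (1 <<< kk)) A (fun A' => cubeT g l Hm r (w >>> kk) A' k) = _
    rw [il (pos := pos) (b := b + q1)]
    simp only [ir (pos := pos + kk) (b := b + q2)]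
    rw [XT.pairs]
    unfold cubeList
    rw [List.foldl_append]

/-- the meaning of the check at the hand-off -/
theorem handP_spec {g : GP} {l : LP} {h : HP} {wp : WP} {cN cD : ℕ} {Tp : PT} {Tx : XT} {Tz : ZL} {st : ℕ}
    (hh : handP g l h wp cN cD Tp Tx Tz st = true) :
    sumZ (2 ^ g.wd) g.u st Tz 0 + fT g st <<< g.H ≤ 2 ^ (g.bw + g.H)
      ∧ keptS g wp Tz st ≤ 2 ^ wp.E g
      ∧ accOK g h (accList g l h.Hm (XT.pairs g.B Tx 0 0 (numsP g l wp Tp st).1) ⟨0, 0, 0, 0, 0, 0, 0⟩) = true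
      ∧ cubeOK g h cN cD (accList g l h.Hm (XT.pairs g.B Tx 0 0 (numsP g l wp Tp st).1) ⟨0, 0, 0, 0, 0, 0, 0⟩)
          (cubeList g l h.Hm (XT.pairs g.B Tx 0 0 (numsP g l wp Tp st).1) 0) = true := by
  unfold handP at hh
  simp only [seqN_eq, band_eq_true] at hh
  obtain ⟨h1, h2, h3⟩ := hh
  have a1 := Nat.le_of_ble_eq_true h1
  have a2 := Nat.le_of_ble_eq_true h2
  have e1 : Nat.shiftLeft 1 (Nat.add g.bw g.H) = 2 ^ (g.bw + g.H) := by
    show 1 <<< (g.bw + g.H) = _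
    exact Nat.one_shiftLeft _
  have e2 : Nat.shiftLeft 1 (Nat.add g.bw (Nat.mul wp.K (Nat.add g.bw g.H))) = 2 ^ wp.E g := by
    show 1 <<< (g.bw + wp.K * (g.bw + g.H)) = _
    exact Nat.one_shiftLeft _
  rw [e1] at a1
  rw [e2] at a2
  refine ⟨a1, a2, ?_⟩
  have key : goHorn g.bw (hexOf g.B g.bw (LP.L g l) l.O) (LP.eo g l) (asm (2 ^ g.wd) g.u st Tp) (fT g st) wp.T
      (wp.top <<< LP.eo g l) 0 (fun w e =>
        accT g l h.Hm Tx (trunc g.bw (maskOf g.B g.bw (LP.N g l)) (w * asm (2 ^ g.wd) g.u st Tp) + wp.p0 <<< (2 * LP.eo g l))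
          ⟨0, 0, 0, 0, 0, 0, 0⟩ (fun A =>
            cubeT g l h.Hm Tx (trunc g.bw (maskOf g.B g.bw (LP.N g l)) (w * asm (2 ^ g.wd) g.u st Tp) + wp.p0 <<< (2 * LP.eo g l)) 0
              (fun C => band (accOK g h A) (cubeOK g h cN cD A C))))
      = accT g l h.Hm Tx (numsP g l wp Tp st).1 ⟨0, 0, 0, 0, 0, 0, 0⟩ (fun A =>
          cubeT g l h.Hm Tx (numsP g l wp Tp st).1 0 (fun C => band (accOK g h A) (cubeOK g h cN cD A C))) := by
    exact goHorn_map (fun p : ℕ × ℕ => accT g l h.Hm Tx p.1 ⟨0, 0, 0, 0, 0, 0, 0⟩ (fun A =>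
          cubeT g l h.Hm Tx p.1 0 (fun C => band (accOK g h A) (cubeOK g h cN cD A C)))) g.bw (hexOf g.B g.bw (LP.L g l) l.O)
      (LP.eo g l) (asm (2 ^ g.wd) g.u st Tp) (fT g st) wp.T (wp.top <<< LP.eo g l) 0 (fun w e =>
        (trunc g.bw (maskOf g.B g.bw (LP.N g l)) (w * asm (2 ^ g.wd) g.u st Tp) + wp.p0 <<< (2 * LP.eo g l),
          trunc g.bw (maskOf g.B g.bw (LP.N g l)) (mulE w e (asm (2 ^ g.wd) g.u st Tp) (fT g st) (LP.eo g l))))
  have h4 := key.symm.trans h3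
  rw [accT_eq g l h.Hm Tx 0 0, cubeT_eq g l h.Hm Tx 0 0, band_eq_true] at h4
  exact h4

/-- the third power of the second moment -/
noncomputable def I2cb : Fn3 := fun a b c => (I2 a b c) ^ 3

theorem famH_I2cb {v : Vec} {a b c D : ℝ} (ha : 0 < a) (hb : 0 < b) (hc : 0 < c) (hD : 0 < D)
    (h0 : v 0 = a / D) (h1 : v 1 = b / D) (h2 : v 2 = c / D) :
    famH I2cb v = (3 * (a ^ 2 + b ^ 2 + c ^ 2) - (a + b + c) ^ 2) ^ 3 / (81 * D * (a + b + c) ^ 5) := by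
  unfold famH I2cb I2
  rw [h0, h1, h2]
  have hS : a + b + c ≠ 0 := by positivity
  have hSD : a / D + b / D + c / D = (a + b + c) / D := by ring
  rw [hSD]
  field_simp
  ring

theorem cubeStep_bound (Hm D c v0 v1 v2 : ℕ) (A : ℕ) (h0 : 0 < v0) (h1 : 0 < v1) (h2 : 0 < v2)
    (hD : 0 < D) {v : Vec} (e0 : v 0 = (v0 : ℝ) / D) (e1 : v 1 = (v1 : ℝ) / D) (e2 : v 2 = (v2 : ℝ) / D) :
    (2 : ℝ) ^ Hm * ((c : ℝ) * famH I2cb v) ≤ (cubeStep Hm D c v0 v1 v2 A : ℝ) - A := by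
  have a0 : (0 : ℝ) < v0 := by exact_mod_cast h0
  have a1 : (0 : ℝ) < v1 := by exact_mod_cast h1
  have a2 : (0 : ℝ) < v2 := by exact_mod_cast h2
  have aD : (0 : ℝ) < D := by exact_mod_cast hD
  have cc : (0 : ℝ) ≤ c := Nat.cast_nonneg _
  set S : ℕ := v0 + v1 + v2 with hS
  set Q2 : ℕ := v0 ^ 2 + v1 ^ 2 + v2 ^ 2 with hQ2
  have hSpos : 0 < S := by omega
  have aS : (0 : ℝ) < S := by exact_mod_cast hSpos
  have eS : (S : ℝ) = (v0 : ℝ) + v1 + v2 := by rw [hS]; push_cast; ring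
  have eQ2 : (Q2 : ℝ) = (v0 : ℝ) ^ 2 + (v1 : ℝ) ^ 2 + (v2 : ℝ) ^ 2 := by rw [hQ2]; push_cast; ring
  have hT : S ^ 2 ≤ 3 * Q2 := by
    have : ((S ^ 2 : ℕ) : ℝ) ≤ ((3 * Q2 : ℕ) : ℝ) := by
      push_cast
      rw [eS, eQ2]
      nlinarith [sq_nonneg ((v0 : ℝ) - v1), sq_nonneg ((v1 : ℝ) - v2), sq_nonneg ((v0 : ℝ) - v2)]
    exact_mod_cast this
  set T2 : ℕ := 3 * Q2 - S ^ 2 with hT2
  have eT2 : (T2 : ℝ) = 3 * (Q2 : ℝ) - (S : ℝ) ^ 2 := by
    rw [hT2, Nat.cast_sub hT]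
    push_cast
    ring
  set Y : ℕ := 2 ^ Hm with hY
  have eY : (Y : ℝ) = (2 : ℝ) ^ Hm := by rw [hY]; push_cast; ring
  have hI : famH I2cb v = (T2 : ℝ) ^ 3 / (81 * (D : ℝ) * (S : ℝ) ^ 5) := by
    rw [famH_I2cb a0 a1 a2 aD e0 e1 e2, eT2, eS, eQ2]
  show _ ≤ ((A + c * cdiv (Y * T2 ^ 3) (81 * D * S ^ 5) : ℕ) : ℝ) - A
  have := cdiv_ge (Y * T2 ^ 3) (81 * D * S ^ 5) (by positivity)
  push_cast at this ⊢
  rw [hI, ← eY]
  have e : (Y : ℝ) * ((c : ℝ) * ((T2 : ℝ) ^ 3 / (81 * (D : ℝ) * (S : ℝ) ^ 5))) =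
      (c : ℝ) * ((Y : ℝ) * (T2 : ℝ) ^ 3 / (81 * (D : ℝ) * (S : ℝ) ^ 5)) := by ring
  rw [e]
  have := mul_le_mul_of_nonneg_left this cc
  linarith

theorem cubeList_bound {g : GP} {l : LP} (hg : gpOK g = true) (hl : latOK g l = true) (Hm : ℕ)
    (xs : List (XL × ℕ)) (A : ℕ)
    (hD : ∀ x ∈ xs, x.1.n1 ≤ x.1.n0 ∧ x.1.n2 ≤ x.1.n1 ∧ x.1.n0 + x.1.n1 + x.1.n2 = 3 * (g.d * l.O)
      ∧ x.1.n0 ≤ 2 * (g.d * l.O)) :
    (2 : ℝ) ^ Hm * (xs.map (fun x => ((orbN x.1.n0 x.1.n1 x.1.n2 * x.2 : ℕ) : ℝ) * famH I2cb (xRay g l x.1))).sum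
      ≤ (cubeList g l Hm xs A : ℝ) - A := by
  obtain ⟨hra, hrb, hr, hK, -, -⟩ := latOK_props hl
  induction xs generalizing A with
  | nil => simp [cubeList]
  | cons x xs ih =>
    have hx := hD x (List.mem_cons_self ..)
    obtain ⟨h1, h2, h3, h4⟩ := hx
    have hpw : ∀ n : ℕ, 0 < pw l.ra l.rb l.K n (Nat.mul g.d l.O) := by
      intro n
      unfold pw
      exact Nat.mul_pos (Nat.pow_pos hra) (Nat.pow_pos hrb)
    have hray := xRay_eq hg hl (a := x.1) h4 (by omega) (by omega)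
    have hB := cubeStep_bound Hm (dlt l) (Nat.mul (orbN x.1.n0 x.1.n1 x.1.n2) x.2)
      (pw l.ra l.rb l.K x.1.n0 (Nat.mul g.d l.O)) (pw l.ra l.rb l.K x.1.n1 (Nat.mul g.d l.O))
      (pw l.ra l.rb l.K x.1.n2 (Nat.mul g.d l.O)) A (hpw _) (hpw _) (hpw _) (dlt_pos l hra hrb)
      (v := xRay g l x.1) (by rw [hray]; rfl) (by rw [hray]; rfl) (by rw [hray]; rfl)
    have hI := ih (cubeStep Hm (dlt l) (Nat.mul (orbN x.1.n0 x.1.n1 x.1.n2) x.2)
      (pw l.ra l.rb l.K x.1.n0 (Nat.mul g.d l.O)) (pw l.ra l.rb l.K x.1.n1 (Nat.mul g.d l.O))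
      (pw l.ra l.rb l.K x.1.n2 (Nat.mul g.d l.O)) A) (fun y hy => hD y (List.mem_cons_of_mem _ hy))
    have e : cubeList g l Hm (x :: xs) A = cubeList g l Hm xs (cubeStep Hm (dlt l)
      (Nat.mul (orbN x.1.n0 x.1.n1 x.1.n2) x.2)
      (pw l.ra l.rb l.K x.1.n0 (Nat.mul g.d l.O)) (pw l.ra l.rb l.K x.1.n1 (Nat.mul g.d l.O))
      (pw l.ra l.rb l.K x.1.n2 (Nat.mul g.d l.O)) A) := rfl
    rw [e]
    simp only [List.map_cons, List.sum_cons]
    have em : ((orbN x.1.n0 x.1.n1 x.1.n2 * x.2 : ℕ) : ℝ) =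
      ((Nat.mul (orbN x.1.n0 x.1.n1 x.1.n2) x.2 : ℕ) : ℝ) := rfl
    rw [em, mul_add]
    linarith

theorem I2cb_vertex : I2cb 1 0 0 = 8 / 27 := by
  unfold I2cb I2
  norm_num

/-- the bound of the third power on the family -/
theorem handFam_cube {g : GP} {l : LP} {h : HP} {cN cD : ℕ} {xs : List (XL × ℕ)} (hg : gpOK g = true)
    (hl : latOK g l = true) (hm : ListMass g l xs [] ≤ 1) (hd : 0 < cD)
    (hchk : cubeOK g h cN cD (accList g l h.Hm xs ⟨0, 0, 0, 0, 0, 0, 0⟩) (cubeList g l h.Hm xs 0) = true)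
    (hD : ∀ x ∈ xs, x.1.n1 ≤ x.1.n0 ∧ x.1.n2 ≤ x.1.n1 ∧ x.1.n0 + x.1.n1 + x.1.n2 = 3 * (g.d * l.O)
      ∧ x.1.n0 ≤ 2 * (g.d * l.O))
    (hml : (accList g l h.Hm xs ⟨0, 0, 0, 0, 0, 0, 0⟩).ml ≤ 2 ^ (g.bw + h.Hm)) :
    famEx (handFam g l xs).F I2cb ≤ (cN : ℝ) / cD := by
  have hB := accList_bounds hg hl h.Hm xs ⟨0, 0, 0, 0, 0, 0, 0⟩ hD
  have hC := cubeList_bound hg hl h.Hm xs 0 hD
  have hs : ∀ a b c, I2cb b a c = I2cb a b c := by
    intro a b c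
    unfold I2cb
    rw [I2_swap]
  have hc : ∀ a b c, I2cb b c a = I2cb a b c := by
    intro a b c
    unfold I2cb
    rw [I2_cyc]
  have E := famEx_hand (xs := xs) hl hm hs hc
  rw [I2cb_vertex] at E
  have hm' : ListMass g l xs [] = ((2 : ℝ) ^ g.bw)⁻¹ * (xs.map (fun x => ((orbN x.1.n0 x.1.n1 x.1.n2 * x.2 : ℕ) : ℝ)
        * ((xRay g l x.1 0 + xRay g l x.1 1 + xRay g l x.1 2) / 3))).sum := by
    unfold ListMass
    simp
  rw [E]
  set A := accList g l h.Hm xs ⟨0, 0, 0, 0, 0, 0, 0⟩ with hA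
  set C := cubeList g l h.Hm xs 0 with hCdef
  set s := (xs.map (fun x => ((orbN x.1.n0 x.1.n1 x.1.n2 * x.2 : ℕ) : ℝ) * famH I2cb (xRay g l x.1))).sum with hs'
  set sm := (xs.map (fun x => ((orbN x.1.n0 x.1.n1 x.1.n2 * x.2 : ℕ) : ℝ)
        * ((xRay g l x.1 0 + xRay g l x.1 1 + xRay g l x.1 2) / 3))).sum with hsm
  have hml' := hB.ml
  simp only [Nat.cast_zero, sub_zero] at hml' hC
  rw [hm']
  have hYb : (0 : ℝ) < (2 : ℝ) ^ g.bw := by positivity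
  have hYr : (0 : ℝ) < (2 : ℝ) ^ h.Hm := by positivity
  have hY : (0 : ℝ) < (2 : ℝ) ^ g.bw * (2 : ℝ) ^ h.Hm := by positivity
  have hcD : (0 : ℝ) < cD := by exact_mod_cast hd
  -- the check in the reals
  have hchk' : (27 * C + 8 * (2 ^ (g.bw + h.Hm) - A.ml)) * cD ≤ 27 * cN * 2 ^ (g.bw + h.Hm) := by
    simpa [cubeOK] using hchk
  have hchk2 := (Nat.cast_le (α := ℝ)).mpr hchk'
  push_cast at hchk2
  rw [Nat.cast_sub hml] at hchk2
  push_cast at hchk2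
  rw [pow_add] at hchk2
  rw [le_div_iff₀ hcD]
  set Yb := (2 : ℝ) ^ g.bw with hYbd
  set Yr := (2 : ℝ) ^ h.Hm with hYrd
  have key : (Yb * Yr) * ((Yb⁻¹ * s + (1 - Yb⁻¹ * sm) * (8 / 27)) * cD) ≤ (Yb * Yr) * (cN : ℝ) := by
    have e : (Yb * Yr) * ((Yb⁻¹ * s + (1 - Yb⁻¹ * sm) * (8 / 27)) * cD)
        = (Yr * s + (8 / 27) * (Yb * Yr - Yr * sm)) * cD := by
      field_simp
    rw [e]
    have e2 : (Yr * s + (8 / 27) * (Yb * Yr - Yr * sm)) ≤ C + (8 / 27) * (Yb * Yr - A.ml) := by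
      linarith
    have e3 := mul_le_mul_of_nonneg_right e2 hcD.le
    refine e3.trans ?_
    nlinarith
  exact le_of_mul_le_mul_left key hY

/-- The hand-off. -/
theorem handoffP {p : ℕ → ℝ} {g : GP} {l : LP} {h : HP} {D1 D2 : ℕ} {vl : XL} {wp : WP} {cN cD : ℕ} {Tp : PT} {Tx Te : XT} {Tz : ZL}
    {n st : ℕ} (hchk : checkSeg g l l D1 D2 vl Tp Tx Te Tz = true) (hL : LawOK p g wp)
    (hinv : PInv p g l n st)
    (hd : 0 < h.Md) (hk : 0 < h.kapD) (hbp : 0 < h.bpD) (hbm : 0 < h.bmD) (hcD : 0 < cD)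
    (hh : handP g l h wp cN cD Tp Tx Tz st = true) :
    ∃ A : FF, A.Good ∧ (∀ G, Sublin G → Symm G → PhiE (gwEx p (lamOf g) (n + 1)) G ≤ val A.F G)
      ∧ InClass ((h.kapN : ℝ) / h.kapD) ((h.bpN : ℝ) / h.bpD) ((h.bmN : ℝ) / h.bmD) (famEx A.F)
          ((h.Mn : ℝ) / h.Md) ∧ famEx A.F I2cb ≤ (cN : ℝ) / cD := by
  obtain ⟨hg, hl, -, -, hpt, hcx, hce, -⟩ := checkSeg_props hchk
  obtain ⟨a1, a2, a3, a4⟩ := handP_spec hh
  set R := numsP g l wp Tp st with hR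
  obtain ⟨hX1, hX2⟩ := chkX_sound Tx 0 0 _ hcx
  obtain ⟨hE1, hE2⟩ := chkE_sound Te 0 0 _ hce
  have hxl : ∀ a ∈ XT.leaves Tx 0 0, a.pos = g.B * (a.n0 + LP.L g l * a.n1)
      ∧ a.n0 + a.n1 + a.n2 = 3 * (g.d * l.O) ∧ a.n1 ≤ a.n0 ∧ a.n2 ≤ a.n1 ∧ a.n0 ≤ 2 * (g.d * l.O) :=
    fun a ha => xLeaf_ex (hX1 a ha).1
  have hel : ∀ a ∈ XT.leaves Te 0 0, a.pos = g.B * (a.n0 + LP.L g l * a.n1)
      ∧ a.n0 + a.n1 + a.n2 = 3 * (g.d * l.O) ∧ a.n2 ≤ a.n1 ∧ a.n1 ≤ 2 * (g.d * l.O)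
      ∧ a.n0 ≤ 2 * (g.d * l.O) := fun a ha => eLeaf_ex (hE1 a ha).1
  obtain ⟨hdom, hmass⟩ := xlevelP hg hl hL hpt hinv a1 hX2 hE2 hxl hel
  set xs := XT.pairs g.B Tx 0 0 R.1 with hxs
  set es := XT.pairs g.B Te 0 0 R.2 with hes
  obtain ⟨-, -, -, hr', -⟩ := latOK_props hl
  have hr := (latOK_props hl).2.2.1
  have hE0 : (0 : ℝ) < (2 : ℝ) ^ wp.E g := by positivity
  have hm1 : ListMass g l xs es ≤ 1 := by
    have h1 : ListMass g l xs es * (2 : ℝ) ^ wp.E g ≤ 1 * (2 : ℝ) ^ wp.E g := by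
      refine hmass.trans ?_
      rw [one_mul]
      exact_mod_cast a2
    exact le_of_mul_le_mul_right h1 hE0
  have hpos : ∀ (a : XL) (i : Fin 3), 0 < xRay g l a i := fun a i => ray_pos hr _ _
  have hes0 : 0 ≤ (es.map (fun x => ((orbE x.1.n1 x.1.n2 * x.2 : ℕ) : ℝ)
        * ((xRay g l x.1 1 + xRay g l x.1 2) / 3))).sum := by
    apply List.sum_nonneg
    intro y hy
    obtain ⟨x, -, rfl⟩ := List.mem_map.mp hy
    have b1 := hpos x.1 1
    have b2 := hpos x.1 2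
    positivity
  have hm : ListMass g l xs [] ≤ 1 := by
    refine le_trans ?_ hm1
    unfold ListMass
    simp only [List.map_nil, List.sum_nil, add_zero]
    apply mul_le_mul_of_nonneg_left _ (by positivity)
    linarith
  have hdom' : ∀ G, NSub G → Symm G → PhiE (gwEx p (lamOf g) (n + 1)) G ≤ ListVal g l xs [] G := by
    intro G hG hs
    refine (hdom G hG hs).trans ?_
    unfold ListVal
    simp only [List.map_nil, List.sum_nil, add_zero]
    apply mul_le_mul_of_nonneg_left _ (by positivity)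
    have hes1 : (es.map (fun x => ((orbE x.1.n1 x.1.n2 * x.2 : ℕ) : ℝ) * G (eRay g l x.1))).sum ≤ 0 := by
      have aux : ∀ L : List ℝ, (∀ y ∈ L, y ≤ 0) → L.sum ≤ 0 := by
        intro L
        induction L with
        | nil => simp
        | cons a L ih =>
          intro h0
          rw [List.sum_cons]
          have h1 := h0 a (List.mem_cons_self ..)
          have h2 := ih (fun y hy => h0 y (List.mem_cons_of_mem _ hy))
          linarith
      apply aux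
      intro y hy
      obtain ⟨x, -, rfl⟩ := List.mem_map.mp hy
      apply mul_nonpos_of_nonneg_of_nonpos (Nat.cast_nonneg _)
      apply hG.nonpos
      intro i
      exact mul_nonneg (hpos x.1 i).le (mask_nonneg 0 i)
    linarith
  have hD : ∀ x ∈ xs, x.1.n1 ≤ x.1.n0 ∧ x.1.n2 ≤ x.1.n1 ∧ x.1.n0 + x.1.n1 + x.1.n2 = 3 * (g.d * l.O)
      ∧ x.1.n0 ≤ 2 * (g.d * l.O) := by
    intro x hx
    have hmem : x.1 ∈ XT.leaves Tx 0 0 := by
      rw [← XT.pairs_fst g.B Tx 0 0 R.1]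
      exact List.mem_map.mpr ⟨x, hx, rfl⟩
    obtain ⟨-, b2, b3, b4, b5⟩ := hxl x.1 hmem
    exact ⟨b3, b4, b2, b5⟩
  have hE1' : BExp (gwEx p (lamOf g) (n + 1)) Simp := gwEx_bexp hL.hp0 hL.hp1 (adm_lamOf hg) (n + 1)
  have hml : (accList g l h.Hm xs ⟨0, 0, 0, 0, 0, 0, 0⟩).ml ≤ 2 ^ (g.bw + h.Hm) := by
    simp only [accOK, Bool.and_eq_true, decide_eq_true_eq] at a3
    exact a3.1.1.1.1
  refine ⟨handFam g l xs, handFam_good hg hl hm, ?_, handFam_class hg hl hm hd hk hbp hbm a3 hD,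
    handFam_cube hg hl hm hcD a4 hD hml⟩
  intro G hG hs
  refine (xlevel_sublinP hE1' hdom' G hG hs).trans (le_of_eq ?_)
  exact val_handFam_eq hl hm G hG hs

/-! ### Convex functions -/

theorem famH_zero (f : Fn3) : famH f 0 = 0 := by
  simp [famH]

/-- the homogeneous extension of a convex function is sublinear -/
theorem famH_sublin {f : Fn3} (hf : Cvx f) : Sublin (famH f) := by
  refine ⟨?_, ?_⟩
  · intro u v hu hv
    have a0 : 0 ≤ u 0 := hu 0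
    have a1 : 0 ≤ u 1 := hu 1
    have a2 : 0 ≤ u 2 := hu 2
    have b0 : 0 ≤ v 0 := hv 0
    have b1 : 0 ≤ v 1 := hv 1
    have b2 : 0 ≤ v 2 := hv 2
    have hSu0 : 0 ≤ u 0 + u 1 + u 2 := by positivity
    have hSv0 : 0 ≤ v 0 + v 1 + v 2 := by positivity
    rcases hSu0.eq_or_lt with hSu | hSu
    · obtain ⟨z0, z1, z2⟩ := coords_eq_zero hu hSu.symm
      have : u = 0 := by
        funext i
        fin_cases i <;> simp [z0, z1, z2]
      rw [this, zero_add, famH_zero, zero_add]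
    rcases hSv0.eq_or_lt with hSv | hSv
    · obtain ⟨z0, z1, z2⟩ := coords_eq_zero hv hSv.symm
      have : v = 0 := by
        funext i
        fin_cases i <;> simp [z0, z1, z2]
      rw [this, add_zero, famH_zero, add_zero]
    set Su := u 0 + u 1 + u 2 with hSudef
    set Sv := v 0 + v 1 + v 2 with hSvdef
    have hS : 0 < Su + Sv := by positivity
    set s := Su / (Su + Sv) with hs
    have hs0 : 0 ≤ s := by positivity
    have hs1 : s ≤ 1 := by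
      rw [hs, div_le_one hS]
      linarith
    have h1s : 1 - s = Sv / (Su + Sv) := by
      rw [hs]
      field_simp
      ring
    have hU : Simp (u 0 / Su) (u 1 / Su) (u 2 / Su) :=
      ⟨by positivity, by positivity, by positivity, by rw [← add_div, ← add_div]; exact div_self hSu.ne'⟩
    have hV : Simp (v 0 / Sv) (v 1 / Sv) (v 2 / Sv) :=
      ⟨by positivity, by positivity, by positivity, by rw [← add_div, ← add_div]; exact div_self hSv.ne'⟩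
    have hc := hf.cv _ _ _ _ _ _ s hU hV hs0 hs1
    have ecoord : ∀ i : Fin 3, (u + v) i / (Su + Sv) = s * (u i / Su) + (1 - s) * (v i / Sv) := by
      intro i
      rw [h1s, hs, Pi.add_apply]
      field_simp
    have etot : (u + v) 0 + (u + v) 1 + (u + v) 2 = Su + Sv := by
      simp only [Pi.add_apply]
      rw [hSudef, hSvdef]
      ring
    unfold famH
    rw [etot, ecoord 0, ecoord 1, ecoord 2, ← hSudef, ← hSvdef]
    have hmul := mul_le_mul_of_nonneg_left hc (by positivity : 0 ≤ (Su + Sv) / 3)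
    refine hmul.trans (le_of_eq ?_)
    rw [h1s, hs]
    field_simp
  · intro t v ht hv
    rcases ht.eq_or_lt with h | h
    · rw [← h]
      simp [famH]
    · unfold famH
      simp only [Pi.smul_apply, smul_eq_mul]
      have e : t * v 0 + t * v 1 + t * v 2 = t * (v 0 + v 1 + v 2) := by ring
      rw [e, mul_div_mul_left _ _ h.ne', mul_div_mul_left _ _ h.ne', mul_div_mul_left _ _ h.ne']
      ring

/-- the functional through the homogeneous extension -/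
theorem ex_eq_phiE_famH (E : Ex3) (hE : BExp E Simp) (f : Fn3) : E f = PhiE E (famH f) :=
  gwEx_eq_phiE_famH E hE f

theorem sublin_symAvg' {G : Vec → ℝ} (hG : Sublin G) : Sublin (symAvg G) := by
  have hm : ∀ (σ : Equiv.Perm (Fin 3)) (v : Vec), 0 ≤ v → 0 ≤ v ∘ σ := fun σ v hv i => hv (σ i)
  refine ⟨?_, ?_⟩
  · intro u v hu hv
    unfold symAvg
    rw [← mul_add, ← Finset.sum_add_distrib]
    refine mul_le_mul_of_nonneg_left ?_ (by norm_num)
    refine Finset.sum_le_sum fun σ _ => ?_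
    exact hG.add_le _ _ (hm σ u hu) (hm σ v hv)
  · intro t v ht hv
    unfold symAvg
    have e : ∀ σ : Equiv.Perm (Fin 3), G ((t • v) ∘ σ) = t * G (v ∘ σ) :=
      fun σ => hG.smul_eq t (v ∘ σ) ht (hm σ v hv)
    simp only [e]
    rw [← Finset.mul_sum]
    ring

/-- The family dominates the law in the convex order. -/
theorem co_fam {E : Ex3} (hE : BExp E Simp) {A : FF} (hA : A.Good)
    (h : ∀ G, Sublin G → Symm G → PhiE E G ≤ val A.F G) : CO E (famEx A.F) := by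
  intro f hf
  have hG := famH_sublin hf
  rw [ex_eq_phiE_famH E hE f, famEx_eq_val, ← phiE_symAvg hE hG, ← val_symAvg_of_famInv hA.inv]
  exact h _ (sublin_symAvg' hG) (symm_symAvg _)

end Vale.Agent.Lib.P154.PChain
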