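import Vale.Agent.Lib.P154.Chain.Check

/-!
The arithmetic program of one generation of the chain on the Galton-Watson tree: the truncated mixture
of the powers of a message, by the Horner scheme, with a window on the exponents.
-/

namespace Vale.Agent.Lib.P154.PChain

open Vale.Agent.Lib.P154.Chain

/-- the weights of the Horner scheme, in the order of the scheme -/
inductive WL where
  | nil : WL
  | cons (P : Nat) (tl : WL) : WL

/-- the length of a list of weights -/
def WL.len : WL → Nat
  | .nil => 0
  | .cons _ tl => WL.len tl + 1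

/-- the second component of the product of the pairs `(w, e)` and `(Pw, f x^c)`, with `eo` the position
of the monomial `x^c` -/
noncomputable def mulE (w e Pw f eo : Nat) : Nat :=
  Nat.add (Nat.add (Nat.shiftLeft (Nat.mul w f) eo) (Nat.mul e Pw)) (Nat.shiftLeft (Nat.mul e f) eo)

/-- truncation of the digits, window, and shift of the exponents -/
noncomputable def truncH (bw HEX eo x : Nat) : Nat :=
  Nat.shiftRight (Nat.land (Nat.shiftRight x bw) HEX) eo

/-- the Horner scheme on pairs of numbers -/
noncomputable def goHorn {β : Type} (bw HEX eo Pw f : Nat) (T : WL) : Nat → Nat → (Nat → Nat → β) → β :=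
  WL.rec (motive := fun _ => Nat → Nat → (Nat → Nat → β) → β)
    (fun w e k => k w e)
    (fun P _ ih w e k =>
      seqN (Nat.add (truncH bw HEX eo (Nat.mul w Pw)) (Nat.shiftLeft P eo)) (fun w' =>
        seqN (truncH bw HEX eo (mulE w e Pw f eo)) (fun e' => ih w' e' k))) T

/-- the Horner scheme on the mass bounds: `X` is the mass per coordinate in unit `2^(-Y)`, and the value
after `c` steps has the unit `2^(-bw - c Y)` -/
noncomputable def keptZ (Y X : Nat) (T : WL) : Nat → Nat → Nat :=
  WL.rec (motive := fun _ => Nat → Nat → Nat) (fun Z _ => Z)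
    (fun P _ ih Z c => seqN (Nat.add (Nat.mul Z X) (Nat.shiftLeft P (Nat.mul (Nat.succ c) Y)))
      (fun Z' => ih Z' (Nat.succ c))) T

/-- the value of the mass polynomial, with its last weight `p0` -/
noncomputable def keptH (Y X top p0 K : Nat) (T : WL) : Nat :=
  Nat.add (Nat.mul (keptZ Y X T top 0) X) (Nat.shiftLeft p0 (Nat.mul K Y))

/-- the bound for the mass kept at the next level -/
noncomputable def keptP (Y Sh F top p0 K : Nat) (T : WL) : Nat :=
  Nat.sub (Nat.mul 2 (keptH Y (Nat.add Sh F) top p0 K T)) (keptH Y Sh top p0 K T)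

/-- One generation. Parameters: `bw` bits of a weight, `u` fraction bits of a field, `H` bits of the mass
bounds, `mw = 2^wd`, `eo` the position of the centre, `mB = 2^B`, `MASK` the mask of the truncation, `HEX`
the mask of the window, `MV` the packed image of a vertex, the weights `top`, `T`, `p0`, with `K` the
number of steps, and the trees. A failed check returns the zero state, which is always sound. -/
noncomputable def stepPGen (bw u H mw eo mB MASK HEX MV top p0 K : Nat) (T : WL) (Tp : PT) (Tx Te : XT)
    (Tz : ZL) (st : Nat) : Nat :=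
  seqN (asm mw u st Tp) (fun Pw =>
    seqN (Nat.shiftRight (Nat.mod (Nat.shiftRight st 0) mw) u) (fun f =>
      seqN (sumZ mw u st Tz 0) (fun Sh =>
        seqN (Nat.shiftLeft f H) (fun F =>
          seqN (keptP (Nat.add bw H) Sh F top p0 K T) (fun Kp =>
            Bool.rec 0
              (Bool.rec 0
                (goHorn bw HEX eo Pw f T (Nat.shiftLeft top eo) 0 (fun w e =>
                  seqN (Nat.add (trunc bw MASK (Nat.mul w Pw)) (Nat.shiftLeft p0 (Nat.mul 2 eo))) (fun W =>
                    seqN (trunc bw MASK (mulE w e Pw f eo)) (fun We =>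
                      Nat.add (Nat.add
                        (Nat.mul (Nat.shiftRight (Nat.sub (Nat.shiftLeft 1 (Nat.add bw (Nat.mul K (Nat.add bw H)))) Kp)
                          (Nat.mul K (Nat.add bw H))) MV)
                        (goX mB Tx W)) (goX mB Te We)))))
                (Nat.ble Kp (Nat.shiftLeft 1 (Nat.add bw (Nat.mul K (Nat.add bw H))))))
              (Nat.ble (Nat.add Sh F) (Nat.shiftLeft 1 (Nat.add bw H))))))))

/-- several generations -/
noncomputable def runPN (bw u H mw eo mB MASK HEX MV top p0 K : Nat) (T : WL) (Tp : PT) (Tx Te : XT)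
    (Tz : ZL) (n : Nat) : Nat → Nat :=
  Nat.rec (motive := fun _ => Nat → Nat) (fun st => st)
    (fun _ ih st => seqN (stepPGen bw u H mw eo mB MASK HEX MV top p0 K T Tp Tx Te Tz st) (fun a => ih a)) n

/-! ### The mask of the window -/

/-- one row of the mask of the window -/
noncomputable def rowHex (B bw L O n1 : Nat) : Nat :=
  let lo := Nat.add O (Nat.sub (Nat.mul 2 O) n1)
  let hi := Nat.sub (Nat.mul 3 O) (Nat.sub n1 (Nat.mul 2 O))
  let len := Nat.sub (Nat.succ hi) lo
  Nat.shiftLeft
    (Nat.mul (Nat.div (Nat.sub (Nat.shiftLeft 1 (Nat.mul B len)) 1) (Nat.sub (Nat.shiftLeft 1 B) 1))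
      (Nat.sub (Nat.shiftLeft 1 (Nat.sub B bw)) 1))
    (Nat.mul B (Nat.add lo (Nat.mul L n1)))

/-- the mask of the window: the digits of the exponents with all coordinates in `[O, 3 O]`, at total
`6 O` -/
noncomputable def hexOf (B bw L O : Nat) : Nat :=
  Nat.rec (motive := fun _ => Nat) 0 (fun i ih => seqN (Nat.add ih (rowHex B bw L O (Nat.add O i))) (fun a => a))
    (Nat.succ (Nat.mul 2 O))

/-! ### Parameters -/

/-- the weights: `top` the first one, `T` the next ones, `p0` the last one, `K` the length of `T` plus `1` -/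
structure WP where
  top : Nat
  T : WL
  p0 : Nat
  K : Nat

/-- the reversed list of weights -/
def WL.rev : WL → List Nat
  | .nil => []
  | .cons P tl => WL.rev tl ++ [P]

/-- the sum of a list of weights -/
def WL.sum : WL → Nat
  | .nil => 0
  | .cons P tl => P + WL.sum tl

/-- the weights are well formed: they sum to at most one -/
def WP.ok (wp : WP) (bw : Nat) : Bool :=
  Nat.beq wp.K (Nat.succ (WL.len wp.T)) && Nat.ble (wp.top + WL.sum wp.T + wp.p0) (2 ^ bw)

/-- the generation with the parameters spelled out; `g.d` has to be `2` -/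
noncomputable def stepP (g : GP) (l : LP) (V : Nat) (wp : WP) (Tp : PT) (Tx Te : XT) (Tz : ZL) (st : Nat) : Nat :=
  stepPGen g.bw g.u g.H (2 ^ g.wd) (LP.eo g l) (2 ^ g.B) (maskOf g.B g.bw (LP.N g l)) (hexOf g.B g.bw (LP.L g l) l.O)
    V wp.top wp.p0 wp.K wp.T Tp Tx Te Tz st

/-- several generations of the chain -/
noncomputable def runP (g : GP) (l : LP) (V : Nat) (wp : WP) (Tp : PT) (Tx Te : XT) (Tz : ZL)
    (n st : Nat) : Nat :=
  runPN g.bw g.u g.H (2 ^ g.wd) (LP.eo g l) (2 ^ g.B) (maskOf g.B g.bw (LP.N g l)) (hexOf g.B g.bw (LP.L g l) l.O)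
    V wp.top wp.p0 wp.K wp.T Tp Tx Te Tz n st

/-! ### The hand-off -/

/-- the contribution of a cell to the bound of the third power of the second moment -/
def cubeStep (Hm D c v0 v1 v2 A : Nat) : Nat :=
  let S := v0 + v1 + v2
  let Q2 := v0 ^ 2 + v1 ^ 2 + v2 ^ 2
  let T2 := 3 * Q2 - S ^ 2
  A + c * cdiv (2 ^ Hm * T2 ^ 3) (81 * D * S ^ 5)

/-- the fold of `cubeStep` over the leaves of a tree, reading the digits of `w` -/
noncomputable def cubeT (g : GP) (l : LP) (Hm : Nat) (T : XT) : Nat → Nat → (Nat → Bool) → Bool :=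
  XT.rec (motive := fun _ => Nat → Nat → (Nat → Bool) → Bool) (fun _ A k => k A)
    (fun _ _ _ _ _ _ _ _ _ _ _ _ n0 n1 n2 w A k =>
      seqN
        (cubeStep Hm (dlt l) (Nat.mul (orbN n0 n1 n2) (Nat.mod w (Nat.pow 2 g.B)))
          (pw l.ra l.rb l.K n0 (Nat.mul g.d l.O)) (pw l.ra l.rb l.K n1 (Nat.mul g.d l.O))
          (pw l.ra l.rb l.K n2 (Nat.mul g.d l.O)) A) k)
    (fun kk _ _ _ _ il ir w A k =>
      il (Nat.mod w (Nat.shiftLeft 1 kk)) A (fun A' => ir (Nat.shiftRight w kk) A' k)) T

/-- the bound of the third power of the second moment -/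
def cubeOK (g : GP) (h : HP) (cN cD : Nat) (A : Acc) (C : Nat) : Bool :=
  let Y := 2 ^ (g.bw + h.Hm)
  let rho := Y - A.ml
  (27 * C + 8 * rho) * cD ≤ 27 * cN * Y

/-- The check at the hand-off: from the state, compute the digits of the next level as in a generation,
check the bound of the mass and the moments of the listed cells. -/
noncomputable def handP (g : GP) (l : LP) (h : HP) (wp : WP) (cN cD : Nat) (Tp : PT) (Tx : XT) (Tz : ZL) (st : Nat) : Bool :=
  seqN (asm (Nat.pow 2 g.wd) g.u st Tp) (fun Pw =>
    seqN (Nat.shiftRight (Nat.mod (Nat.shiftRight st 0) (Nat.pow 2 g.wd)) g.u) (fun f =>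
      seqN (sumZ (Nat.pow 2 g.wd) g.u st Tz 0) (fun Sh =>
        seqN (Nat.shiftLeft f g.H) (fun F =>
          seqN (keptP (Nat.add g.bw g.H) Sh F wp.top wp.p0 wp.K wp.T) (fun Kp =>
            band (Nat.ble (Nat.add Sh F) (Nat.shiftLeft 1 (Nat.add g.bw g.H)))
              (band (Nat.ble Kp (Nat.shiftLeft 1 (Nat.add g.bw (Nat.mul wp.K (Nat.add g.bw g.H)))))
                (goHorn g.bw (hexOf g.B g.bw (LP.L g l) l.O) (LP.eo g l) Pw f wp.T (Nat.shiftLeft wp.top (LP.eo g l)) 0
                  (fun w _ =>
                    seqN (Nat.add (trunc g.bw (maskOf g.B g.bw (LP.N g l)) (Nat.mul w Pw))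
                        (Nat.shiftLeft wp.p0 (Nat.mul 2 (LP.eo g l)))) (fun W =>
                      accT g l h.Hm Tx W ⟨0, 0, 0, 0, 0, 0, 0⟩ (fun A =>
                        cubeT g l h.Hm Tx W 0 (fun C => band (accOK g h A) (cubeOK g h cN cD A C))))))))))))

end Vale.Agent.Lib.P154.PChain
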