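import Vale.Agent.Lib.P154.Chain.Kron
import Vale.Agent.Lib.P154.PChain.Prog

/-!
The window on the exponents: the measure `rc O w`, and its Kronecker evaluation.
-/

namespace Vale.Agent.Lib.P154.PChain

open Vale.Agent.Lib.P154.Chain

open scoped BigOperators

/-- the constant exponent `O` -/
def cO (O : ℕ) : Ex := fun _ => O

/-- the atoms of level two kept in the window -/
def keepW (O : ℕ) (n : Ex) : Prop := ∀ i, O ≤ n i ∧ n i ≤ 3 * O

open Classical in
/-- the atoms of the window, with the exponents lowered by `O` -/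
noncomputable def rc (O : ℕ) (w : Meas) : Meas :=
  ⟨Finsupp.comapDomain (fun m : Ex => m + cO O) (w.coeff.filter (keepW O))
    (fun _ _ _ _ h => add_right_cancel h)⟩

open Classical in
theorem rc_coeff (O : ℕ) (w : Meas) (m : Ex) :
    (rc O w).coeff m = if keepW O (m + cO O) then w.coeff (m + cO O) else 0 := by
  classical
  show (w.coeff.filter (keepW O)) (m + cO O) = _
  rw [Finsupp.filter_apply]

private lemma add_sub_cO (m : Ex) (O : ℕ) : (m + cO O) - cO O = m := by
  funext i
  simp [cO]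

private lemma sub_add_cO {n : Ex} {O : ℕ} (h : keepW O n) : (n - cO O) + cO O = n := by
  funext i
  have := (h i).1
  simp only [Pi.add_apply, Pi.sub_apply, cO]
  omega

open Classical in
private lemma atomsVal_rc_eq (O : ℕ) (w : Meas) (f : Ex → ℝ) :
    atomsVal (rc O w) (fun m => f (m + cO O)) =
      ∑ n ∈ w.coeff.support.filter (keepW O), (w.coeff n : ℝ) * f n := by
  unfold atomsVal Finsupp.sum
  refine Finset.sum_nbij' (fun m => m + cO O) (fun n => n - cO O) ?_ ?_ ?_ ?_ ?_
  · intro m hm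
    rw [Finsupp.mem_support_iff, rc_coeff] at hm
    rw [Finset.mem_filter, Finsupp.mem_support_iff]
    split_ifs at hm with h
    · exact ⟨hm, h⟩
    · exact absurd rfl hm
  · intro n hn
    rw [Finset.mem_filter, Finsupp.mem_support_iff] at hn
    rw [Finsupp.mem_support_iff, rc_coeff]
    simp only [sub_add_cO hn.2, if_pos hn.2]
    exact hn.1
  · intro m _
    exact add_sub_cO m O
  · intro n hn
    exact sub_add_cO (Finset.mem_filter.mp hn).2
  · intro m hm
    rw [Finsupp.mem_support_iff, rc_coeff] at hm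
    rw [rc_coeff]
    split_ifs at hm ⊢ with h
    · rfl
    · exact absurd rfl hm

theorem atomsVal_rc_ge {O : ℕ} (w : Meas) {f : Ex → ℝ} (hf : ∀ n, f n ≤ 0) :
    atomsVal w f ≤ atomsVal (rc O w) (fun m => f (m + cO O)) := by
  classical
  rw [atomsVal_rc_eq]
  unfold atomsVal Finsupp.sum
  rw [← Finset.sum_filter_add_sum_filter_not w.coeff.support (keepW O)]
  have h2 : ∑ n ∈ w.coeff.support.filter (fun x => ¬ keepW O x), (w.coeff n : ℝ) * f n ≤ 0 :=
    Finset.sum_nonpos fun n _ => mul_nonpos_of_nonneg_of_nonpos (Nat.cast_nonneg _) (hf n)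
  linarith

theorem atomsVal_rc_le {O : ℕ} (w : Meas) {f : Ex → ℝ} (hf : ∀ n, 0 ≤ f n) :
    atomsVal (rc O w) (fun m => f (m + cO O)) ≤ atomsVal w f := by
  classical
  rw [atomsVal_rc_eq]
  unfold atomsVal Finsupp.sum
  exact Finset.sum_le_sum_of_subset_of_nonneg (Finset.filter_subset _ _)
    fun n _ _ => mul_nonneg (Nat.cast_nonneg _) (hf n)

private lemma comp_shift (m : Ex) (O : ℕ) (σ : Equiv.Perm (Fin 3)) :
    (m ∘ σ) + cO O = (m + cO O) ∘ σ := by
  funext i
  simp [cO]

private lemma keepW_comp {O : ℕ} {n : Ex} (σ : Equiv.Perm (Fin 3)) :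
    keepW O (n ∘ σ) ↔ keepW O n := by
  constructor
  · intro h i
    have := h (σ⁻¹ i)
    simpa using this
  · intro h i
    exact h (σ i)

theorem inv3_rc {O : ℕ} {w : Meas} (h : Inv3 w) : Inv3 (rc O w) := by
  classical
  intro σ n
  rw [rc_coeff, rc_coeff, comp_shift]
  by_cases hk : keepW O (n + cO O)
  · rw [if_pos hk, if_pos ((keepW_comp σ).2 hk), h]
  · rw [if_neg hk, if_neg (fun h' => hk ((keepW_comp σ).1 h'))]

theorem invE_rc {O : ℕ} {w : Meas} (h : InvE w) : InvE (rc O w) := by
  classical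
  intro n
  rw [rc_coeff, rc_coeff, comp_shift]
  by_cases hk : keepW O (n + cO O)
  · rw [if_pos hk, if_pos ((keepW_comp _).2 hk), h]
  · rw [if_neg hk, if_neg (fun h' => hk ((keepW_comp _).1 h'))]

theorem supp_rc {O : ℕ} {w : Meas} (h : Supp O 2 w) : Supp O 1 (rc O w) := by
  classical
  intro n hn
  rw [rc_coeff] at hn
  split_ifs at hn with hk
  · obtain ⟨h1, h2⟩ := h _ hn
    simp only [Pi.add_apply, cO] at h1
    refine ⟨by omega, fun i => ?_⟩
    have := (hk i).2
    simp only [Pi.add_apply, cO] at this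
    omega
  · exact absurd rfl hn

private lemma tot_cast (w : Meas) : (tot w : ℝ) = atomsVal w (fun _ => 1) := by
  unfold tot atomsVal Finsupp.sum
  push_cast
  simp

theorem tot_rc_le (O : ℕ) (w : Meas) : tot (rc O w) ≤ tot w := by
  have h : (tot (rc O w) : ℝ) ≤ tot w := by
    rw [tot_cast, tot_cast]
    exact atomsVal_rc_le (O := O) w (f := fun _ => (1 : ℝ)) (fun _ => zero_le_one)
  exact_mod_cast h

private lemma ray_shift (r : ℝ) (O : ℕ) (m : Ex) : ray r O 2 (m + cO O) = ray r O 1 m := by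
  funext i
  simp only [ray, Pi.add_apply, cO]
  congr 1
  push_cast
  ring

/-- the value of the window on a test function that is nonpositive -/
theorem VP_rc {bw O : ℕ} {r : ℝ} (hr : 0 < r) {X Y : Meas} {G : Vec → ℝ} (hG : NSub G) :
    VP bw r O 2 X Y G ≤ VP bw r O 1 (rc O X) (rc O Y) G := by
  unfold VP
  refine mul_le_mul_of_nonneg_left ?_ (by positivity)
  refine add_le_add ?_ (Finset.sum_le_sum fun m _ => ?_)
  · refine (atomsVal_rc_ge (O := O) X (fun n => hG.nonpos (ray_nonneg hr n))).trans_eq ?_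
    refine atomsVal_congr _ fun n => ?_
    simp only [ray_shift]
  · refine (atomsVal_rc_ge (O := O) Y (fun n => hG.nonpos (ray_mask_nonneg hr _ m))).trans_eq ?_
    refine atomsVal_congr _ fun n => ?_
    rw [← comp_shift, ray_shift]

theorem massV_rc_le {bw O : ℕ} {r : ℝ} (hr : 0 < r) (w : Meas) (j : Fin 3) :
    massV bw r O 1 (rc O w) j ≤ massV bw r O 2 w j := by
  unfold massV
  refine mul_le_mul_of_nonneg_left ?_ (by positivity)
  refine le_trans (le_of_eq ?_) (atomsVal_rc_le (O := O) w (f := fun n => ray r O 2 n j)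
    (fun n => (ray_pos hr n j).le))
  refine atomsVal_congr _ fun n => ?_
  simp only [ray_shift]

/-! ### The digits -/

private def idx (L : ℕ) (n : Ex) : ℕ := n 0 + L * n 1

private lemma idx_inj {K L : ℕ} {m n : Ex} (hLpos : 0 < L)
    (hm : m 0 + m 1 + m 2 = K) (hm0 : m 0 < L) (hn : n 0 + n 1 + n 2 = K) (hn0 : n 0 < L)
    (h : idx L m = idx L n) : m = n := by
  unfold idx at h
  have h0 : m 0 = n 0 := by
    have := congrArg (· % L) h
    simp only [Nat.add_mul_mod_self_left, Nat.mod_eq_of_lt hm0, Nat.mod_eq_of_lt hn0] at this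
    exact this
  have h1 : m 1 = n 1 := by
    have : L * m 1 = L * n 1 := by omega
    exact Nat.eq_of_mul_eq_mul_left hLpos this
  have h2 : m 2 = n 2 := by omega
  funext i
  fin_cases i
  · exact h0
  · exact h1
  · exact h2

/-- the digit at index `i` of a weighted family over a finite set -/
private def digS (L : ℕ) (s : Finset Ex) (c : Ex → ℕ) (i : ℕ) : ℕ :=
  ∑ m ∈ s.filter (fun m => idx L m = i), c m

private lemma sum_eq_digS (B L T : ℕ) (s : Finset Ex) (c : Ex → ℕ) (hT : ∀ m ∈ s, idx L m ≤ T) :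
    ∑ m ∈ s, c m * 2 ^ (B * idx L m) =
      ∑ i ∈ Finset.range (T + 1), digS L s c i * 2 ^ (B * i) := by
  have hmaps : ∀ m ∈ s, idx L m ∈ Finset.range (T + 1) := fun m hm =>
    Finset.mem_range.mpr (Nat.lt_succ_of_le (hT m hm))
  rw [← Finset.sum_fiberwise_of_maps_to hmaps]
  refine Finset.sum_congr rfl fun i _ => ?_
  unfold digS
  rw [Finset.sum_mul]
  refine Finset.sum_congr rfl fun m hm => ?_
  rw [(Finset.mem_filter.mp hm).2]

private lemma digS_eq_of_mem {L : ℕ} {s : Finset Ex}
    (hinj : ∀ a ∈ s, ∀ b ∈ s, idx L a = idx L b → a = b)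
    (c : Ex → ℕ) {m : Ex} (hm : m ∈ s) : digS L s c (idx L m) = c m := by
  unfold digS
  have : s.filter (fun a => idx L a = idx L m) = {m} := by
    ext a
    simp only [Finset.mem_filter, Finset.mem_singleton]
    constructor
    · rintro ⟨ha, h⟩
      exact hinj a ha m hm h
    · rintro rfl
      exact ⟨hm, rfl⟩
  rw [this, Finset.sum_singleton]

private lemma digS_eq_zero {L : ℕ} {s : Finset Ex} (c : Ex → ℕ) {i : ℕ}
    (hi : ∀ a ∈ s, idx L a ≠ i) : digS L s c i = 0 := by
  unfold digS
  rw [Finset.filter_false_of_mem hi, Finset.sum_empty]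

private lemma digS_le_sum {L : ℕ} {s : Finset Ex} (c : Ex → ℕ) (i : ℕ) :
    digS L s c i ≤ ∑ m ∈ s, c m := by
  unfold digS
  exact Finset.sum_le_sum_of_subset (Finset.filter_subset _ _)

private lemma phi_eq_sum (B L : ℕ) (w : Meas) :
    phi B L w = ∑ m ∈ w.coeff.support, w.coeff m * 2 ^ (B * idx L m) := rfl

private lemma tot_eq_sum (w : Meas) : tot w = ∑ m ∈ w.coeff.support, w.coeff m := rfl

private lemma supp_facts {O k d L : ℕ} {w : Meas} (hs : Supp O k w) (hk : k ≤ d)
    (hL : L = 2 * d * O + 1) {m : Ex} (hm : m ∈ w.coeff.support) :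
    m 0 + m 1 + m 2 = 3 * (k * O) ∧ m 0 < L ∧ idx L m ≤ 2 * d * O + L * (2 * d * O) := by
  have h := hs m (Finsupp.mem_support_iff.mp hm)
  have h1 : k * O ≤ d * O := Nat.mul_le_mul_right _ hk
  have h2 : 2 * (k * O) ≤ 2 * d * O := by
    rw [mul_assoc]; omega
  have h3 := h.2 0
  have h4 := h.2 1
  refine ⟨h.1, by omega, ?_⟩
  unfold idx
  exact Nat.add_le_add (by omega) (Nat.mul_le_mul_left _ (by omega))

/-! ### The two kinds of digits of a mask -/

private lemma land_step_one {B bw : ℕ} (hb : bw ≤ B) {A : ℕ} (hA : A < 2 ^ B) (X M : ℕ) :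
    ((2 ^ B * X + A) >>> bw) &&& (2 ^ B * M + (2 ^ (B - bw) - 1)) =
      2 ^ B * ((X >>> bw) &&& M) + A / 2 ^ bw := by
  have ha : A / 2 ^ bw < 2 ^ (B - bw) := by
    rw [Nat.div_lt_iff_lt_mul (by positivity)]
    rw [← pow_add, Nat.sub_add_cancel hb]
    exact hA
  have ha' : A / 2 ^ bw < 2 ^ B :=
    ha.trans_le (Nat.pow_le_pow_right (by norm_num) (Nat.sub_le _ _))
  have hm : 2 ^ (B - bw) - 1 < 2 ^ B := by
    have : 2 ^ (B - bw) ≤ 2 ^ B := Nat.pow_le_pow_right (by norm_num) (Nat.sub_le _ _)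
    have : 0 < 2 ^ (B - bw) := by positivity
    omega
  apply Nat.eq_of_testBit_eq
  intro j
  rw [Nat.testBit_and, Nat.testBit_shiftRight, Nat.testBit_two_pow_mul_add _ hA,
    Nat.testBit_two_pow_mul_add _ hm, Nat.testBit_two_pow_mul_add _ ha', Nat.testBit_div_two_pow,
    Nat.testBit_two_pow_sub_one]
  by_cases hj : j < B
  · by_cases hj2 : j < B - bw
    · have hj3 : bw + j < B := by omega
      simp [hj, hj2, hj3, add_comm]
    · have hj4 : (A / 2 ^ bw).testBit j = false :=
        Nat.testBit_lt_two_pow (ha.trans_le (Nat.pow_le_pow_right (by norm_num) (by omega)))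
      rw [Nat.testBit_div_two_pow] at hj4
      simp [hj, hj2, hj4]
  · have hj5 : ¬ bw + j < B := by omega
    simp only [hj, hj5, if_false]
    rw [Nat.testBit_and, Nat.testBit_shiftRight]
    have e : bw + j - B = bw + (j - B) := by omega
    rw [e]

private lemma land_step_zero {B bw : ℕ} {A : ℕ} (hA : A < 2 ^ B) (X M : ℕ) :
    ((2 ^ B * X + A) >>> bw) &&& (2 ^ B * M + 0) = 2 ^ B * ((X >>> bw) &&& M) + 0 := by
  have h0 : (0 : ℕ) < 2 ^ B := by positivity
  apply Nat.eq_of_testBit_eq
  intro j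
  rw [Nat.testBit_and, Nat.testBit_shiftRight, Nat.testBit_two_pow_mul_add _ hA,
    Nat.testBit_two_pow_mul_add _ h0, Nat.testBit_two_pow_mul_add _ h0]
  by_cases hj : j < B
  · simp [hj]
  · have hj5 : ¬ bw + j < B := by omega
    simp only [hj, hj5, if_false]
    rw [Nat.testBit_and, Nat.testBit_shiftRight]
    have e : bw + j - B = bw + (j - B) := by omega
    rw [e]

/-- the digits kept by a mask made of full digits and of zero digits -/
private lemma land_digits {B bw : ℕ} (hb : bw ≤ B) (N : ℕ) (F : ℕ → ℕ) (hF : ∀ i, F i < 2 ^ B)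
    (keep : ℕ → Prop) [DecidablePred keep] :
    ((∑ i ∈ Finset.range N, F i * 2 ^ (B * i)) >>> bw) &&&
        (∑ i ∈ Finset.range N, (if keep i then 2 ^ (B - bw) - 1 else 0) * 2 ^ (B * i)) =
      ∑ i ∈ Finset.range N, (if keep i then F i / 2 ^ bw else 0) * 2 ^ (B * i) := by
  induction N generalizing F keep with
  | zero => simp
  | succ N ih =>
    have e1 : ∀ G : ℕ → ℕ, ∑ i ∈ Finset.range (N + 1), G i * 2 ^ (B * i) =
        2 ^ B * (∑ i ∈ Finset.range N, G (i + 1) * 2 ^ (B * i)) + G 0 := by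
      intro G
      rw [Finset.sum_range_succ', Finset.mul_sum]
      simp only [mul_zero, pow_zero, mul_one]
      congr 1
      refine Finset.sum_congr rfl fun i _ => ?_
      rw [mul_add, mul_one, pow_add]
      ring
    rw [e1 F, e1 (fun i => if keep i then 2 ^ (B - bw) - 1 else 0),
      e1 (fun i => if keep i then F i / 2 ^ bw else 0)]
    have IH := ih (fun i => F (i + 1)) (fun i => hF _) (fun i => keep (i + 1))
    by_cases hk : keep 0
    · simp only [if_pos hk]
      rw [land_step_one hb (hF 0), IH]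
    · simp only [if_neg hk]
      rw [land_step_zero (hF 0), IH]

/-! ### The mask of the window -/

private lemma hexOf_eq_sum (B bw L O : ℕ) :
    hexOf B bw L O = ∑ k ∈ Finset.range (2 * O + 1), rowHex B bw L O (O + k) := by
  have h : ∀ K : ℕ, (Nat.rec (motive := fun _ => Nat) 0
      (fun i ih => seqN (Nat.add ih (rowHex B bw L O (Nat.add O i))) (fun a => a)) K : ℕ)
      = ∑ k ∈ Finset.range K, rowHex B bw L O (O + k) := by
    intro K
    induction K with
    | zero => rfl
    | succ K ih =>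
      rw [Finset.sum_range_succ, ← ih]
      show seqN _ _ = _
      rw [seqN_eq]
      rfl
  exact h (Nat.succ (Nat.mul 2 O))

/-- lower end of a row -/
private def loR (O n1 : ℕ) : ℕ := O + (2 * O - n1)

/-- upper end of a row -/
private def hiR (O n1 : ℕ) : ℕ := 3 * O - (n1 - 2 * O)

private lemma rowHex_eq (B bw L O n1 : ℕ) (hB : 0 < B) :
    rowHex B bw L O n1 = ∑ j ∈ Finset.range (hiR O n1 + 1 - loR O n1),
      (2 ^ (B - bw) - 1) * 2 ^ (B * (loR O n1 + j + L * n1)) := by
  have h2 : 2 ≤ 2 ^ B := by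
    calc 2 = 2 ^ 1 := rfl
      _ ≤ 2 ^ B := Nat.pow_le_pow_right (by norm_num) hB
  have hg := Nat.geomSum_eq h2 (hiR O n1 + 1 - loR O n1)
  show (((1 <<< (B * (hiR O n1 + 1 - loR O n1)) - 1) / (1 <<< B - 1)) * (1 <<< (B - bw) - 1))
      <<< (B * (loR O n1 + L * n1)) = _
  simp only [Nat.shiftLeft_eq, one_mul]
  rw [pow_mul 2 B (hiR O n1 + 1 - loR O n1), ← hg, Finset.sum_mul, Finset.sum_mul]
  refine Finset.sum_congr rfl fun j _ => ?_
  rw [← pow_mul]
  have : B * (loR O n1 + j + L * n1) = B * j + B * (loR O n1 + L * n1) := by ring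
  rw [this, pow_add]
  ring

/-- the digits of the mask of the window -/
private def kp (L O i : ℕ) : Prop :=
  O ≤ i / L ∧ i / L ≤ 3 * O ∧ loR O (i / L) ≤ i % L ∧ i % L ≤ hiR O (i / L)

open Classical in
private lemma hexOf_eq (B bw L O N : ℕ) (hB : 0 < B) (hL : L = 4 * O + 1)
    (hN : 3 * O + L * (3 * O) < N) :
    hexOf B bw L O =
      ∑ i ∈ Finset.range N, (if kp L O i then 2 ^ (B - bw) - 1 else 0) * 2 ^ (B * i) := by
  rw [hexOf_eq_sum]
  simp only [rowHex_eq _ _ _ _ _ hB]
  rw [Finset.sum_sigma']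
  have hLpos : 0 < L := by omega
  have hsum : ∀ i, (if kp L O i then 2 ^ (B - bw) - 1 else 0) * 2 ^ (B * i) =
      if kp L O i then (2 ^ (B - bw) - 1) * 2 ^ (B * i) else 0 := by
    intro i
    split_ifs <;> simp
  simp only [hsum]
  rw [← Finset.sum_filter]
  -- row `n1 = O + k`, column `loR + j`
  have hdiv : ∀ k j, j < hiR O (O + k) + 1 - loR O (O + k) → k < 2 * O + 1 →
      (loR O (O + k) + j + L * (O + k)) / L = O + k ∧
      (loR O (O + k) + j + L * (O + k)) % L = loR O (O + k) + j := by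
    intro k j hj hk
    have hlt : loR O (O + k) + j < L := by
      unfold hiR loR at *
      omega
    constructor
    · rw [Nat.add_mul_div_left _ _ hLpos, Nat.div_eq_of_lt hlt, zero_add]
    · rw [Nat.add_mul_mod_self_left, Nat.mod_eq_of_lt hlt]
  refine Finset.sum_nbij' (fun x => loR O (O + x.1) + x.2 + L * (O + x.1))
    (fun i => ⟨i / L - O, i % L - loR O (i / L)⟩) ?_ ?_ ?_ ?_ ?_
  · rintro ⟨k, j⟩ hx
    simp only [Finset.mem_sigma, Finset.mem_range] at hx
    obtain ⟨h1, h2⟩ := hdiv k j hx.2 hx.1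
    rw [Finset.mem_filter, Finset.mem_range]
    have hlt := hx.2
    constructor
    · have hj3 : loR O (O + k) + j ≤ 3 * O := by
        unfold hiR loR at *
        omega
      have hk3 : L * (O + k) ≤ L * (3 * O) := Nat.mul_le_mul_left _ (by omega)
      show loR O (O + k) + j + L * (O + k) < N
      omega
    · unfold kp
      simp only
      rw [h1, h2]
      unfold hiR loR at *
      omega
  · intro i hi
    rw [Finset.mem_filter, Finset.mem_range] at hi
    obtain ⟨h1, h2, h3, h4⟩ := hi.2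
    simp only [Finset.mem_sigma, Finset.mem_range]
    unfold hiR loR at *
    omega
  · rintro ⟨k, j⟩ hx
    simp only [Finset.mem_sigma, Finset.mem_range] at hx
    obtain ⟨h1, h2⟩ := hdiv k j hx.2 hx.1
    simp only [h1, h2]
    have e1 : O + k - O = k := by omega
    simp only [e1, Nat.add_sub_cancel_left]
  · intro i hi
    rw [Finset.mem_filter, Finset.mem_range] at hi
    obtain ⟨h1, h2, h3, h4⟩ := hi.2
    have e1 : O + (i / L - O) = i / L := by omega
    simp only [e1]
    have e2 : loR O (i / L) + (i % L - loR O (i / L)) = i % L := by omega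
    rw [e2]
    exact Nat.mod_add_div i L
  · rintro ⟨k, j⟩ _
    rfl

/-- the digit of a kept exponent -/
private lemma keepW_iff {O L : ℕ} (hL : L = 4 * O + 1) {n : Ex}
    (hn : n 0 + n 1 + n 2 = 3 * (2 * O)) (hn0 : n 0 < L) : keepW O n ↔ kp L O (idx L n) := by
  have hLpos : 0 < L := by omega
  have h1 : idx L n / L = n 1 := by
    unfold idx
    rw [Nat.add_mul_div_left _ _ hLpos, Nat.div_eq_of_lt hn0, zero_add]
  have h2 : idx L n % L = n 0 := by
    unfold idx
    rw [Nat.add_mul_mod_self_left, Nat.mod_eq_of_lt hn0]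
  unfold kp
  rw [h1, h2]
  unfold hiR loR
  constructor
  · intro h
    have a0 := h 0
    have a1 := h 1
    have a2 := h 2
    omega
  · rintro ⟨a, b, c, d⟩ i
    fin_cases i <;> simp only [Fin.zero_eta, Fin.mk_one, Fin.reduceFinMk] <;> omega

open Classical in
private lemma phi_rc_mul (B L O : ℕ) (u : Meas) :
    phi B L (rc O u) * 2 ^ (B * (O + L * O)) =
      ∑ n ∈ u.coeff.support.filter (keepW O), u.coeff n * 2 ^ (B * idx L n) := by
  rw [phi_eq_sum, Finset.sum_mul]
  refine Finset.sum_nbij' (fun m => m + cO O) (fun n => n - cO O) ?_ ?_ ?_ ?_ ?_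
  · intro m hm
    rw [Finsupp.mem_support_iff, rc_coeff] at hm
    rw [Finset.mem_filter, Finsupp.mem_support_iff]
    split_ifs at hm with h
    · exact ⟨hm, h⟩
    · exact absurd rfl hm
  · intro n hn
    rw [Finset.mem_filter, Finsupp.mem_support_iff] at hn
    rw [Finsupp.mem_support_iff, rc_coeff]
    simp only [sub_add_cO hn.2, if_pos hn.2]
    exact hn.1
  · intro m _
    exact add_sub_cO m O
  · intro n hn
    exact sub_add_cO (Finset.mem_filter.mp hn).2
  · intro m hm
    rw [Finsupp.mem_support_iff, rc_coeff] at hm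
    rw [rc_coeff]
    split_ifs at hm ⊢ with h
    · rw [mul_assoc, ← pow_add]
      congr 2
      unfold idx
      simp only [Pi.add_apply, cO]
      ring
    · exact absurd rfl hm

/-- The Kronecker evaluation of the window. Here `L = 4 O + 1`, the position of the centre is
`B (O + L O)`, and `w` is the untruncated measure at level two. -/
theorem truncH_phi {B bw O L : ℕ} {w : Meas} (hL : L = 4 * O + 1) (hs : Supp O 2 w)
    (ht : tot w < 2 ^ B) (hb : bw ≤ B) :
    truncH bw (hexOf B bw L O) (B * (O + L * O)) (phi B L w) = phi B L (rc O (tr bw w)) := by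
  classical
  rcases Nat.eq_zero_or_pos B with hB | hB
  · -- all is zero
    subst hB
    have hbw : bw = 0 := by omega
    subst hbw
    have h0 : tot w = 0 := by simpa using ht
    have hphi0 : ∀ u : Meas, phi 0 L u = tot u := by
      intro u
      unfold phi tot
      simp
    have h1 : tot (tr 0 w) = 0 := by
      have := tot_tr_le (bw := 0) w
      omega
    have h2 := tot_rc_le O (tr 0 w)
    rw [hphi0, hphi0]
    rw [h0]
    have h3 : tot (rc O (tr 0 w)) = 0 := by omega
    rw [h3]
    show ((0 >>> 0) &&& _) >>> _ = 0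
    simp
  -- the main case
  set s := w.coeff.support with hsdef
  have hLd : L = 2 * 2 * O + 1 := by omega
  have hLpos : 0 < L := by omega
  have hfacts : ∀ m ∈ s, _ := fun m hm => supp_facts hs (le_refl 2) hLd hm
  have hinj : ∀ a ∈ s, ∀ b ∈ s, idx L a = idx L b → a = b := by
    intro a ha b hb h
    obtain ⟨h1, h2, -⟩ := hfacts a ha
    obtain ⟨h3, h4, -⟩ := hfacts b hb
    exact idx_inj hLpos h1 h2 h3 h4 h
  set T := 2 * 2 * O + L * (2 * 2 * O) with hT
  have hTs : ∀ m ∈ s, idx L m ≤ T := fun m hm => (hfacts m hm).2.2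
  have hphi : phi B L w = ∑ i ∈ Finset.range (T + 1), digS L s (fun m => w.coeff m) i * 2 ^ (B * i) := by
    rw [phi_eq_sum, ← sum_eq_digS B L T s _ hTs]
  have hdig : ∀ i, digS L s (fun m => w.coeff m) i < 2 ^ B := fun i =>
    (digS_le_sum _ i).trans_lt ht
  have hN : 3 * O + L * (3 * O) < T + 1 := by
    have : L * (3 * O) ≤ L * (2 * 2 * O) := Nat.mul_le_mul_left _ (by omega)
    omega
  -- the kept family
  set c' : Ex → ℕ := fun m => if keepW O m then w.coeff m / 2 ^ bw else 0 with hc'
  have hdigc : ∀ i, (if kp L O i then digS L s (fun m => w.coeff m) i / 2 ^ bw else 0) =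
      digS L s c' i := by
    intro i
    by_cases h : ∃ a ∈ s, idx L a = i
    · obtain ⟨a, ha, rfl⟩ := h
      rw [digS_eq_of_mem hinj _ ha, digS_eq_of_mem hinj _ ha]
      obtain ⟨h1, h2, -⟩ := hfacts a ha
      by_cases hk : keepW O a
      · rw [if_pos ((keepW_iff hL h1 h2).1 hk)]
        simp [hc', hk]
      · rw [if_neg (fun h' => hk ((keepW_iff hL h1 h2).2 h'))]
        simp [hc', hk]
    · push Not at h
      rw [digS_eq_zero _ h, digS_eq_zero _ h]
      simp
  have hland : (phi B L w >>> bw) &&& hexOf B bw L O =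
      ∑ m ∈ s, c' m * 2 ^ (B * idx L m) := by
    rw [hphi, hexOf_eq B bw L O (T + 1) hB hL hN, land_digits hb (T + 1) _ hdig (kp L O),
      sum_eq_digS B L T s c' hTs]
    exact Finset.sum_congr rfl fun i _ => by rw [hdigc]
  have hmain : ∑ m ∈ s, c' m * 2 ^ (B * idx L m) =
      phi B L (rc O (tr bw w)) * 2 ^ (B * (O + L * O)) := by
    rw [phi_rc_mul]
    have hcoeff : ∀ m, (tr bw w).coeff m = w.coeff m / 2 ^ bw := fun m => rfl
    symm
    have hsub : (tr bw w).coeff.support.filter (keepW O) ⊆ s := by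
      intro m hm
      have hm' := (Finset.mem_filter.mp hm).1
      rw [Finsupp.mem_support_iff, hcoeff] at hm'
      rw [hsdef, Finsupp.mem_support_iff]
      intro h0
      rw [h0] at hm'
      simp at hm'
    rw [← Finset.sum_subset hsub]
    · refine Finset.sum_congr rfl fun m hm => ?_
      have := (Finset.mem_filter.mp hm).2
      simp [hc', hcoeff, this]
    · intro m _ hm
      rw [Finset.mem_filter, Finsupp.mem_support_iff, hcoeff] at hm
      by_cases hk : keepW O m
      · have : w.coeff m / 2 ^ bw = 0 := by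
          by_contra h
          exact hm ⟨h, hk⟩
        simp [hc', hk, this]
      · simp [hc', hk]
  show ((phi B L w >>> bw) &&& hexOf B bw L O) >>> (B * (O + L * O)) = _
  rw [hland, hmain, Nat.shiftRight_eq_div_pow, Nat.mul_div_cancel _ (by positivity)]

end Vale.Agent.Lib.P154.PChain
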